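import Vale.Agent.Lib.P245.Defs

/-!
# P245, M2: Donsker-Varadhan (helper65)
-/

open MeasureTheory Real

namespace Vale.Agent.Lib.P245

/-- Young `a b ≤ a log a - a + e^b`. -/
lemma young_log {a : ℝ} (ha : 0 < a) (b : ℝ) : a * b ≤ a * log a - a + exp b := by
  have h := add_one_le_exp (b - log a)
  have h2 : exp (b - log a) * a = exp b := by
    rw [exp_sub, exp_log ha]; field_simp
  have h3 : (b - log a + 1) * a ≤ exp (b - log a) * a := by gcongr
  rw [h2] at h3
  nlinarith

/-- Young `a b ≤ a log a - a + e^b` integrated. -/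
theorem dv {Ω : Type*} [MeasurableSpace Ω] (ν : Measure Ω) [IsProbabilityMeasure ν]
    {G T : Ω → ℝ} (hG0 : ∀ x, 0 < G x)
    (hG1 : ∫ x, G x ∂ν = 1) (hG : Integrable G ν)
    (hGlog : Integrable (fun x => G x * log (G x)) ν)
    (hGT : Integrable (fun x => G x * T x) ν) (hexp : Integrable (fun x => exp (T x)) ν) :
    ∫ x, G x * T x ∂ν ≤ ∫ x, G x * log (G x) ∂ν + log (∫ x, exp (T x) ∂ν) := by
  have hZ : 0 < ∫ x, exp (T x) ∂ν := by
    rw [integral_pos_iff_support_of_nonneg (fun x => (exp_pos _).le) hexp]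
    have : Function.support (fun x => exp (T x)) = Set.univ := by
      ext x; simp [(exp_pos (T x)).ne']
    rw [this]; simp
  set Λ := log (∫ x, exp (T x) ∂ν) with hΛ
  have hpt : ∀ x, G x * T x - Λ * G x ≤ G x * log (G x) - G x + exp (-Λ) * exp (T x) := by
    intro x
    have := young_log (hG0 x) (T x - Λ)
    rw [exp_sub] at this
    have h2 : exp (T x) / exp Λ = exp (-Λ) * exp (T x) := by
      rw [exp_neg]; field_simp
    rw [h2] at this
    nlinarith
  have hL : Integrable (fun x => G x * T x - Λ * G x) ν := hGT.sub (hG.const_mul Λ)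
  have hR : Integrable (fun x => G x * log (G x) - G x + exp (-Λ) * exp (T x)) ν :=
    (hGlog.sub hG).add (hexp.const_mul _)
  have hmono := integral_mono hL hR hpt
  have hRv : ∫ x, (G x * log (G x) - G x + exp (-Λ) * exp (T x)) ∂ν =
      ∫ x, G x * log (G x) ∂ν - 1 + exp (-Λ) * ∫ x, exp (T x) ∂ν := by
    have e1 : ∫ x, (G x * log (G x) - G x + exp (-Λ) * exp (T x)) ∂ν =
        ∫ x, (G x * log (G x) - G x) ∂ν + ∫ x, exp (-Λ) * exp (T x) ∂ν :=
      integral_add (hGlog.sub hG) (hexp.const_mul _)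
    rw [e1, integral_sub hGlog hG, hG1, integral_const_mul]
  rw [integral_sub hGT (hG.const_mul Λ), integral_const_mul, hG1, hRv] at hmono
  have h3 : exp (-Λ) * ∫ x, exp (T x) ∂ν = 1 := by
    rw [hΛ, exp_neg, exp_log hZ]; field_simp
  rw [h3] at hmono
  linarith

end Vale.Agent.Lib.P245
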