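import Mathlib

/-!
# P245: definitions for the level-L log-Sobolev chain

Everything is stated on `E n = EuclideanSpace ℝ (Fin n)`.  No results here.
-/

open MeasureTheory Real
open scoped InnerProductSpace

namespace Vale.Agent.Lib.P245

/-- Euclidean space. -/
abbrev E (n : ℕ) := EuclideanSpace ℝ (Fin n)

variable {n : ℕ}

/-- Gaussian kernel of variance `t` on `E n`. -/
noncomputable def gk (t : ℝ) (y : E n) : ℝ :=
  (2 * π * t) ^ (-(n : ℝ) / 2) * exp (-‖y‖ ^ 2 / (2 * t))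

/-- The exponential weight `exp(⟪θ, x⟫ - s |x|² / 2)`. -/
noncomputable def wt (s : ℝ) (θ x : E n) : ℝ := exp (⟪θ, x⟫_ℝ - s * ‖x‖ ^ 2 / 2)

/-- `KK μ H s θ = ∫ H(x) exp(⟪θ, x⟫ - s |x|²/2) dμ(x)`. -/
noncomputable def KK (μ : Measure (E n)) (H : E n → ℝ) (s : ℝ) (θ : E n) : ℝ :=
  ∫ x, H x * wt s θ x ∂μ

/-- The constant function one. -/
noncomputable def one : E n → ℝ := fun _ => 1

/-- Relative entropy at time `s` between the laws of `θ = s x + √s g` for `x ∼ H μ` and `x ∼ μ`. -/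
noncomputable def WW (μ : Measure (E n)) (H : E n → ℝ) (s : ℝ) : ℝ :=
  ∫ θ, gk s θ * KK μ H s θ * log (KK μ H s θ / KK μ one s θ)

/-- The tilted measure `μ_{s,θ}`. -/
noncomputable def tilt (μ : Measure (E n)) (s : ℝ) (θ : E n) : Measure (E n) :=
  μ.withDensity (fun x => ENNReal.ofReal (wt s θ x / KK μ one s θ))

/-- The density of `F μ` relative to `μ_{s,θ}` after normalisation. -/
noncomputable def Gth (μ : Measure (E n)) (F : E n → ℝ) (s : ℝ) (θ x : E n) : ℝ :=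
  F x / (KK μ F s θ / KK μ one s θ)

/-- Relative entropy of `Gth` under the tilted measure. -/
noncomputable def ell (μ : Measure (E n)) (F : E n → ℝ) (s : ℝ) (θ : E n) : ℝ :=
  ∫ x, Gth μ F s θ x * log (Gth μ F s θ x) ∂(tilt μ s θ)

/-- Moment generating function bound around the point `a`. -/
structure MgfBd (ν : Measure (E n)) (a : E n) (S : ℝ) : Prop where
  int : ∀ v : E n, Integrable (fun x => exp ⟪v, x - a⟫_ℝ) ν
  bd : ∀ v : E n, ∫ x, exp ⟪v, x - a⟫_ℝ ∂ν ≤ exp (S * ‖v‖ ^ 2)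

/-- The standing assumptions on `μ` for the entropy chain. -/
structure SG (μ : Measure (E n)) (b : ℝ) : Prop where
  pos : 0 < b
  prob : IsProbabilityMeasure μ
  int : ∀ v : E n, Integrable (fun x => exp ⟪v, x⟫_ℝ) μ
  bd : ∀ v : E n, ∫ x, exp ⟪v, x⟫_ℝ ∂μ ≤ exp (b * ‖v‖ ^ 2)
  centered : ∫ x, x ∂μ = 0
  mid : ∀ s : ℝ, 0 < s → ∀ θ v : E n,
    KK μ one s (θ + v) * KK μ one s (θ - v) ≤ KK μ one s θ ^ 2 * exp (‖v‖ ^ 2 / s)

/-- A bounded measurable function with values in `[1/B, B]`. -/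
structure Bdd (F : E n → ℝ) (B : ℝ) : Prop where
  meas : Measurable F
  one_le : 1 ≤ B
  lo : ∀ x, B⁻¹ ≤ F x
  hi : ∀ x, F x ≤ B

/-- Log-concave density in multiplicative form. -/
def LC (ρ : E n → ℝ) : Prop :=
  (∀ x, 0 ≤ ρ x) ∧ Measurable ρ ∧
    ∀ x y : E n, ∀ t : ℝ, 0 < t → t < 1 → ρ x ^ t * ρ y ^ (1 - t) ≤ ρ (t • x + (1 - t) • y)

/-- Entropy. -/
noncomputable def Ent (μ : Measure (E n)) (g : E n → ℝ) : ℝ :=
  ∫ x, g x * log (g x) ∂μ - (∫ x, g x ∂μ) * log (∫ x, g x ∂μ)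

/-- Log-concave Lebesgue density (as in the problem file). -/
def IsLogConcaveDensity (ρ : E n → ℝ) : Prop :=
  Measurable ρ ∧ (∀ x, 0 ≤ ρ x) ∧ Convex ℝ {x | 0 < ρ x} ∧
    ConcaveOn ℝ {x | 0 < ρ x} (fun x => log (ρ x))

/-- Linear `a`-subgaussianity (integrability included so that the integral means what it says). -/
def LinSubgaussian (μ : Measure (E n)) (a : ℝ) : Prop :=
  ∀ θ : E n, ‖θ‖ = 1 → Integrable (fun x => exp (⟪x, θ⟫_ℝ ^ 2 / a ^ 2)) μ ∧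
    ∫ x, exp (⟪x, θ⟫_ℝ ^ 2 / a ^ 2) ∂μ ≤ 2

end Vale.Agent.Lib.P245
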