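import Vale.Agent.Lib.P245.Defs

/-!
# P245, M1: Gaussian kernel facts and the Gaussian moment bound (helper65)
-/

open MeasureTheory Real
open scoped InnerProductSpace

namespace Vale.Agent.Lib.P245

variable {n : ℕ}

lemma gk_pos {t : ℝ} (ht : 0 < t) (y : E n) : 0 < gk t y := by
  unfold gk
  have : 0 < 2 * π * t := by positivity
  positivity

lemma continuous_gk (t : ℝ) : Continuous (gk (n := n) t) := by
  unfold gk
  fun_prop

lemma finrank_E : Module.finrank ℝ (E n) = n := by simp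

/-- Real integrability of the Gaussian. -/
lemma integrable_exp_neg_sq {b : ℝ} (hb : 0 < b) :
    Integrable fun y : E n => exp (-b * ‖y‖ ^ 2) := by
  have h := GaussianFourier.integrable_cexp_neg_mul_sq_norm_add (V := E n)
    (b := (b : ℂ)) (by simpa using hb) 0 (0 : E n)
  have h2 := h.re
  refine h2.congr (Filter.Eventually.of_forall fun y => ?_)
  simp only [RCLike.re_to_complex, zero_mul, add_zero]
  rw [show (-(b : ℂ) * (‖y‖ : ℂ) ^ 2) = ((-b * ‖y‖ ^ 2 : ℝ) : ℂ) by push_cast; ring]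
  rw [Complex.exp_ofReal_re]

lemma integral_exp_neg_sq {b : ℝ} (hb : 0 < b) :
    ∫ y : E n, exp (-b * ‖y‖ ^ 2) = (π / b) ^ ((n : ℝ) / 2) := by
  have := GaussianFourier.integral_rexp_neg_mul_sq_norm (V := E n) hb
  simpa using this

lemma integrable_gk_mul_exp_sq {t c : ℝ} (ht : 0 < t) (hc : 2 * c * t < 1) :
    Integrable fun y : E n => gk t y * exp (c * ‖y‖ ^ 2) := by
  have hb : 0 < (1 - 2 * c * t) / (2 * t) := by
    apply div_pos <;> linarith
  have := (integrable_exp_neg_sq (n := n) hb).const_mul ((2 * π * t) ^ (-(n : ℝ) / 2))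
  refine this.congr (Filter.Eventually.of_forall fun y => ?_)
  simp only [gk]
  rw [mul_assoc _ (exp _) (exp _), ← exp_add]
  congr 2
  field_simp
  ring

lemma integral_gk_mul_exp_sq {t c : ℝ} (ht : 0 < t) (hc : 2 * c * t < 1) :
    ∫ y : E n, gk t y * exp (c * ‖y‖ ^ 2) = (1 - 2 * c * t) ^ (-(n : ℝ) / 2) := by
  have hb : 0 < (1 - 2 * c * t) / (2 * t) := by
    apply div_pos <;> linarith
  have h1 : ∀ y : E n, gk t y * exp (c * ‖y‖ ^ 2) =
      (2 * π * t) ^ (-(n : ℝ) / 2) * exp (-((1 - 2 * c * t) / (2 * t)) * ‖y‖ ^ 2) := by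
    intro y
    simp only [gk]
    rw [mul_assoc _ (exp _) (exp _), ← exp_add]
    congr 2
    field_simp
    ring
  simp_rw [h1]
  rw [integral_const_mul, integral_exp_neg_sq hb]
  have h2 : 0 < 2 * π * t := by positivity
  have h3 : 0 < 1 - 2 * c * t := by linarith
  have h4 : 0 < π / ((1 - 2 * c * t) / (2 * t)) := by positivity
  rw [show (-(n : ℝ) / 2) = -((n : ℝ) / 2) by ring, rpow_neg h2.le, rpow_neg h3.le]
  rw [show π / ((1 - 2 * c * t) / (2 * t)) = (2 * π * t) * (1 - 2 * c * t)⁻¹ by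
    field_simp]
  rw [mul_rpow h2.le (by positivity), inv_rpow h3.le]
  have h5 : (2 * π * t) ^ ((n : ℝ) / 2) ≠ 0 := (rpow_pos_of_pos h2 _).ne'
  field_simp

lemma integrable_gk {t : ℝ} (ht : 0 < t) : Integrable (gk (n := n) t) := by
  have := integrable_gk_mul_exp_sq (n := n) (t := t) (c := 0) ht (by simp)
  simpa using this

lemma integral_gk {t : ℝ} (ht : 0 < t) : ∫ y : E n, gk t y = 1 := by
  have := integral_gk_mul_exp_sq (n := n) (t := t) (c := 0) ht (by simp)
  simpa using this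

/-- Completing the square. -/
lemma gk_mul_exp {t : ℝ} (ht : 0 < t) (y v : E n) :
    gk t y * exp ⟪y, v⟫_ℝ = gk t (y - t • v) * exp (t * ‖v‖ ^ 2 / 2) := by
  simp only [gk]
  rw [mul_assoc _ (exp _) (exp _), mul_assoc _ (exp _) (exp _), ← exp_add, ← exp_add]
  congr 2
  have h : ‖y - t • v‖ ^ 2 = ‖y‖ ^ 2 - 2 * t * ⟪y, v⟫_ℝ + t ^ 2 * ‖v‖ ^ 2 := by
    rw [norm_sub_sq_real, inner_smul_right, norm_smul, mul_pow]
    simp only [Real.norm_eq_abs, sq_abs]
    ring
  rw [h]
  field_simp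
  ring

lemma integrable_gk_mul_exp {t : ℝ} (ht : 0 < t) (v : E n) :
    Integrable fun y : E n => gk t y * exp ⟪y, v⟫_ℝ := by
  simp_rw [gk_mul_exp ht]
  exact ((integrable_gk ht).comp_sub_right (t • v)).mul_const _

lemma integral_gk_mul_exp {t : ℝ} (ht : 0 < t) (v : E n) :
    ∫ y : E n, gk t y * exp ⟪y, v⟫_ℝ = exp (t * ‖v‖ ^ 2 / 2) := by
  simp_rw [gk_mul_exp ht]
  rw [integral_mul_const, integral_sub_right_eq_self (gk (n := n) t) (t • v), integral_gk ht, one_mul]

/-- `gk s θ * exp(⟪θ,x⟫ - s|x|²/2) = gk s (θ - s x)`. -/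
lemma gk_tilt {s : ℝ} (hs : 0 < s) (θ x : E n) : gk s θ * wt s θ x = gk s (θ - s • x) := by
  simp only [gk, wt]
  rw [mul_assoc _ (exp _) (exp _), ← exp_add]
  congr 2
  have h : ‖θ - s • x‖ ^ 2 = ‖θ‖ ^ 2 - 2 * s * ⟪θ, x⟫_ℝ + s ^ 2 * ‖x‖ ^ 2 := by
    rw [norm_sub_sq_real, inner_smul_right, norm_smul, mul_pow]
    simp only [Real.norm_eq_abs, sq_abs]
    ring
  rw [h]
  field_simp
  ring

/-- Product formula for Gaussian kernels. -/
lemma gk_mul_gk {s δ : ℝ} (hs : 0 < s) (hδ : 0 < δ) (θ θ' : E n) :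
    gk s θ * gk δ (θ' - θ) =
      gk (s * δ / (s + δ)) (θ - (s / (s + δ)) • θ') * gk (s + δ) θ' := by
  have hsd : 0 < s + δ := by positivity
  simp only [gk]
  have h2π : (0 : ℝ) < 2 * π := by positivity
  have hc : (2 * π * s) ^ (-(n : ℝ) / 2) * (2 * π * δ) ^ (-(n : ℝ) / 2) =
      (2 * π * (s * δ / (s + δ))) ^ (-(n : ℝ) / 2) * (2 * π * (s + δ)) ^ (-(n : ℝ) / 2) := by
    rw [← mul_rpow (by positivity) (by positivity), ← mul_rpow (by positivity) (by positivity)]
    congr 1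
    field_simp
  have he : -‖θ‖ ^ 2 / (2 * s) + -‖θ' - θ‖ ^ 2 / (2 * δ) =
      -‖θ - (s / (s + δ)) • θ'‖ ^ 2 / (2 * (s * δ / (s + δ))) + -‖θ'‖ ^ 2 / (2 * (s + δ)) := by
    have h1 : ‖θ' - θ‖ ^ 2 = ‖θ'‖ ^ 2 - 2 * ⟪θ', θ⟫_ℝ + ‖θ‖ ^ 2 := norm_sub_sq_real _ _
    have h2 : ‖θ - (s / (s + δ)) • θ'‖ ^ 2 =
        ‖θ‖ ^ 2 - 2 * (s / (s + δ)) * ⟪θ, θ'⟫_ℝ + (s / (s + δ)) ^ 2 * ‖θ'‖ ^ 2 := by
      rw [norm_sub_sq_real, inner_smul_right, norm_smul, mul_pow]
      simp only [Real.norm_eq_abs, sq_abs]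
      ring
    rw [h1, h2, real_inner_comm θ θ']
    field_simp
    ring
  calc (2 * π * s) ^ (-(n : ℝ) / 2) * exp (-‖θ‖ ^ 2 / (2 * s)) *
        ((2 * π * δ) ^ (-(n : ℝ) / 2) * exp (-‖θ' - θ‖ ^ 2 / (2 * δ)))
      = ((2 * π * s) ^ (-(n : ℝ) / 2) * (2 * π * δ) ^ (-(n : ℝ) / 2)) *
          exp (-‖θ‖ ^ 2 / (2 * s) + -‖θ' - θ‖ ^ 2 / (2 * δ)) := by
        rw [exp_add]; ring
    _ = _ := by
        rw [hc, he, exp_add]; ring

lemma integrable_gk_conv {s δ : ℝ} (hs : 0 < s) (hδ : 0 < δ) (θ' : E n) :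
    Integrable fun θ : E n => gk s θ * gk δ (θ' - θ) := by
  simp_rw [gk_mul_gk hs hδ]
  exact ((integrable_gk (by positivity)).comp_sub_right _).mul_const _

lemma integral_gk_conv {s δ : ℝ} (hs : 0 < s) (hδ : 0 < δ) (θ' : E n) :
    ∫ θ : E n, gk s θ * gk δ (θ' - θ) = gk (s + δ) θ' := by
  simp_rw [gk_mul_gk hs hδ]
  rw [integral_mul_const,
    integral_sub_right_eq_self (gk (n := n) (s * δ / (s + δ))) ((s / (s + δ)) • θ'),
    integral_gk (by positivity), one_mul]

lemma integrable_gk_mul_sq {t : ℝ} (ht : 0 < t) :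
    Integrable fun y : E n => gk t y * ‖y‖ ^ 2 := by
  have hc : 0 < 1 / (4 * t) := by positivity
  have h := integrable_gk_mul_exp_sq (n := n) (t := t) (c := 1 / (4 * t)) ht (by
    field_simp; norm_num)
  refine (h.const_mul (4 * t)).mono' ?_ (Filter.Eventually.of_forall fun y => ?_)
  · exact ((continuous_gk t).mul (by fun_prop)).aestronglyMeasurable
  · have h0 := gk_pos ht y
    have h1 : ‖y‖ ^ 2 / (4 * t) + 1 ≤ exp (1 / (4 * t) * ‖y‖ ^ 2) := by
      have := add_one_le_exp (1 / (4 * t) * ‖y‖ ^ 2)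
      calc ‖y‖ ^ 2 / (4 * t) + 1 = 1 / (4 * t) * ‖y‖ ^ 2 + 1 := by ring
        _ ≤ _ := this
    have h2 : ‖y‖ ^ 2 ≤ 4 * t * exp (1 / (4 * t) * ‖y‖ ^ 2) := by
      have : ‖y‖ ^ 2 / (4 * t) ≤ exp (1 / (4 * t) * ‖y‖ ^ 2) := by linarith
      rwa [div_le_iff₀ (by positivity), mul_comm] at this
    rw [Real.norm_of_nonneg (by positivity)]
    calc gk t y * ‖y‖ ^ 2 ≤ gk t y * (4 * t * exp (1 / (4 * t) * ‖y‖ ^ 2)) := by gcongr
      _ = _ := by ring

/-- From `integral_gk_mul_exp_sq` with `c = 1/(4t)` and Jensen. -/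
lemma integral_gk_mul_sq_le {t : ℝ} (ht : 0 < t) :
    ∫ y : E n, gk t y * ‖y‖ ^ 2 ≤ 2 * t * n := by
  set m := ∫ y : E n, gk t y * ‖y‖ ^ 2 with hm
  have hc : 0 < 1 / (4 * t) := by positivity
  have hcc : 2 * (1 / (4 * t)) * t < 1 := by field_simp; norm_num
  have hI := integrable_gk_mul_exp_sq (n := n) (t := t) (c := 1 / (4 * t)) ht hcc
  have hV := integral_gk_mul_exp_sq (n := n) (t := t) (c := 1 / (4 * t)) ht hcc
  set A := 1 / (4 * t) * m with hA
  -- tangent line at A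
  have hpt : ∀ y : E n, gk t y * (exp A * (1 + (1 / (4 * t) * ‖y‖ ^ 2 - A))) ≤
      gk t y * exp (1 / (4 * t) * ‖y‖ ^ 2) := by
    intro y
    have h0 := gk_pos ht y
    have := add_one_le_exp (1 / (4 * t) * ‖y‖ ^ 2 - A)
    have h2 : exp A * (1 + (1 / (4 * t) * ‖y‖ ^ 2 - A)) ≤ exp (1 / (4 * t) * ‖y‖ ^ 2) := by
      have h3 : exp (1 / (4 * t) * ‖y‖ ^ 2) =
          exp A * exp (1 / (4 * t) * ‖y‖ ^ 2 - A) := by
        rw [← exp_add]; congr 1; ring
      rw [h3]
      gcongr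
      linarith
    gcongr
  have hLint : Integrable fun y : E n => gk t y * (exp A * (1 + (1 / (4 * t) * ‖y‖ ^ 2 - A))) := by
    have h1 := (integrable_gk (n := n) ht).const_mul (exp A * (1 - A))
    have h2 := (integrable_gk_mul_sq (n := n) ht).const_mul (exp A * (1 / (4 * t)))
    refine (h1.add h2).congr (Filter.Eventually.of_forall fun y => ?_)
    simp only [Pi.add_apply]
    ring
  have hL : ∫ y : E n, gk t y * (exp A * (1 + (1 / (4 * t) * ‖y‖ ^ 2 - A))) = exp A := by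
    have h1 := (integrable_gk (n := n) ht).const_mul (exp A * (1 - A))
    have h2 := (integrable_gk_mul_sq (n := n) ht).const_mul (exp A * (1 / (4 * t)))
    have h3 : ∀ y : E n, gk t y * (exp A * (1 + (1 / (4 * t) * ‖y‖ ^ 2 - A))) =
        (exp A * (1 - A)) * gk t y + (exp A * (1 / (4 * t))) * (gk t y * ‖y‖ ^ 2) := by
      intro y; ring
    simp_rw [h3]
    rw [integral_add h1 h2, integral_const_mul, integral_const_mul, integral_gk ht, ← hm, hA]
    ring
  have hmono := integral_mono hLint hI hpt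
  rw [hL, hV] at hmono
  have h12 : (1 - 2 * (1 / (4 * t)) * t) = 1 / 2 := by field_simp; norm_num
  rw [h12] at hmono
  -- take logs
  have hlog := (log_le_log_iff (exp_pos A) (by positivity)).2 hmono
  rw [log_exp, log_rpow (by norm_num)] at hlog
  have hl2 : log (1 / 2) = - log 2 := by
    rw [one_div, log_inv]
  rw [hl2] at hlog
  have hl3 : log 2 ≤ 1 := by
    have := log_two_lt_d9; linarith
  have hl4 : 0 ≤ log 2 := log_nonneg (by norm_num)
  have hn : (0 : ℝ) ≤ n := Nat.cast_nonneg n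
  have h5 : A ≤ (n : ℝ) / 2 := by
    have : -(n : ℝ) / 2 * -log 2 = (n : ℝ) / 2 * log 2 := by ring
    rw [this] at hlog
    calc A ≤ (n : ℝ) / 2 * log 2 := hlog
      _ ≤ (n : ℝ) / 2 * 1 := by gcongr
      _ = _ := by ring
  rw [hA] at h5
  have h6 : m = 4 * t * (1 / (4 * t) * m) := by field_simp
  rw [h6]
  calc 4 * t * (1 / (4 * t) * m) ≤ 4 * t * ((n : ℝ) / 2) := by gcongr
    _ = 2 * t * n := by ring

/-- Gaussian averaging: `exp(c|x|²) = ∫ gk (2c) y exp⟪y,x⟫ dy`, then Tonelli and the mgf bound. -/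
theorem gauss_moment {Ω : Type*} [MeasurableSpace Ω] (ν : Measure Ω) [IsProbabilityMeasure ν]
    {X : Ω → E n} (hX : Measurable X) {S : ℝ} (hS : 0 < S)
    (hv : ∀ v : E n, Integrable (fun ω => exp ⟪v, X ω⟫_ℝ) ν)
    (hb : ∀ v : E n, ∫ ω, exp ⟪v, X ω⟫_ℝ ∂ν ≤ exp (S * ‖v‖ ^ 2))
    {c : ℝ} (hc0 : 0 < c) (hc : 4 * c * S < 1) :
    Integrable (fun ω => exp (c * ‖X ω‖ ^ 2)) ν ∧
      ∫ ω, exp (c * ‖X ω‖ ^ 2) ∂ν ≤ (1 - 4 * c * S) ^ (-(n : ℝ) / 2) := by
  have ht : 0 < 2 * c := by positivity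
  have hcS : 2 * S * (2 * c) < 1 := by nlinarith
  set F : E n × Ω → ℝ := fun p => gk (2 * c) p.1 * exp ⟪p.1, X p.2⟫_ℝ with hF
  have hFm : Measurable F := by
    apply Measurable.mul
    · exact (continuous_gk _).measurable.comp measurable_fst
    · apply Measurable.exp
      exact Measurable.inner measurable_fst (hX.comp measurable_snd)
  have hInt : Integrable F ((volume : Measure (E n)).prod ν) := by
    rw [integrable_prod_iff hFm.aestronglyMeasurable]
    constructor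
    · refine Filter.Eventually.of_forall fun y => ?_
      exact (hv y).const_mul (gk (2 * c) y)
    · have hg : Integrable (fun y : E n => gk (2 * c) y * exp (S * ‖y‖ ^ 2)) :=
        integrable_gk_mul_exp_sq ht hcS
      refine hg.mono' ?_ (Filter.Eventually.of_forall fun y => ?_)
      · exact (hFm.norm.aestronglyMeasurable).integral_prod_right'
      · have h0 := gk_pos ht y
        have h1 : ∀ ω, ‖F (y, ω)‖ = gk (2 * c) y * exp ⟪y, X ω⟫_ℝ := by
          intro ω
          rw [Real.norm_of_nonneg]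
          apply mul_nonneg h0.le (exp_pos _).le
        simp_rw [h1]
        rw [integral_const_mul, Real.norm_of_nonneg]
        · gcongr
          exact hb y
        · apply mul_nonneg h0.le
          exact integral_nonneg fun ω => (exp_pos _).le
  have hval : ∀ ω, ∫ y : E n, F (y, ω) = exp (c * ‖X ω‖ ^ 2) := by
    intro ω
    simp only [hF]
    rw [integral_gk_mul_exp ht]
    congr 1
    ring
  constructor
  · have := hInt.integral_prod_right
    refine this.congr (Filter.Eventually.of_forall fun ω => ?_)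
    exact hval ω
  · have hsw := integral_integral_swap (f := fun y ω => F (y, ω)) (μ := (volume : Measure (E n)))
      (ν := ν) hInt
    calc ∫ ω, exp (c * ‖X ω‖ ^ 2) ∂ν = ∫ ω, ∫ y : E n, F (y, ω) ∂volume ∂ν := by
          simp_rw [hval]
      _ = ∫ y : E n, ∫ ω, F (y, ω) ∂ν := hsw.symm
      _ ≤ ∫ y : E n, gk (2 * c) y * exp (S * ‖y‖ ^ 2) := by
          apply integral_mono_of_nonneg
          · refine Filter.Eventually.of_forall fun y => ?_
            apply integral_nonneg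
            intro ω
            exact mul_nonneg (gk_pos ht y).le (exp_pos _).le
          · exact integrable_gk_mul_exp_sq ht hcS
          · refine Filter.Eventually.of_forall fun y => ?_
            simp only [hF]
            rw [integral_const_mul]
            have := hb y
            have h0 := gk_pos ht y
            gcongr
      _ = (1 - 4 * c * S) ^ (-(n : ℝ) / 2) := by
          rw [integral_gk_mul_exp_sq ht hcS]
          congr 1
          ring

end Vale.Agent.Lib.P245
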