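import Vale.Agent.Lib.P245.Defs
import Vale.Agent.Lib.P245.Gauss

/-!
# P245, M3: the one step chi-square bound (helper65)

Blueprint section 3: `WW ν G δ ≤ χ²`, replica formula, `e^w = 1 + w + r(w)`.
-/

open MeasureTheory Real
open scoped InnerProductSpace

namespace Vale.Agent.Lib.P245

variable {n : ℕ}

/-- Tangent line Jensen for the exponential. -/
lemma os_jensen_exp {Ω : Type*} [MeasurableSpace Ω] {μ : Measure Ω} [IsProbabilityMeasure μ]
    {X : Ω → ℝ} (hX : Integrable X μ) (hE : Integrable (fun ω => exp (X ω)) μ) :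
    exp (∫ ω, X ω ∂μ) ≤ ∫ ω, exp (X ω) ∂μ := by
  set m := ∫ ω, X ω ∂μ with hm
  have hpt : ∀ ω, exp m * (1 + (X ω - m)) ≤ exp (X ω) := by
    intro ω
    have := add_one_le_exp (X ω - m)
    have h3 : exp (X ω) = exp m * exp (X ω - m) := by rw [← exp_add]; congr 1; ring
    rw [h3]
    gcongr
    linarith
  have hI : Integrable (fun ω => 1 + (X ω - m)) μ :=
    (integrable_const 1).add (hX.sub (integrable_const m))
  have hL : Integrable (fun ω => exp m * (1 + (X ω - m))) μ := hI.const_mul _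
  have hmono := integral_mono hL hE hpt
  have hXm : Integrable (fun ω => X ω - m) μ := hX.sub (integrable_const m)
  have h2 : ∫ ω, exp m * (1 + (X ω - m)) ∂μ = exp m := by
    rw [integral_const_mul, integral_add (integrable_const 1) hXm,
      integral_sub hX (integrable_const m)]
    simp [← hm]
  rwa [h2] at hmono

/-- Pointwise: `|e^w - 1 - w| ≤ w² e^{|w|}`. -/
lemma os_abs_exp_sub (w : ℝ) : |exp w - 1 - w| ≤ w ^ 2 * exp |w| := by
  have h0 : 0 ≤ exp w - 1 - w := by linarith [add_one_le_exp w]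
  rw [abs_of_nonneg h0]
  by_cases hw : -1 ≤ w
  · have h1 : 1 - w ≤ exp (-w) := by linarith [add_one_le_exp (-w)]
    have h2 : exp (-w) * exp w = 1 := by rw [← exp_add]; simp
    have h3 : (1 - w) * exp w ≤ 1 := by
      calc (1 - w) * exp w ≤ exp (-w) * exp w := by gcongr
        _ = 1 := h2
    have h4 : (1 + w) * ((1 - w) * exp w) ≤ (1 + w) * 1 := by
      apply mul_le_mul_of_nonneg_left h3; linarith
    have h5 : exp w ≤ exp |w| := exp_le_exp.2 (le_abs_self w)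
    have h6 : w ^ 2 * exp w ≤ w ^ 2 * exp |w| := by gcongr
    nlinarith
  · push Not at hw
    have h1 : exp w ≤ 1 := exp_le_one_iff.2 (by linarith)
    have h2 : 1 ≤ exp |w| := one_le_exp (abs_nonneg w)
    have h3 : w ^ 2 ≤ w ^ 2 * exp |w| := by
      nlinarith [sq_nonneg w]
    nlinarith

/-- Pointwise: `x² ≤ e^{x}` for `x ≥ 0`. -/
lemma os_sq_le_exp {x : ℝ} (hx : 0 ≤ x) : x ^ 2 ≤ exp x := by
  have h1 := quadratic_le_exp_of_nonneg (x := x / 2) (by positivity)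
  have h2 : exp x = exp (x / 2) * exp (x / 2) := by rw [← exp_add]; congr 1; ring
  rw [h2]
  have h3 : 0 ≤ 1 + x / 2 + (x / 2) ^ 2 / 2 := by positivity
  have h4 : (1 + x / 2 + (x / 2) ^ 2 / 2) * (1 + x / 2 + (x / 2) ^ 2 / 2) ≤
      exp (x / 2) * exp (x / 2) := by gcongr
  have h5 : x ^ 2 ≤ (1 + x / 2 + (x / 2) ^ 2 / 2) * (1 + x / 2 + (x / 2) ^ 2 / 2) := by
    have h6 : 0 ≤ x ^ 3 := by positivity
    have h7 : 0 ≤ x ^ 4 := by positivity
    nlinarith [sq_nonneg (x - 2), sq_nonneg (x ^ 2 - 4 * x)]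
  linarith

/-- The remainder estimate of the blueprint, with `δ₀` free. -/
lemma os_remainder {δ δ₀ : ℝ} (hδ : 0 < δ) (hδ' : δ ≤ δ₀) (t : ℝ) :
    |exp (δ * t) - 1 - δ * t| ≤ (δ / δ₀) ^ 2 * (exp (2 * δ₀ * t) + exp (-(2 * δ₀ * t))) := by
  have hδ₀ : 0 < δ₀ := lt_of_lt_of_le hδ hδ'
  have h1 := os_abs_exp_sub (δ * t)
  have h2 : (δ₀ * |t|) ^ 2 ≤ exp (δ₀ * |t|) := os_sq_le_exp (by positivity)
  have h3 : (δ * t) ^ 2 = (δ / δ₀) ^ 2 * (δ₀ * |t|) ^ 2 := by
    rw [mul_pow, mul_pow, div_pow, sq_abs]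
    field_simp
  have h4 : exp |δ * t| ≤ exp (δ₀ * |t|) := by
    apply exp_le_exp.2
    rw [abs_mul, abs_of_pos hδ]
    gcongr
  have h5 : exp (δ₀ * |t|) * exp (δ₀ * |t|) = exp (2 * δ₀ * |t|) := by
    rw [← exp_add]; congr 1; ring
  have h6 : exp (2 * δ₀ * |t|) ≤ exp (2 * δ₀ * t) + exp (-(2 * δ₀ * t)) := by
    rcases abs_cases t with ⟨h, _⟩ | ⟨h, _⟩
    · rw [h]; linarith [exp_pos (-(2 * δ₀ * t))]
    · rw [h, show 2 * δ₀ * -t = -(2 * δ₀ * t) by ring]; linarith [exp_pos (2 * δ₀ * t)]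
  calc |exp (δ * t) - 1 - δ * t| ≤ (δ * t) ^ 2 * exp |δ * t| := h1
    _ = (δ / δ₀) ^ 2 * ((δ₀ * |t|) ^ 2 * exp |δ * t|) := by rw [h3]; ring
    _ ≤ (δ / δ₀) ^ 2 * (exp (δ₀ * |t|) * exp (δ₀ * |t|)) := by gcongr
    _ = (δ / δ₀) ^ 2 * exp (2 * δ₀ * |t|) := by rw [h5]
    _ ≤ _ := by gcongr

section Moments

variable {ν : Measure (E n)} [IsProbabilityMeasure ν] {a : E n} {S : ℝ}

lemma os_continuous_wt (δ : ℝ) : Continuous (fun p : E n × E n => wt δ p.1 p.2) := by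
  unfold wt
  fun_prop

lemma os_measurable_wt (δ : ℝ) : Measurable (fun p : E n × E n => wt δ p.1 p.2) :=
  (os_continuous_wt δ).measurable

lemma os_wt_pos (δ : ℝ) (y x : E n) : 0 < wt δ y x := exp_pos _

omit [IsProbabilityMeasure ν] in
lemma os_int_exp_inner (h : MgfBd ν a S) (y : E n) :
    Integrable (fun x => exp ⟪y, x⟫_ℝ) ν := by
  have := (h.int y).const_mul (exp ⟪y, a⟫_ℝ)
  refine this.congr (ae_of_all _ fun x => ?_)
  simp only
  rw [← exp_add, inner_sub_right]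
  congr 1
  ring

omit [IsProbabilityMeasure ν] in
lemma os_int_wt (h : MgfBd ν a S) {δ : ℝ} (hδ : 0 ≤ δ) (y : E n) :
    Integrable (wt δ y) ν := by
  refine (os_int_exp_inner h y).mono' ?_ (ae_of_all _ fun x => ?_)
  · exact ((os_continuous_wt δ).comp (Continuous.prodMk_right y)).aestronglyMeasurable
  · rw [Real.norm_of_nonneg (os_wt_pos δ y x).le]
    unfold wt
    apply exp_le_exp.2
    have : 0 ≤ δ * ‖x‖ ^ 2 / 2 := by positivity
    linarith

lemma os_moment (h : MgfBd ν a S) (hS : 0 < S) {c : ℝ} (hc0 : 0 < c) (hc : 4 * c * S < 1) :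
    Integrable (fun x => exp (c * ‖x - a‖ ^ 2)) ν ∧
      ∫ x, exp (c * ‖x - a‖ ^ 2) ∂ν ≤ (1 - 4 * c * S) ^ (-(n : ℝ) / 2) :=
  gauss_moment ν (X := fun x => x - a) (by fun_prop) hS h.int h.bd hc0 hc

lemma os_int_sq (h : MgfBd ν a S) (hS : 0 < S) : Integrable (fun x => ‖x - a‖ ^ 2) ν := by
  have hc0 : 0 < 1 / (8 * S) := by positivity
  have hc : 4 * (1 / (8 * S)) * S < 1 := by field_simp; norm_num
  refine ((os_moment h hS hc0 hc).1.const_mul (8 * S)).mono' ?_ (ae_of_all _ fun x => ?_)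
  · apply Continuous.aestronglyMeasurable; fun_prop
  · rw [Real.norm_of_nonneg (by positivity)]
    have h1 := add_one_le_exp (1 / (8 * S) * ‖x - a‖ ^ 2)
    have h2 : ‖x - a‖ ^ 2 = 8 * S * (1 / (8 * S) * ‖x - a‖ ^ 2) := by field_simp
    calc ‖x - a‖ ^ 2 = 8 * S * (1 / (8 * S) * ‖x - a‖ ^ 2) := h2
      _ ≤ 8 * S * exp (1 / (8 * S) * ‖x - a‖ ^ 2) := by
        gcongr
        linarith
      
lemma os_int_sub (h : MgfBd ν a S) (hS : 0 < S) : Integrable (fun x => x - a) ν := by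
  refine ((integrable_const (1 : ℝ)).add (os_int_sq h hS)).mono' ?_ (ae_of_all _ fun x => ?_)
  · apply Continuous.aestronglyMeasurable; fun_prop
  · simp only [Pi.add_apply]
    nlinarith [sq_nonneg (‖x - a‖ - 1), norm_nonneg (x - a)]

lemma os_int_id (h : MgfBd ν a S) (hS : 0 < S) : Integrable (fun x : E n => x) ν := by
  have := (os_int_sub h hS).add (integrable_const a)
  refine this.congr (ae_of_all _ fun x => ?_)
  simp

lemma os_int_sq' (h : MgfBd ν a S) (hS : 0 < S) : Integrable (fun x : E n => ‖x‖ ^ 2) ν := by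
  have h1 := (os_int_sq h hS).const_mul 2
  have h2 := h1.add (integrable_const (2 * ‖a‖ ^ 2))
  refine h2.mono' ?_ (ae_of_all _ fun x => ?_)
  · apply Continuous.aestronglyMeasurable; fun_prop
  · simp only [Pi.add_apply]
    rw [Real.norm_of_nonneg (by positivity)]
    have : ‖x‖ ≤ ‖x - a‖ + ‖a‖ := by
      calc ‖x‖ = ‖(x - a) + a‖ := by simp
        _ ≤ _ := norm_add_le _ _
    nlinarith [sq_nonneg (‖x - a‖ - ‖a‖), norm_nonneg (x - a), norm_nonneg a, norm_nonneg x]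

/-- `τ = ∫ ‖x - a‖²` is at most `4 S n`. -/
lemma os_tau_le (h : MgfBd ν a S) (hS : 0 < S) : ∫ x, ‖x - a‖ ^ 2 ∂ν ≤ 4 * S * n := by
  have hc0 : 0 < 1 / (8 * S) := by positivity
  have hc : 4 * (1 / (8 * S)) * S < 1 := by field_simp; norm_num
  obtain ⟨hI, hV⟩ := os_moment h hS hc0 hc
  have hJ := os_jensen_exp (μ := ν) (X := fun x => 1 / (8 * S) * ‖x - a‖ ^ 2)
    ((os_int_sq h hS).const_mul _) hI
  have h12 : (1 - 4 * (1 / (8 * S)) * S) = 1 / 2 := by field_simp; norm_num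
  rw [h12] at hV
  have h3 := hJ.trans hV
  rw [integral_const_mul] at h3
  have hlog := (log_le_log_iff (exp_pos _) (by positivity)).2 h3
  rw [log_exp, log_rpow (by norm_num)] at hlog
  have hl2 : log (1 / 2) = - log 2 := by rw [one_div, log_inv]
  rw [hl2] at hlog
  have hl3 : log 2 ≤ 1 := by
    have := log_two_lt_d9; linarith
  have hn : (0 : ℝ) ≤ n := Nat.cast_nonneg n
  have h5 : 1 / (8 * S) * ∫ x, ‖x - a‖ ^ 2 ∂ν ≤ (n : ℝ) / 2 := by
    have : -(n : ℝ) / 2 * -log 2 = (n : ℝ) / 2 * log 2 := by ring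
    rw [this] at hlog
    calc _ ≤ (n : ℝ) / 2 * log 2 := hlog
      _ ≤ (n : ℝ) / 2 * 1 := by gcongr
      _ = _ := by ring
  have h6 : ∫ x, ‖x - a‖ ^ 2 ∂ν = 8 * S * (1 / (8 * S) * ∫ x, ‖x - a‖ ^ 2 ∂ν) := by field_simp
  rw [h6]
  calc 8 * S * (1 / (8 * S) * ∫ x, ‖x - a‖ ^ 2 ∂ν) ≤ 8 * S * ((n : ℝ) / 2) := by gcongr
    _ = 4 * S * n := by ring

/-- The bilinear exponential moment on the product. -/
lemma os_bilin (h : MgfBd ν a S) (hS : 0 < S) {κ : ℝ} (hκ : 4 * (S * κ ^ 2) * S < 1) :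
    Integrable (fun p : E n × E n => exp (κ * ⟪p.1 - a, p.2 - a⟫_ℝ)) (ν.prod ν) ∧
      ∫ p : E n × E n, exp (κ * ⟪p.1 - a, p.2 - a⟫_ℝ) ∂(ν.prod ν) ≤
        (1 - 4 * (S * κ ^ 2) * S) ^ (-(n : ℝ) / 2) := by
  have hm : Measurable (fun p : E n × E n => exp (κ * ⟪p.1 - a, p.2 - a⟫_ℝ)) := by
    apply Continuous.measurable; fun_prop
  have hsec : ∀ x : E n, (fun x' : E n => exp (κ * ⟪x - a, x' - a⟫_ℝ)) =
      fun x' => exp ⟪κ • (x - a), x' - a⟫_ℝ := by
    intro x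
    funext x'
    rw [inner_smul_left]
    simp
  have hsecI : ∀ x : E n, Integrable (fun x' : E n => exp (κ * ⟪x - a, x' - a⟫_ℝ)) ν := by
    intro x
    rw [hsec x]
    exact h.int _
  have hsecB : ∀ x : E n, ∫ x', exp (κ * ⟪x - a, x' - a⟫_ℝ) ∂ν ≤
      exp (S * κ ^ 2 * ‖x - a‖ ^ 2) := by
    intro x
    rw [hsec x]
    refine (h.bd _).trans (le_of_eq ?_)
    rw [norm_smul, mul_pow]
    simp only [Real.norm_eq_abs, sq_abs]
    ring_nf
  by_cases hκ0 : κ = 0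
  · subst hκ0
    simp
  have hc0 : 0 < S * κ ^ 2 := by positivity
  obtain ⟨hI, hV⟩ := os_moment h hS hc0 hκ
  have hInt : Integrable (fun p : E n × E n => exp (κ * ⟪p.1 - a, p.2 - a⟫_ℝ)) (ν.prod ν) := by
    rw [integrable_prod_iff hm.aestronglyMeasurable]
    refine ⟨ae_of_all _ hsecI, ?_⟩
    refine hI.mono' ?_ (ae_of_all _ fun x => ?_)
    · exact (hm.norm.aestronglyMeasurable).integral_prod_right'
    · have h1 : ∀ x', ‖exp (κ * ⟪x - a, x' - a⟫_ℝ)‖ = exp (κ * ⟪x - a, x' - a⟫_ℝ) := by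
        intro x'; exact Real.norm_of_nonneg (exp_pos _).le
      simp_rw [h1]
      rw [Real.norm_of_nonneg (integral_nonneg fun x' => (exp_pos _).le)]
      exact hsecB x
  refine ⟨hInt, ?_⟩
  rw [integral_prod _ hInt]
  refine le_trans ?_ hV
  apply integral_mono_of_nonneg
  · exact ae_of_all _ fun x => integral_nonneg fun x' => (exp_pos _).le
  · exact hI
  · exact ae_of_all _ hsecB

end Moments

section Main

variable {ν : Measure (E n)} [IsProbabilityMeasure ν] {a : E n} {S : ℝ}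

/-- Strong measurability of `KK`. -/
lemma os_measurable_KK {H : E n → ℝ} (hH : Measurable H) (δ : ℝ) :
    Measurable (KK ν H δ) := by
  have hm : Measurable (fun p : E n × E n => H p.2 * wt δ p.1 p.2) :=
    (hH.comp measurable_snd).mul (os_measurable_wt δ)
  exact (hm.stronglyMeasurable.integral_prod_right' (ν := ν)).measurable

/-- Mass identity: `∫ gk δ y KK ν H δ y dy = ∫ H dν`. -/
lemma os_mass {δ : ℝ} (hδ : 0 < δ) {H : E n → ℝ} (hH : Measurable H)
    {C : ℝ} (hC : ∀ x, |H x| ≤ C) :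
    Integrable (fun y => gk δ y * KK ν H δ y) ∧
      ∫ y, gk δ y * KK ν H δ y = ∫ x, H x ∂ν := by
  set F : E n × E n → ℝ := fun p => gk δ p.1 * (H p.2 * wt δ p.1 p.2) with hF
  have hFm : Measurable F :=
    ((continuous_gk δ).measurable.comp measurable_fst).mul
      ((hH.comp measurable_snd).mul (os_measurable_wt δ))
  have hsec : ∀ x y : E n, F (y, x) = H x * gk δ (y - δ • x) := by
    intro x y
    simp only [hF]
    rw [← gk_tilt hδ]
    ring
  have hsecI : ∀ x : E n, Integrable (fun y => F (y, x)) := by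
    intro x
    simp_rw [hsec x]
    exact ((integrable_gk hδ).comp_sub_right (δ • x)).const_mul _
  have hsecV : ∀ x : E n, ∫ y, F (y, x) = H x := by
    intro x
    simp_rw [hsec x]
    rw [integral_const_mul, integral_sub_right_eq_self (gk (n := n) δ) (δ • x), integral_gk hδ,
      mul_one]
  have hsecN : ∀ x : E n, ∫ y, ‖F (y, x)‖ = |H x| := by
    intro x
    have : ∀ y, ‖F (y, x)‖ = |H x| * gk δ (y - δ • x) := by
      intro y
      rw [hsec x, norm_mul, Real.norm_eq_abs, Real.norm_of_nonneg (gk_pos hδ _).le]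
    simp_rw [this]
    rw [integral_const_mul, integral_sub_right_eq_self (gk (n := n) δ) (δ • x), integral_gk hδ,
      mul_one]
  have hHI : Integrable H ν :=
    Integrable.mono' (integrable_const C) hH.aestronglyMeasurable
      (ae_of_all _ fun x => by simpa using hC x)
  have hInt : Integrable F ((volume : Measure (E n)).prod ν) := by
    rw [integrable_prod_iff' hFm.aestronglyMeasurable]
    refine ⟨ae_of_all _ hsecI, ?_⟩
    simp_rw [hsecN]
    exact hHI.abs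
  have hval : ∀ y, ∫ x, F (y, x) ∂ν = gk δ y * KK ν H δ y := by
    intro y
    simp only [hF, KK]
    rw [integral_const_mul]
  constructor
  · exact hInt.integral_prod_left.congr (ae_of_all _ hval)
  · have hsw := integral_integral_swap (f := fun y x => F (y, x)) (μ := (volume : Measure (E n)))
      (ν := ν) hInt
    simp_rw [hval, hsecV] at hsw
    exact hsw


/-- Bounded measurable times integrable. -/
lemma os_bdd_mul {Ω : Type*} [MeasurableSpace Ω] {μ : Measure Ω} {f g : Ω → ℝ} {C : ℝ}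
    (hg : Integrable g μ) (hfm : Measurable f) (hf : ∀ x, |f x| ≤ C) :
    Integrable (fun x => f x * g x) μ := by
  refine (hg.norm.const_mul C).mono' (hfm.aestronglyMeasurable.mul hg.aestronglyMeasurable)
    (ae_of_all _ fun x => ?_)
  rw [norm_mul, Real.norm_eq_abs]
  have := norm_nonneg (g x)
  gcongr
  exact hf x

/-- Integrable times bounded measurable. -/
lemma os_bdd_mul_right {Ω : Type*} [MeasurableSpace Ω] {μ : Measure Ω} {f g : Ω → ℝ} {C : ℝ}
    (hg : Integrable g μ) (hfm : Measurable f) (hf : ∀ x, |f x| ≤ C) :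
    Integrable (fun x => g x * f x) μ := by
  have := os_bdd_mul hg hfm hf
  refine this.congr (ae_of_all _ fun x => ?_)
  simp only
  ring

lemma os_Gt_abs {G : E n → ℝ} {B : ℝ} (hG : Bdd G B) (x : E n) : |G x - 1| ≤ B := by
  have h1 := hG.one_le
  have h2 := hG.hi x
  have h3 := hG.lo x
  have h4 : 0 < B⁻¹ := by positivity
  rw [abs_le]
  constructor <;> linarith

lemma os_A_abs {G : E n → ℝ} {B : ℝ} (hG : Bdd G B) (p : E n × E n) :
    |(G p.1 - 1) * (G p.2 - 1)| ≤ B ^ 2 := by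
  rw [abs_mul, sq]
  have h1 := os_Gt_abs hG p.1
  have h2 := os_Gt_abs hG p.2
  have h3 : 0 ≤ B := le_trans zero_le_one hG.one_le
  exact mul_le_mul h1 h2 (abs_nonneg _) h3

lemma os_A_meas {G : E n → ℝ} {B : ℝ} (hG : Bdd G B) :
    Measurable (fun p : E n × E n => (G p.1 - 1) * (G p.2 - 1)) :=
  ((hG.meas.comp measurable_fst).sub_const 1).mul ((hG.meas.comp measurable_snd).sub_const 1)

/-- The exponent identity of the replica computation. -/
lemma os_exponent (x x' a : E n) :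
    ‖x + x' - a‖ ^ 2 - ‖x‖ ^ 2 - ‖x'‖ ^ 2 = 2 * ⟪x - a, x' - a⟫_ℝ - ‖a‖ ^ 2 := by
  have key : ∀ u u' : E n, ‖u + u' + a‖ ^ 2 - ‖u + a‖ ^ 2 - ‖u' + a‖ ^ 2 =
      2 * ⟪u, u'⟫_ℝ - ‖a‖ ^ 2 := by
    intro u u'
    rw [norm_add_sq_real (u + u') a, norm_add_sq_real u u', norm_add_sq_real u a,
      norm_add_sq_real u' a, inner_add_left]
    ring
  have := key (x - a) (x' - a)
  have e1 : x - a + (x' - a) + a = x + x' - a := by abel
  have e2 : x - a + a = x := by abel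
  have e3 : x' - a + a = x' := by abel
  rwa [e1, e2, e3] at this

/-- The replica formula: Fubini in `(y, x, x')`. -/
lemma os_replica (h : MgfBd ν a S) (hS : 0 < S) {δ : ℝ} (hδ : 0 < δ) (hδ' : δ ≤ 1 / (8 * S))
    {G : E n → ℝ} {B : ℝ} (hG : Bdd G B) :
    Integrable (fun y => gk δ y * exp (-⟪y, a⟫_ℝ) * (KK ν G δ y - KK ν one δ y) ^ 2) ∧
    ∫ y, gk δ y * exp (-⟪y, a⟫_ℝ) * (KK ν G δ y - KK ν one δ y) ^ 2 =
      exp (-(δ * ‖a‖ ^ 2 / 2)) *
        ∫ p : E n × E n, (G p.1 - 1) * (G p.2 - 1) * exp (δ * ⟪p.1 - a, p.2 - a⟫_ℝ) ∂(ν.prod ν) := by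
  have hδS : 4 * (S * δ ^ 2) * S < 1 := by
    have h1 : δ * (8 * S) ≤ 1 := by
      rwa [le_div_iff₀ (by positivity)] at hδ'
    have h2 : 0 < δ * (8 * S) := by positivity
    nlinarith
  obtain ⟨hEI, -⟩ := os_bilin h hS hδS
  set Φ : E n × (E n × E n) → ℝ := fun q =>
    gk δ q.1 * exp (-⟪q.1, a⟫_ℝ) *
      ((G q.2.1 - 1) * wt δ q.1 q.2.1 * ((G q.2.2 - 1) * wt δ q.1 q.2.2)) with hΦ
  have hΦm : Measurable Φ := by
    have m1 : Measurable (fun q : E n × (E n × E n) => gk δ q.1) :=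
      (continuous_gk δ).measurable.comp measurable_fst
    have m2 : Measurable (fun q : E n × (E n × E n) => exp (-⟪q.1, a⟫_ℝ)) := by
      apply Continuous.measurable; fun_prop
    have m3 : Measurable (fun q : E n × (E n × E n) => G q.2.1 - 1) :=
      (hG.meas.comp (measurable_fst.comp measurable_snd)).sub_const 1
    have m4 : Measurable (fun q : E n × (E n × E n) => G q.2.2 - 1) :=
      (hG.meas.comp (measurable_snd.comp measurable_snd)).sub_const 1
    have m5 : Measurable (fun q : E n × (E n × E n) => wt δ q.1 q.2.1) := by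
      apply Continuous.measurable; unfold wt; fun_prop
    have m6 : Measurable (fun q : E n × (E n × E n) => wt δ q.1 q.2.2) := by
      apply Continuous.measurable; unfold wt; fun_prop
    exact (m1.mul m2).mul ((m3.mul m5).mul (m4.mul m6))
  -- section in `y`
  have hsec : ∀ (p : E n × E n) (y : E n), Φ (y, p) =
      ((G p.1 - 1) * (G p.2 - 1) * exp (-(δ * (‖p.1‖ ^ 2 + ‖p.2‖ ^ 2) / 2))) *
        (gk δ y * exp ⟪y, p.1 + p.2 - a⟫_ℝ) := by
    intro p y
    simp only [hΦ, wt]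
    have e : exp ⟪y, p.1 + p.2 - a⟫_ℝ * exp (-(δ * (‖p.1‖ ^ 2 + ‖p.2‖ ^ 2) / 2)) =
        exp (-⟪y, a⟫_ℝ) * (exp (⟪y, p.1⟫_ℝ - δ * ‖p.1‖ ^ 2 / 2) *
          exp (⟪y, p.2⟫_ℝ - δ * ‖p.2‖ ^ 2 / 2)) := by
      rw [← exp_add, ← exp_add, ← exp_add]
      congr 1
      rw [inner_sub_right, inner_add_right]
      ring
    calc _ = (G p.1 - 1) * (G p.2 - 1) * gk δ y * (exp (-⟪y, a⟫_ℝ) *
          (exp (⟪y, p.1⟫_ℝ - δ * ‖p.1‖ ^ 2 / 2) * exp (⟪y, p.2⟫_ℝ - δ * ‖p.2‖ ^ 2 / 2))) := by ring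
      _ = (G p.1 - 1) * (G p.2 - 1) * gk δ y * (exp ⟪y, p.1 + p.2 - a⟫_ℝ *
          exp (-(δ * (‖p.1‖ ^ 2 + ‖p.2‖ ^ 2) / 2))) := by rw [e]
      _ = _ := by ring
  have hexpo : ∀ p : E n × E n, exp (-(δ * (‖p.1‖ ^ 2 + ‖p.2‖ ^ 2) / 2)) *
      exp (δ * ‖p.1 + p.2 - a‖ ^ 2 / 2) =
        exp (-(δ * ‖a‖ ^ 2 / 2)) * exp (δ * ⟪p.1 - a, p.2 - a⟫_ℝ) := by
    intro p
    rw [← exp_add, ← exp_add]
    congr 1
    have := os_exponent p.1 p.2 a
    have h2 : ‖p.1 + p.2 - a‖ ^ 2 = ‖p.1‖ ^ 2 + ‖p.2‖ ^ 2 + (2 * ⟪p.1 - a, p.2 - a⟫_ℝ - ‖a‖ ^ 2) := by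
      linarith
    rw [h2]
    ring
  have hsecI : ∀ p : E n × E n, Integrable (fun y => Φ (y, p)) := by
    intro p
    simp_rw [hsec p]
    exact (integrable_gk_mul_exp hδ _).const_mul _
  have hsecV : ∀ p : E n × E n, ∫ y, Φ (y, p) =
      exp (-(δ * ‖a‖ ^ 2 / 2)) *
        ((G p.1 - 1) * (G p.2 - 1) * exp (δ * ⟪p.1 - a, p.2 - a⟫_ℝ)) := by
    intro p
    simp_rw [hsec p]
    rw [integral_const_mul, integral_gk_mul_exp hδ]
    have := hexpo p
    calc _ = (G p.1 - 1) * (G p.2 - 1) * (exp (-(δ * (‖p.1‖ ^ 2 + ‖p.2‖ ^ 2) / 2)) *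
          exp (δ * ‖p.1 + p.2 - a‖ ^ 2 / 2)) := by ring
      _ = _ := by rw [this]; ring
  have hsecN : ∀ p : E n × E n, ∫ y, ‖Φ (y, p)‖ =
      exp (-(δ * ‖a‖ ^ 2 / 2)) *
        (|(G p.1 - 1) * (G p.2 - 1)| * exp (δ * ⟪p.1 - a, p.2 - a⟫_ℝ)) := by
    intro p
    have h1 : ∀ y, ‖Φ (y, p)‖ =
        (|(G p.1 - 1) * (G p.2 - 1)| * exp (-(δ * (‖p.1‖ ^ 2 + ‖p.2‖ ^ 2) / 2))) *
          (gk δ y * exp ⟪y, p.1 + p.2 - a⟫_ℝ) := by
      intro y
      rw [hsec p, norm_mul, norm_mul, Real.norm_eq_abs, Real.norm_of_nonneg (exp_pos _).le,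
        Real.norm_of_nonneg (mul_nonneg (gk_pos hδ _).le (exp_pos _).le)]
    simp_rw [h1]
    rw [integral_const_mul, integral_gk_mul_exp hδ]
    have := hexpo p
    calc _ = |(G p.1 - 1) * (G p.2 - 1)| * (exp (-(δ * (‖p.1‖ ^ 2 + ‖p.2‖ ^ 2) / 2)) *
          exp (δ * ‖p.1 + p.2 - a‖ ^ 2 / 2)) := by ring
      _ = _ := by rw [this]; ring
  have hAbs : Integrable (fun p : E n × E n =>
      |(G p.1 - 1) * (G p.2 - 1)| * exp (δ * ⟪p.1 - a, p.2 - a⟫_ℝ)) (ν.prod ν) := by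
    refine os_bdd_mul (C := B ^ 2) hEI (os_A_meas hG).abs (fun p => ?_)
    rw [abs_abs]
    exact os_A_abs hG p
  have hInt : Integrable Φ ((volume : Measure (E n)).prod (ν.prod ν)) := by
    rw [integrable_prod_iff' hΦm.aestronglyMeasurable]
    refine ⟨ae_of_all _ hsecI, ?_⟩
    simp_rw [hsecN]
    exact hAbs.const_mul _
  -- the `p` integral for fixed `y`
  have hwtG : ∀ y, Integrable (fun x => (G x - 1) * wt δ y x) ν := by
    intro y
    exact os_bdd_mul (C := B) (os_int_wt h hδ.le y) (hG.meas.sub_const 1) (os_Gt_abs hG)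
  have hwtG' : ∀ y, Integrable (fun x => G x * wt δ y x) ν := by
    intro y
    have := (hwtG y).add (os_int_wt h hδ.le y)
    refine this.congr (ae_of_all _ fun x => ?_)
    simp only [Pi.add_apply]
    ring
  have hdiff : ∀ y, ∫ x, (G x - 1) * wt δ y x ∂ν = KK ν G δ y - KK ν one δ y := by
    intro y
    have h1 : ∀ x, (G x - 1) * wt δ y x = G x * wt δ y x - one x * wt δ y x := by
      intro x; simp only [one]; ring
    simp_rw [h1]
    rw [integral_sub (hwtG' y)]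
    · rfl
    · simpa [one] using os_int_wt h hδ.le y
  have hval : ∀ y, ∫ p, Φ (y, p) ∂(ν.prod ν) =
      gk δ y * exp (-⟪y, a⟫_ℝ) * (KK ν G δ y - KK ν one δ y) ^ 2 := by
    intro y
    simp only [hΦ]
    rw [integral_const_mul]
    have := integral_prod_mul (μ := ν) (ν := ν) (fun x => (G x - 1) * wt δ y x)
      (fun x => (G x - 1) * wt δ y x)
    rw [this, hdiff y, sq]
  constructor
  · exact hInt.integral_prod_left.congr (ae_of_all _ hval)
  · have hsw := integral_integral_swap (f := fun y p => Φ (y, p)) (μ := (volume : Measure (E n)))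
      (ν := ν.prod ν) hInt
    simp_rw [hval, hsecV] at hsw
    rw [hsw, integral_const_mul]


lemma os_int_smul (h : MgfBd ν a S) (hS : 0 < S) {G : E n → ℝ} {B : ℝ} (hG : Bdd G B) :
    Integrable (fun x => G x • x) ν := by
  refine ((os_int_id h hS).norm.const_mul B).mono' ?_ (ae_of_all _ fun x => ?_)
  · exact (hG.meas.smul measurable_id).aestronglyMeasurable
  · rw [norm_smul, Real.norm_eq_abs]
    have h1 : |G x| ≤ B := by
      have h2 := hG.hi x
      have h3 := hG.lo x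
      have h4 : 0 < B⁻¹ := inv_pos.2 (lt_of_lt_of_le zero_lt_one hG.one_le)
      rw [abs_le]
      constructor <;> linarith
    gcongr

lemma os_int_G {G : E n → ℝ} {B : ℝ} (hG : Bdd G B) : Integrable G ν := by
  refine (integrable_const B).mono' hG.meas.aestronglyMeasurable (ae_of_all _ fun x => ?_)
  rw [Real.norm_eq_abs]
  have h2 := hG.hi x
  have h3 := hG.lo x
  have h4 : 0 < B⁻¹ := inv_pos.2 (lt_of_lt_of_le zero_lt_one hG.one_le)
  rw [abs_le]
  have h5 := hG.one_le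
  constructor <;> linarith

lemma os_int_smul' (h : MgfBd ν a S) (hS : 0 < S) {G : E n → ℝ} {B : ℝ} (hG : Bdd G B) :
    Integrable (fun x => (G x - 1) • (x - a)) ν := by
  refine ((os_int_sub h hS).norm.const_mul B).mono' ?_ (ae_of_all _ fun x => ?_)
  · exact ((hG.meas.sub_const 1).smul (measurable_id.sub_const a)).aestronglyMeasurable
  · rw [norm_smul, Real.norm_eq_abs]
    have := os_Gt_abs hG x
    gcongr

/-- `∫ (G - 1) (x - a) = ∫ G x - a`. -/
lemma os_q (h : MgfBd ν a S) (hS : 0 < S) (ha : ∫ x, x ∂ν = a) {G : E n → ℝ} {B : ℝ}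
    (hG : Bdd G B) (hG1 : ∫ x, G x ∂ν = 1) :
    ∫ x, (G x - 1) • (x - a) ∂ν = ∫ x, G x • x ∂ν - a := by
  have hI1 := os_int_smul h hS hG
  have hI2 : Integrable (fun x => G x • a) ν := (os_int_G hG).smul_const a
  have hI3 := os_int_id h hS
  have hpt : ∀ x, (G x - 1) • (x - a) = G x • x - G x • a - x + a := by
    intro x
    rw [sub_smul, smul_sub, one_smul]
    abel
  simp_rw [hpt]
  have hI12 : Integrable (fun x => G x • x - G x • a) ν := hI1.sub hI2
  have hI123 : Integrable (fun x => G x • x - G x • a - x) ν := hI12.sub hI3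
  rw [integral_add hI123 (integrable_const a), integral_sub hI12 hI3,
    integral_sub hI1 hI2, integral_smul_const, hG1, ha]
  simp

/-- The main estimate on the replica integral. -/
lemma os_I_le (h : MgfBd ν a S) (hS : 0 < S) (ha : ∫ x, x ∂ν = a) {G : E n → ℝ} {B : ℝ}
    (hG : Bdd G B) (hG1 : ∫ x, G x ∂ν = 1) {δ : ℝ} (hδ : 0 < δ) (hδ' : δ ≤ 1 / (8 * S)) :
    ∫ p : E n × E n, (G p.1 - 1) * (G p.2 - 1) * exp (δ * ⟪p.1 - a, p.2 - a⟫_ℝ) ∂(ν.prod ν) ≤
      δ * ‖∫ x, G x • x ∂ν - a‖ ^ 2 + 128 * B ^ 2 * S ^ 2 * 2 ^ ((n : ℝ) / 2) * δ ^ 2 := by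
  set t : E n × E n → ℝ := fun p => ⟪p.1 - a, p.2 - a⟫_ℝ with ht
  set A : E n × E n → ℝ := fun p => (G p.1 - 1) * (G p.2 - 1) with hA
  have hAm : Measurable A := os_A_meas hG
  have hAb : ∀ p, |A p| ≤ B ^ 2 := os_A_abs hG
  have htm : Measurable t := by
    apply Continuous.measurable; simp only [ht]; fun_prop
  have hB0 : 0 ≤ B := le_trans zero_le_one hG.one_le
  have hδS1 : δ * (8 * S) ≤ 1 := by rwa [le_div_iff₀ (by positivity)] at hδ'
  have hκ1 : 4 * (S * δ ^ 2) * S < 1 := by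
    have h2 : 0 < δ * (8 * S) := by positivity
    nlinarith
  have hκ2 : 4 * (S * (-δ) ^ 2) * S < 1 := by
    rw [neg_sq]; exact hκ1
  set κ := 1 / (4 * S) with hκ
  have hκv : 4 * (S * κ ^ 2) * S = 1 / 4 := by
    rw [hκ]; field_simp
  have hκv' : 4 * (S * (-κ) ^ 2) * S = 1 / 4 := by
    rw [neg_sq]; exact hκv
  obtain ⟨hE1, -⟩ := os_bilin h hS hκ1
  obtain ⟨hE2, -⟩ := os_bilin h hS hκ2
  obtain ⟨hE3, hV3⟩ := os_bilin h hS (κ := κ) (by rw [hκv]; norm_num)
  obtain ⟨hE4, hV4⟩ := os_bilin h hS (κ := -κ) (by rw [hκv']; norm_num)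
  rw [hκv] at hV3
  rw [hκv'] at hV4
  have hc34 : (1 - 1 / 4 : ℝ) ^ (-(n : ℝ) / 2) ≤ 2 ^ ((n : ℝ) / 2) := by
    rw [show (-(n : ℝ) / 2) = -((n : ℝ) / 2) by ring, rpow_neg (by norm_num), ← inv_rpow (by norm_num)]
    apply rpow_le_rpow (by norm_num) (by norm_num) (by positivity)
  -- integrability of `t`
  have htI : Integrable t (ν.prod ν) := by
    have hs := (hE1.add hE2).const_mul (1 / δ)
    refine hs.mono' htm.aestronglyMeasurable (ae_of_all _ fun p => ?_)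
    simp only [Pi.add_apply]
    rw [Real.norm_eq_abs]
    have hb : |t p| = 1 / δ * (δ * |t p|) := by field_simp
    rw [hb]
    have h1 : δ * |t p| ≤ exp (δ * t p) + exp (-δ * t p) := by
      rcases abs_cases (t p) with ⟨e, _⟩ | ⟨e, _⟩
      · rw [e]
        have := add_one_le_exp (δ * t p)
        have := exp_pos (-δ * t p)
        linarith
      · rw [e]
        have := add_one_le_exp (-δ * t p)
        have := exp_pos (δ * t p)
        have e2 : δ * -t p = -δ * t p := by ring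
        rw [e2]
        linarith
    have h0 : 0 < 1 / δ := by positivity
    gcongr
  have hAI : Integrable A (ν.prod ν) := by
    have := os_bdd_mul (μ := ν.prod ν) (g := fun _ => (1 : ℝ)) (integrable_const 1) hAm hAb
    simpa using this
  have hAtI : Integrable (fun p => A p * t p) (ν.prod ν) := os_bdd_mul htI hAm hAb
  set r : E n × E n → ℝ := fun p => exp (δ * t p) - 1 - δ * t p with hr
  have hrI : Integrable r (ν.prod ν) :=
    (hE1.sub (integrable_const 1)).sub (htI.const_mul δ)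
  have hArI : Integrable (fun p => A p * r p) (ν.prod ν) :=
    os_bdd_mul hrI hAm hAb
  have hsplit : ∀ p, A p * exp (δ * t p) = A p + δ * (A p * t p) + A p * r p := by
    intro p
    have e : r p = exp (δ * t p) - 1 - δ * t p := rfl
    rw [e]
    ring
  have e0 : ∫ p : E n × E n, (G p.1 - 1) * (G p.2 - 1) * exp (δ * ⟪p.1 - a, p.2 - a⟫_ℝ) ∂(ν.prod ν) =
      ∫ p, (A p + δ * (A p * t p) + A p * r p) ∂(ν.prod ν) :=
    integral_congr_ae (ae_of_all _ hsplit)
  have hI1 : Integrable (fun p => δ * (A p * t p)) (ν.prod ν) := hAtI.const_mul δ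
  have hI2 : Integrable (fun p => A p + δ * (A p * t p)) (ν.prod ν) := hAI.add hI1
  rw [e0, integral_add hI2 hArI, integral_add hAI hI1, integral_const_mul]
  -- the constant term
  have hA0 : ∫ p, A p ∂(ν.prod ν) = 0 := by
    have hm := integral_prod_mul (μ := ν) (ν := ν) (fun x => G x - 1) (fun x => G x - 1)
    have h0 : ∫ x, (G x - 1) ∂ν = 0 := by
      rw [integral_sub (os_int_G hG) (integrable_const 1), hG1]
      simp
    rw [h0] at hm
    simpa [hA] using hm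
  -- the linear term
  set q := ∫ x, (G x - 1) • (x - a) ∂ν with hq
  have hqv : q = ∫ x, G x • x ∂ν - a := os_q h hS ha hG hG1
  have hqI := os_int_smul' (ν := ν) h hS hG
  have hAt : ∫ p, A p * t p ∂(ν.prod ν) = ‖q‖ ^ 2 := by
    rw [integral_prod _ hAtI]
    have hin : ∀ x : E n, ∫ x', A (x, x') * t (x, x') ∂ν = (G x - 1) * ⟪x - a, q⟫_ℝ := by
      intro x
      have e : ∀ x' : E n, A (x, x') * t (x, x') = (G x - 1) * ⟪x - a, (G x' - 1) • (x' - a)⟫_ℝ := by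
        intro x'
        simp only [hA, ht]
        rw [inner_smul_right]
        ring
      simp_rw [e]
      rw [integral_const_mul, integral_inner hqI (x - a)]
    simp_rw [hin]
    have e2 : ∀ x : E n, (G x - 1) * ⟪x - a, q⟫_ℝ = ⟪q, (G x - 1) • (x - a)⟫_ℝ := by
      intro x
      rw [inner_smul_right, real_inner_comm]
    simp_rw [e2]
    rw [integral_inner hqI q, real_inner_self_eq_norm_sq]
  -- the remainder
  have hδ0 : δ ≤ 1 / (8 * S) := hδ'
  have hrem : ∫ p, A p * r p ∂(ν.prod ν) ≤ 128 * B ^ 2 * S ^ 2 * 2 ^ ((n : ℝ) / 2) * δ ^ 2 := by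
    set c := B ^ 2 * (δ / (1 / (8 * S))) ^ 2 with hc
    have hc0 : 0 ≤ c := by positivity
    have hpt : ∀ p, A p * r p ≤ c * (exp (κ * t p) + exp (-κ * t p)) := by
      intro p
      have h1 := os_remainder hδ hδ0 (t p)
      have h2 : 2 * (1 / (8 * S)) = κ := by rw [hκ]; field_simp; norm_num
      rw [h2] at h1
      have h3 : -(κ * t p) = -κ * t p := by ring
      rw [h3] at h1
      calc A p * r p ≤ |A p * r p| := le_abs_self _
        _ = |A p| * |r p| := abs_mul _ _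
        _ ≤ B ^ 2 * ((δ / (1 / (8 * S))) ^ 2 * (exp (κ * t p) + exp (-κ * t p))) := by
            apply mul_le_mul (hAb p) h1 (abs_nonneg _) (by positivity)
        _ = _ := by rw [hc]; ring
    have hR : Integrable (fun p => c * (exp (κ * t p) + exp (-κ * t p))) (ν.prod ν) :=
      (hE3.add hE4).const_mul c
    have hmono := integral_mono hArI hR hpt
    refine hmono.trans ?_
    rw [integral_const_mul]
    have hsum : ∫ p, (exp (κ * t p) + exp (-κ * t p)) ∂(ν.prod ν) ≤ 2 * 2 ^ ((n : ℝ) / 2) := by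
      have e := integral_add hE3 hE4
      have e' : ∫ p, (exp (κ * t p) + exp (-κ * t p)) ∂(ν.prod ν) =
          ∫ p : E n × E n, exp (κ * ⟪p.1 - a, p.2 - a⟫_ℝ) ∂(ν.prod ν) +
            ∫ p : E n × E n, exp (-κ * ⟪p.1 - a, p.2 - a⟫_ℝ) ∂(ν.prod ν) := e
      rw [e']
      have := hV3.trans hc34
      have := hV4.trans hc34
      linarith
    have hcv : c * (2 * 2 ^ ((n : ℝ) / 2)) = 128 * B ^ 2 * S ^ 2 * 2 ^ ((n : ℝ) / 2) * δ ^ 2 := by
      rw [hc]
      field_simp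
      ring
    calc c * ∫ p, (exp (κ * t p) + exp (-κ * t p)) ∂(ν.prod ν) ≤
          c * (2 * 2 ^ ((n : ℝ) / 2)) := by gcongr
      _ = _ := hcv
  rw [hA0, hAt, ← hqv]
  linarith

/-- Jensen lower bound on the partition function. -/
lemma os_Z_lower (h : MgfBd ν a S) (hS : 0 < S) (ha : ∫ x, x ∂ν = a) {δ : ℝ} (hδ : 0 ≤ δ) (y : E n) :
    exp (⟪y, a⟫_ℝ - δ * (∫ x, ‖x‖ ^ 2 ∂ν) / 2) ≤ KK ν one δ y := by
  have hX1 : Integrable (fun x : E n => ⟪y, x⟫_ℝ) ν := (os_int_id h hS).const_inner y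
  have hX2 : Integrable (fun x : E n => δ * ‖x‖ ^ 2 / 2) ν := by
    have := (os_int_sq' h hS).const_mul (δ / 2)
    refine this.congr (ae_of_all _ fun x => ?_)
    simp only
    ring
  have hX : Integrable (fun x : E n => ⟪y, x⟫_ℝ - δ * ‖x‖ ^ 2 / 2) ν := hX1.sub hX2
  have hE : Integrable (fun x : E n => exp (⟪y, x⟫_ℝ - δ * ‖x‖ ^ 2 / 2)) ν := os_int_wt h hδ y
  have hJ := os_jensen_exp hX hE
  have hv : ∫ x : E n, (⟪y, x⟫_ℝ - δ * ‖x‖ ^ 2 / 2) ∂ν = ⟪y, a⟫_ℝ - δ * (∫ x, ‖x‖ ^ 2 ∂ν) / 2 := by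
    rw [integral_sub hX1 hX2, integral_inner (os_int_id h hS) y, ha]
    congr 1
    have : ∀ x : E n, δ * ‖x‖ ^ 2 / 2 = (δ / 2) * ‖x‖ ^ 2 := by intro x; ring
    simp_rw [this]
    rw [integral_const_mul]
    ring
  rw [hv] at hJ
  refine hJ.trans (le_of_eq ?_)
  simp [KK, one, wt]

/-- Main one step estimate. `WW ν G δ ≤ χ²`, replica formula, `e^w = 1 + w + r(w)`.
Blueprint section 3. -/
theorem oneStep (ν : Measure (E n)) [IsProbabilityMeasure ν] {a : E n} {S : ℝ} (hS : 0 < S)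
    (h : MgfBd ν a S) (ha : ∫ x, x ∂ν = a)
    {G : E n → ℝ} {B : ℝ} (hG : Bdd G B) (hG3 : ∫ x, G x ∂ν = 1)
    {δ : ℝ} (hδ : 0 < δ) (hδ' : δ ≤ 1 / (8 * S)) :
    WW ν G δ ≤ exp (2 * S * n * δ) *
      (δ * ‖∫ x, G x • x ∂ν - a‖ ^ 2 + 128 * B ^ 2 * S ^ 2 * 2 ^ ((n : ℝ) / 2) * δ ^ 2) := by
  have hB1 := hG.one_le
  have hB0 : 0 < B := lt_of_lt_of_le zero_lt_one hB1
  have hBi : 0 < B⁻¹ := inv_pos.2 hB0
  set τ' := ∫ x, ‖x‖ ^ 2 ∂ν with hτ'
  set τ := ∫ x, ‖x - a‖ ^ 2 ∂ν with hτ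
  -- τ' and τ
  have hττ : τ' = τ + ‖a‖ ^ 2 := by
    have hpt : ∀ x : E n, ‖x‖ ^ 2 = ‖x - a‖ ^ 2 + 2 * ⟪x - a, a⟫_ℝ + ‖a‖ ^ 2 := by
      intro x
      have e : x = (x - a) + a := by abel
      conv_lhs => rw [e]
      rw [norm_add_sq_real]
    have hI : Integrable (fun x : E n => ⟪a, x - a⟫_ℝ) ν := (os_int_sub h hS).const_inner a
    have hm : ∫ x : E n, ⟪a, x - a⟫_ℝ ∂ν = 0 := by
      rw [integral_inner (os_int_sub h hS) a, integral_sub (os_int_id h hS) (integrable_const a), ha]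
      simp
    have hpt' : ∀ x : E n, ‖x‖ ^ 2 = (‖x - a‖ ^ 2 + 2 * ⟪a, x - a⟫_ℝ) + ‖a‖ ^ 2 := by
      intro x
      rw [hpt x, real_inner_comm]
    have e : ∫ x : E n, ‖x‖ ^ 2 ∂ν =
        ∫ x : E n, ((‖x - a‖ ^ 2 + 2 * ⟪a, x - a⟫_ℝ) + ‖a‖ ^ 2) ∂ν :=
      integral_congr_ae (ae_of_all _ hpt')
    have hI2 : Integrable (fun x : E n => 2 * ⟪a, x - a⟫_ℝ) ν := hI.const_mul 2
    have hI3 : Integrable (fun x : E n => ‖x - a‖ ^ 2 + 2 * ⟪a, x - a⟫_ℝ) ν :=
      (os_int_sq h hS).add hI2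
    have h0 : ∫ _x : E n, ‖a‖ ^ 2 ∂ν = ‖a‖ ^ 2 := by simp
    rw [hτ', e, integral_add hI3 (integrable_const _), integral_add (os_int_sq h hS) hI2,
      integral_const_mul, hm, h0, ← hτ]
    ring
  -- measurability and positivity
  have hZm : Measurable (KK ν one δ) := os_measurable_KK (H := one) measurable_const δ
  have hZGm : Measurable (KK ν G δ) := os_measurable_KK hG.meas δ
  have hZlow := fun y => os_Z_lower h hS ha hδ.le y
  have hZpos : ∀ y, 0 < KK ν one δ y := fun y => lt_of_lt_of_le (exp_pos _) (hZlow y)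
  have hwI := fun y => os_int_wt h hδ.le y
  have hZone : ∀ y, KK ν one δ y = ∫ x, wt δ y x ∂ν := by
    intro y; simp [KK, one]
  have hGI : ∀ y, Integrable (fun x => G x * wt δ y x) ν := by
    intro y
    refine os_bdd_mul (C := B) (hwI y) hG.meas (fun x => ?_)
    have h2 := hG.hi x
    have h3 := hG.lo x
    rw [abs_le]
    constructor <;> linarith
  have hZGup : ∀ y, KK ν G δ y ≤ B * KK ν one δ y := by
    intro y
    rw [hZone, KK, ← integral_const_mul]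
    apply integral_mono (hGI y) ((hwI y).const_mul B)
    intro x
    have h1 := hG.hi x
    have h2 := os_wt_pos δ y x
    exact mul_le_mul_of_nonneg_right h1 h2.le
  have hZGlo : ∀ y, B⁻¹ * KK ν one δ y ≤ KK ν G δ y := by
    intro y
    rw [hZone, KK, ← integral_const_mul]
    apply integral_mono ((hwI y).const_mul _) (hGI y)
    intro x
    have h1 := hG.lo x
    have h2 := os_wt_pos δ y x
    exact mul_le_mul_of_nonneg_right h1 h2.le
  have hZGpos : ∀ y, 0 < KK ν G δ y := fun y =>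
    lt_of_lt_of_le (mul_pos hBi (hZpos y)) (hZGlo y)
  -- mass identities
  obtain ⟨hm1I, hm1V⟩ := os_mass (ν := ν) hδ hG.meas (C := B) (fun x => by
    have h2 := hG.hi x
    have h3 := hG.lo x
    rw [abs_le]
    constructor <;> linarith)
  obtain ⟨hm2I, hm2V⟩ := os_mass (ν := ν) (H := one) hδ measurable_const (C := 1) (fun x => by
    simp [one])
  have hone : ∫ x, one x ∂ν = 1 := by simp [one]
  rw [hG3] at hm1V
  rw [hone] at hm2V
  obtain ⟨hrI, hrV⟩ := os_replica h hS hδ hδ' hG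
  -- pointwise bound
  have hpt : ∀ y, gk δ y * KK ν G δ y * log (KK ν G δ y / KK ν one δ y) ≤
      exp (δ * τ' / 2) * (gk δ y * exp (-⟪y, a⟫_ℝ) * (KK ν G δ y - KK ν one δ y) ^ 2) +
        (gk δ y * KK ν G δ y - gk δ y * KK ν one δ y) := by
    intro y
    have hg := gk_pos hδ y
    set Z := KK ν one δ y with hZ
    set W := KK ν G δ y with hW
    have hZ0 : 0 < Z := hZpos y
    have hW0 : 0 < W := hZGpos y
    have h1 : log (W / Z) ≤ W / Z - 1 := log_le_sub_one_of_pos (by positivity)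
    have h2 : W * log (W / Z) ≤ (W - Z) ^ 2 / Z + (W - Z) := by
      calc W * log (W / Z) ≤ W * (W / Z - 1) := by gcongr
        _ = (W - Z) ^ 2 / Z + (W - Z) := by field_simp; ring
    have h3 : 1 / Z ≤ exp (-⟪y, a⟫_ℝ) * exp (δ * τ' / 2) := by
      have h4 := hZlow y
      rw [div_le_iff₀ hZ0]
      calc (1 : ℝ) = exp (-⟪y, a⟫_ℝ) * exp (δ * τ' / 2) * exp (⟪y, a⟫_ℝ - δ * τ' / 2) := by
            rw [← exp_add, ← exp_add]; simp
        _ ≤ _ := by gcongr
    have h5 : (W - Z) ^ 2 / Z ≤ (W - Z) ^ 2 * (exp (-⟪y, a⟫_ℝ) * exp (δ * τ' / 2)) := by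
      rw [div_eq_mul_one_div]
      gcongr
    calc gk δ y * W * log (W / Z) = gk δ y * (W * log (W / Z)) := by ring
      _ ≤ gk δ y * ((W - Z) ^ 2 * (exp (-⟪y, a⟫_ℝ) * exp (δ * τ' / 2)) + (W - Z)) := by
          gcongr
          linarith
      _ = _ := by ring
  -- integrability of the left side
  have hlogB : ∀ y, |log (KK ν G δ y / KK ν one δ y)| ≤ log B := by
    intro y
    have hZ0 := hZpos y
    have h1 : KK ν G δ y / KK ν one δ y ≤ B := by
      rw [div_le_iff₀ hZ0]; exact hZGup y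
    have h2 : B⁻¹ ≤ KK ν G δ y / KK ν one δ y := by
      rw [le_div_iff₀ hZ0]; exact hZGlo y
    have hq0 : 0 < KK ν G δ y / KK ν one δ y := div_pos (hZGpos y) hZ0
    rw [abs_le]
    constructor
    · have := log_le_log hBi h2
      rw [log_inv] at this
      linarith
    · exact log_le_log hq0 h1
  have hLI : Integrable (fun y => gk δ y * KK ν G δ y * log (KK ν G δ y / KK ν one δ y)) := by
    apply os_bdd_mul_right hm1I _ hlogB
    exact (hZGm.div hZm).log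
  have hR2' : Integrable (fun y => gk δ y * KK ν G δ y - gk δ y * KK ν one δ y) := hm1I.sub hm2I
  have hRI : Integrable (fun y => exp (δ * τ' / 2) *
      (gk δ y * exp (-⟪y, a⟫_ℝ) * (KK ν G δ y - KK ν one δ y) ^ 2) +
        (gk δ y * KK ν G δ y - gk δ y * KK ν one δ y)) :=
    (hrI.const_mul _).add hR2'
  have hmono := integral_mono hLI hRI hpt
  have hWW : WW ν G δ = ∫ y, gk δ y * KK ν G δ y * log (KK ν G δ y / KK ν one δ y) := rfl
  have hR2 : Integrable (fun y => gk δ y * KK ν G δ y - gk δ y * KK ν one δ y) := hm1I.sub hm2I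
  rw [← hWW, integral_add (hrI.const_mul _) hR2, integral_const_mul, hrV,
    integral_sub hm1I hm2I, hm1V, hm2V] at hmono
  set I := ∫ p : E n × E n, (G p.1 - 1) * (G p.2 - 1) * exp (δ * ⟪p.1 - a, p.2 - a⟫_ℝ) ∂(ν.prod ν)
    with hI
  have hIle : I ≤ δ * ‖∫ x, G x • x ∂ν - a‖ ^ 2 + 128 * B ^ 2 * S ^ 2 * 2 ^ ((n : ℝ) / 2) * δ ^ 2 :=
    os_I_le h hS ha hG hG3 hδ hδ'
  have hexp : exp (δ * τ' / 2) * exp (-(δ * ‖a‖ ^ 2 / 2)) = exp (δ * τ / 2) := by
    rw [← exp_add, hττ]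
    congr 1
    ring
  have hτle : τ ≤ 4 * S * n := os_tau_le h hS
  have hexp2 : exp (δ * τ / 2) ≤ exp (2 * S * n * δ) := by
    apply exp_le_exp.2
    nlinarith
  have hB2 : 0 ≤ δ * ‖∫ x, G x • x ∂ν - a‖ ^ 2 + 128 * B ^ 2 * S ^ 2 * 2 ^ ((n : ℝ) / 2) * δ ^ 2 := by
    positivity
  calc WW ν G δ ≤ exp (δ * τ' / 2) * (exp (-(δ * ‖a‖ ^ 2 / 2)) * I) + (1 - 1) := hmono
    _ = exp (δ * τ / 2) * I := by rw [← hexp]; ring
    _ ≤ exp (δ * τ / 2) * (δ * ‖∫ x, G x • x ∂ν - a‖ ^ 2 +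
          128 * B ^ 2 * S ^ 2 * 2 ^ ((n : ℝ) / 2) * δ ^ 2) := by gcongr
    _ ≤ _ := by gcongr

end Main

end Vale.Agent.Lib.P245
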