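import Vale.Agent.Lib.P245.Defs

/-!
# P245 M8d : weak Rothaus lemma and basic entropy facts
-/

open MeasureTheory Real
open scoped InnerProductSpace

namespace Vale.Agent.Lib.P245

variable {n : ℕ}

/-- `x log x` is bounded on `[0, T]`. -/
lemma exists_bound_mul_log (T : ℝ) : ∃ K : ℝ, 0 ≤ K ∧ ∀ t, 0 ≤ t → t ≤ T → |t * log t| ≤ K := by
  have hc : ContinuousOn (fun x : ℝ => x * log x) (Set.Icc 0 T) :=
    Real.continuous_mul_log.continuousOn
  obtain ⟨K, hK⟩ := isCompact_Icc.exists_bound_of_continuousOn hc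
  refine ⟨max K 0, le_max_right _ _, fun t h0 h1 => ?_⟩
  have := hK t ⟨h0, h1⟩
  rw [Real.norm_eq_abs] at this
  exact this.trans (le_max_left _ _)

/-- measurability of `x log x` along a measurable function -/
lemma measurable_mul_log {h : E n → ℝ} (hm : Measurable h) :
    Measurable fun x => h x * log (h x) :=
  hm.mul (Real.measurable_log.comp hm)

/-- bounded measurable functions are integrable for a probability measure -/
lemma integrable_of_bdd (μ : Measure (E n)) [IsProbabilityMeasure μ] {h : E n → ℝ}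
    (hm : Measurable h) {C : ℝ} (hb : ∀ x, |h x| ≤ C) : Integrable h μ :=
  Integrable.of_bound hm.aestronglyMeasurable C (Filter.Eventually.of_forall fun x => by
    simpa [Real.norm_eq_abs] using hb x)

/-- `x log x` of a bounded nonnegative function is integrable. -/
lemma integrable_mul_log (μ : Measure (E n)) [IsProbabilityMeasure μ] {h : E n → ℝ}
    (hm : Measurable h) (h0 : ∀ x, 0 ≤ h x) {T : ℝ} (hT : ∀ x, h x ≤ T) :
    Integrable (fun x => h x * log (h x)) μ := by
  obtain ⟨K, _, hK⟩ := exists_bound_mul_log T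
  exact integrable_of_bdd μ (measurable_mul_log hm) fun x => hK _ (h0 x) (hT x)

/-- pointwise tangent inequality behind Jensen: `h log h ≥ h log m + h - m`. -/
lemma mul_log_ge_tangent {h m : ℝ} (hh : 0 ≤ h) (hm : 0 < m) :
    h * log m + (h - m) ≤ h * log h := by
  rcases hh.eq_or_lt with rfl | hpos
  · simp; linarith
  · have h1 : log (m / h) ≤ m / h - 1 := Real.log_le_sub_one_of_pos (by positivity)
    have h2 : log (m / h) = log m - log h := Real.log_div hm.ne' hpos.ne'
    rw [h2] at h1
    have h3 : h * (log m - log h) ≤ h * (m / h - 1) := mul_le_mul_of_nonneg_left h1 hh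
    have h4 : h * (m / h - 1) = m - h := by field_simp
    nlinarith

/-- The mean of a nonnegative function is zero only if it vanishes a.e. -/
lemma ae_eq_zero_of_integral_eq_zero (μ : Measure (E n)) {h : E n → ℝ}
    (h0 : ∀ x, 0 ≤ h x) (hi : Integrable h μ) (he : ∫ x, h x ∂μ = 0) : h =ᵐ[μ] 0 :=
  (integral_eq_zero_iff_of_nonneg (fun x => h0 x) hi).1 he

/-- Entropy of a bounded nonnegative function is nonnegative. -/
lemma Ent_nonneg (μ : Measure (E n)) [IsProbabilityMeasure μ] {h : E n → ℝ}
    (hm : Measurable h) (h0 : ∀ x, 0 ≤ h x) {T : ℝ} (hT : ∀ x, h x ≤ T) :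
    0 ≤ Ent μ h := by
  have hi : Integrable h μ := integrable_of_bdd μ hm (C := T) fun x => by
    rw [abs_of_nonneg (h0 x)]; exact hT x
  have hl := integrable_mul_log μ hm h0 hT
  unfold Ent
  set m := ∫ x, h x ∂μ with hmdef
  have hm0 : 0 ≤ m := integral_nonneg h0
  rcases hm0.eq_or_lt with hm1 | hmpos
  · have hz := ae_eq_zero_of_integral_eq_zero μ h0 hi hm1.symm
    have : ∫ x, h x * log (h x) ∂μ = 0 := by
      rw [integral_congr_ae (g := fun _ => (0 : ℝ))]
      · simp
      · filter_upwards [hz] with x hx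
        simp [hx]
    rw [this, ← hm1]; simp
  · have key : ∫ x, (h x * log m + (h x - m)) ∂μ ≤ ∫ x, h x * log (h x) ∂μ :=
      integral_mono ((hi.mul_const _).add (hi.sub (integrable_const _))) hl
        fun x => mul_log_ge_tangent (h0 x) hmpos
    have e1 : ∫ x, (h x * log m + (h x - m)) ∂μ = m * log m := by
      have hA : Integrable (fun x => h x * log m) μ := hi.mul_const _
      have hB : Integrable (fun x => h x - m) μ := hi.sub (integrable_const _)
      rw [integral_add hA hB, integral_sub hi (integrable_const _), integral_mul_const]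
      simp [← hmdef]
    linarith

/-- Pointwise log-sum: `(H+t) log((H+t)/(m+t)) ≤ H log(H/m)`, in the form without divisions. -/
lemma log_sum_pointwise {H m t : ℝ} (hH : 0 ≤ H) (hm : 0 < m) (ht : 0 ≤ t) :
    (H + t) * log (H + t) - (H + t) * log (m + t) ≤ H * log H - H * log m := by
  rcases ht.eq_or_lt with rfl | htpos
  · simp
  have hmt : 0 < m + t := by linarith
  have hHt : 0 < H + t := by linarith
  set r := (H + t) / (m + t) with hr
  have hrpos : 0 < r := by positivity
  have hlogr : log r = log (H + t) - log (m + t) := Real.log_div hHt.ne' hmt.ne'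
  -- second term
  have h2 : t * log r ≤ t * (r - 1) :=
    mul_le_mul_of_nonneg_left (Real.log_le_sub_one_of_pos hrpos) ht
  have hrm : r * (m + t) = H + t := by rw [hr]; field_simp
  rcases hH.eq_or_lt with rfl | hHpos
  · -- H = 0
    have : (0 + t) * log (0 + t) - (0 + t) * log (m + t) = t * log r := by
      rw [hlogr]; ring
    rw [this]
    have h3 : t * (r - 1) ≤ 0 := by
      have : r ≤ 1 := by
        rw [hr, div_le_one hmt]; linarith
      nlinarith
    simp; linarith
  · have h1 : log (m * r / H) ≤ m * r / H - 1 := Real.log_le_sub_one_of_pos (by positivity)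
    have h1' : log (m * r / H) = log m + log r - log H := by
      rw [Real.log_div (by positivity) hHpos.ne', Real.log_mul hm.ne' hrpos.ne']
    rw [h1'] at h1
    have h3 : H * (log m + log r - log H) ≤ H * (m * r / H - 1) :=
      mul_le_mul_of_nonneg_left h1 hH
    have h4 : H * (m * r / H - 1) = m * r - H := by field_simp
    have h5 : (H + t) * log (H + t) - (H + t) * log (m + t) = (H + t) * log r := by
      rw [hlogr]; ring
    rw [h5]
    nlinarith

/-- `Ent(H + t) ≤ Ent(H)`. -/
lemma Ent_add_const_le (μ : Measure (E n)) [IsProbabilityMeasure μ] {h : E n → ℝ}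
    (hm : Measurable h) (h0 : ∀ x, 0 ≤ h x) {T : ℝ} (hT : ∀ x, h x ≤ T) {t : ℝ} (ht : 0 ≤ t) :
    Ent μ (fun x => h x + t) ≤ Ent μ h := by
  have hi : Integrable h μ := integrable_of_bdd μ hm (C := T) fun x => by
    rw [abs_of_nonneg (h0 x)]; exact hT x
  have hl := integrable_mul_log μ hm h0 hT
  have hm' : Measurable fun x => h x + t := hm.add_const t
  have hl' : Integrable (fun x => (h x + t) * log (h x + t)) μ :=
    integrable_mul_log μ hm' (fun x => add_nonneg (h0 x) ht) (T := T + t) fun x => by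
      have := hT x; linarith
  have hit : ∫ x, (h x + t) ∂μ = ∫ x, h x ∂μ + t := by
    rw [integral_add hi (integrable_const _)]; simp
  unfold Ent
  rw [hit]
  set m := ∫ x, h x ∂μ with hmdef
  have hm0 : 0 ≤ m := integral_nonneg h0
  rcases hm0.eq_or_lt with hm1 | hmpos
  · -- h = 0 a.e.
    have hz := ae_eq_zero_of_integral_eq_zero μ h0 hi hm1.symm
    have e1 : ∫ x, h x * log (h x) ∂μ = 0 := by
      rw [integral_congr_ae (g := fun _ => (0 : ℝ))]
      · simp
      · filter_upwards [hz] with x hx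
        simp [hx]
    have e2 : ∫ x, (h x + t) * log (h x + t) ∂μ = t * log t := by
      rw [integral_congr_ae (g := fun _ => t * log t)]
      · simp
      · filter_upwards [hz] with x hx
        simp [hx]
    rw [e1, e2, ← hm1]; simp
  · have hC : Integrable (fun x => (h x + t) * log (m + t)) μ :=
      (hi.add (integrable_const _)).mul_const _
    have hD : Integrable (fun x => h x * log m) μ := hi.mul_const _
    have key : ∫ x, ((h x + t) * log (h x + t) - (h x + t) * log (m + t)) ∂μ
        ≤ ∫ x, (h x * log (h x) - h x * log m) ∂μ :=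
      integral_mono (hl'.sub hC) (hl.sub hD) fun x => log_sum_pointwise (h0 x) hmpos ht
    rw [integral_sub hl' hC, integral_sub hl hD, integral_mul_const, integral_mul_const, hit,
      ← hmdef] at key
    linarith

/-- Pointwise Rothaus: for `w = c²+g²`,
`½[Φ((c+g)²)+Φ((c-g)²)] - Φ(w) ≤ 4 g²`, where `Φ(t) = t log t`. -/
lemma rothaus_pointwise (c g : ℝ) :
    ((c + g) ^ 2 * log ((c + g) ^ 2) + (c - g) ^ 2 * log ((c - g) ^ 2)) / 2
      - (c ^ 2 + g ^ 2) * log (c ^ 2 + g ^ 2) ≤ 4 * g ^ 2 := by
  set w := c ^ 2 + g ^ 2 with hw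
  have hw0 : 0 ≤ w := by positivity
  rcases hw0.eq_or_lt with h0 | hwpos
  · have hc : c = 0 := by nlinarith [sq_nonneg c, sq_nonneg g]
    have hg : g = 0 := by nlinarith [sq_nonneg c, sq_nonneg g]
    simp [hc, hg, ← h0]
  -- tangent bounds
  have key : ∀ y : ℝ, 0 ≤ y → y * log y ≤ y * log w + y * (y / w - 1) := by
    intro y hy
    rcases hy.eq_or_lt with rfl | hypos
    · simp
    · have h1 : log (y / w) ≤ y / w - 1 := Real.log_le_sub_one_of_pos (by positivity)
      rw [Real.log_div hypos.ne' hwpos.ne'] at h1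
      have := mul_le_mul_of_nonneg_left h1 hy
      nlinarith
  have hp := key _ (sq_nonneg (c + g))
  have hm := key _ (sq_nonneg (c - g))
  have hsum : (c + g) ^ 2 + (c - g) ^ 2 = 2 * w := by rw [hw]; ring
  have hq : (c + g) ^ 2 * ((c + g) ^ 2 / w - 1) + (c - g) ^ 2 * ((c - g) ^ 2 / w - 1)
      = 8 * c ^ 2 * g ^ 2 / w := by
    field_simp
    rw [hw]; ring
  have hle : 8 * c ^ 2 * g ^ 2 / w ≤ 8 * g ^ 2 := by
    rw [div_le_iff₀ hwpos, hw]
    nlinarith [sq_nonneg g, sq_nonneg (g ^ 2), mul_nonneg (sq_nonneg c) (sq_nonneg g)]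
  have e : (c + g) ^ 2 * log w + (c - g) ^ 2 * log w = 2 * w * log w := by
    rw [← add_mul, hsum]
  nlinarith

/-- M8d : `Ent((c+g)²) ≤ 2 Ent(g²) + 8 ∫ g²` for bounded measurable `g` of mean zero. -/
theorem rothaus_weak (μ : Measure (E n)) [IsProbabilityMeasure μ] {g : E n → ℝ} (hgm : Measurable g)
    {C : ℝ} (hgb : ∀ x, |g x| ≤ C) (hg0 : ∫ x, g x ∂μ = 0) (c : ℝ) :
    Ent μ (fun x => (c + g x) ^ 2) ≤ 2 * Ent μ (fun x => g x ^ 2) + 8 * ∫ x, g x ^ 2 ∂μ := by
  have hgi : Integrable g μ := integrable_of_bdd μ hgm hgb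
  have hCnn : 0 ≤ C := (abs_nonneg _).trans (hgb 0)
  have hgsq : ∀ x, g x ^ 2 ≤ C ^ 2 := fun x => by
    have := hgb x
    exact sq_le_sq' (by linarith [neg_abs_le (g x)]) (by linarith [le_abs_self (g x)])
  have hg2m : Measurable fun x => g x ^ 2 := hgm.pow_const 2
  have hg2i : Integrable (fun x => g x ^ 2) μ := integrable_of_bdd μ hg2m (C := C ^ 2) fun x => by
    rw [abs_of_nonneg (sq_nonneg _)]; exact hgsq x
  set A := ∫ x, g x ^ 2 ∂μ with hA
  -- masses
  have hplus : ∫ x, (c + g x) ^ 2 ∂μ = c ^ 2 + A := by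
    have : ∀ x, (c + g x) ^ 2 = c ^ 2 + 2 * c * g x + g x ^ 2 := fun x => by ring
    simp_rw [this]
    have hB : Integrable (fun x => c ^ 2 + 2 * c * g x) μ :=
      (integrable_const _).add (hgi.const_mul _)
    have hB' : Integrable (fun x => 2 * c * g x) μ := hgi.const_mul _
    rw [integral_add hB hg2i, integral_add (integrable_const _) hB', integral_const_mul, hg0]
    simp [hA]
  have hminus : ∫ x, (c - g x) ^ 2 ∂μ = c ^ 2 + A := by
    have : ∀ x, (c - g x) ^ 2 = c ^ 2 - 2 * c * g x + g x ^ 2 := fun x => by ring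
    simp_rw [this]
    have hB : Integrable (fun x => c ^ 2 - 2 * c * g x) μ :=
      (integrable_const _).sub (hgi.const_mul _)
    have hB' : Integrable (fun x => 2 * c * g x) μ := hgi.const_mul _
    rw [integral_add hB hg2i, integral_sub (integrable_const _) hB', integral_const_mul, hg0]
    simp [hA]
  have hw : ∫ x, (g x ^ 2 + c ^ 2) ∂μ = c ^ 2 + A := by
    rw [integral_add hg2i (integrable_const _)]; simp [hA]; ring
  -- bounds on the squares
  have hpT : ∀ x, (c + g x) ^ 2 ≤ (|c| + C) ^ 2 := fun x => by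
    have h1 := abs_add_le c (g x)
    have h2 := hgb x
    have : |c + g x| ≤ |c| + C := by linarith
    calc (c + g x) ^ 2 = |c + g x| ^ 2 := (sq_abs _).symm
      _ ≤ _ := by gcongr
  have hmT : ∀ x, (c - g x) ^ 2 ≤ (|c| + C) ^ 2 := fun x => by
    have h1 := abs_sub c (g x)
    have h2 := hgb x
    have : |c - g x| ≤ |c| + C := by linarith
    calc (c - g x) ^ 2 = |c - g x| ^ 2 := (sq_abs _).symm
      _ ≤ _ := by gcongr
  have hpm : Measurable fun x => (c + g x) ^ 2 := (hgm.const_add c).pow_const 2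
  have hmm : Measurable fun x => (c - g x) ^ 2 := (hgm.const_sub c).pow_const 2
  have hwm : Measurable fun x => g x ^ 2 + c ^ 2 := hg2m.add_const _
  have hpl := integrable_mul_log μ hpm (fun x => sq_nonneg _) hpT
  have hml := integrable_mul_log μ hmm (fun x => sq_nonneg _) hmT
  have hwl := integrable_mul_log μ hwm (fun x => by positivity) (T := C ^ 2 + c ^ 2) fun x => by
    have := hgsq x; linarith
  -- integrated pointwise inequality
  have hkey : ∫ x, (((c + g x) ^ 2 * log ((c + g x) ^ 2) + (c - g x) ^ 2 * log ((c - g x) ^ 2)) / 2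
      - (g x ^ 2 + c ^ 2) * log (g x ^ 2 + c ^ 2)) ∂μ ≤ ∫ x, 4 * g x ^ 2 ∂μ := by
    refine integral_mono (((hpl.add hml).div_const 2).sub hwl) (hg2i.const_mul 4) fun x => ?_
    have := rothaus_pointwise c (g x)
    simp only [add_comm (c ^ 2) (g x ^ 2)] at this
    exact this
  have hsumI : Integrable (fun x => ((c + g x) ^ 2 * log ((c + g x) ^ 2)
      + (c - g x) ^ 2 * log ((c - g x) ^ 2)) / 2) μ := (hpl.add hml).div_const 2
  rw [integral_sub hsumI hwl, integral_div, integral_add hpl hml, integral_const_mul] at hkey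
  -- entropies
  have hEm : 0 ≤ Ent μ (fun x => (c - g x) ^ 2) :=
    Ent_nonneg μ hmm (fun x => sq_nonneg _) hmT
  have hEw : Ent μ (fun x => g x ^ 2 + c ^ 2) ≤ Ent μ (fun x => g x ^ 2) :=
    Ent_add_const_le μ hg2m (fun x => sq_nonneg _) hgsq (sq_nonneg c)
  unfold Ent at hEm hEw ⊢
  rw [hminus] at hEm
  rw [hw] at hEw
  rw [hplus]
  linarith

end Vale.Agent.Lib.P245
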