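import Vale.Agent.Lib.P245.SmoothData

/-!
The level inequality for `(c + f₀) ^ 2 + ε` with `f₀` smooth and compactly supported.
-/

open MeasureTheory Real
open scoped InnerProductSpace ContDiff

namespace Vale.Agent.Lib.P245

variable {n : ℕ}

/-- M8b : the level inequality `hlevel` (that is, `level_main`) applied to `g = log((h²+ε)/N)`,
`h = c + f₀`. -/
theorem level_smooth_of {μ : Measure (E n)} [IsProbabilityMeasure μ] {b : ℝ} (hb : 0 < b)
    (hlevel : ∀ (g : E n → ℝ) (D : E n → E n) (K Cg CD : ℝ), Measurable g → Measurable D →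
      (∀ x, |g x| ≤ Cg) → (∀ x, ‖D x‖ ≤ CD) →
      (∀ x z, g x ≤ g z + ⟪D z, x - z⟫_ℝ + K * ‖x - z‖ ^ 2) →
      ∫ x, exp (g x) ∂μ = 1 → ∀ L : ℝ, L = ∫ x, g x * exp (g x) ∂μ → 0 < L →
      L ≤ b * max 32 (23 * Real.sqrt (n / L)) * ∫ x, ‖D x‖ ^ 2 * exp (g x) ∂μ)
    {f₀ : E n → ℝ} (hf : ContDiff ℝ ∞ f₀) (hfc : HasCompactSupport f₀) (c : ℝ)
    {ε : ℝ} (hε : 0 < ε) {N : ℝ} (hN : N = ∫ x, ((c + f₀ x) ^ 2 + ε) ∂μ)
    {L : ℝ} (hL : L = Ent μ (fun x => (c + f₀ x) ^ 2 + ε) / N) (hLpos : 0 < L) :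
    L ≤ b * max 32 (23 * Real.sqrt (n / L)) * ((4 / N) * ∫ x, ‖fderiv ℝ f₀ x‖ ^ 2 ∂μ) := by
  set w : E n → ℝ := fun x => (c + f₀ x) ^ 2 + ε with hw
  have hwpos : ∀ x, 0 < w x := fun x => by
    rw [hw]; positivity
  have hwcont : Continuous w := by
    rw [hw]
    exact ((continuous_const.add hf.continuous).pow 2).add continuous_const
  obtain ⟨Cf, hCf⟩ := hf.continuous.bounded_above_of_compact_support hfc
  have hCf0 : 0 ≤ Cf := le_trans (norm_nonneg _) (hCf 0)
  set Wm : ℝ := (|c| + Cf) ^ 2 + ε with hWm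
  have hwle : ∀ x, w x ≤ Wm := by
    intro x
    rw [hw, hWm]
    have h1 := hCf x
    rw [Real.norm_eq_abs] at h1
    have h2 : |c + f₀ x| ≤ |c| + Cf := (abs_add_le _ _).trans (by linarith)
    have h3 : (c + f₀ x) ^ 2 ≤ (|c| + Cf) ^ 2 := by
      rw [← sq_abs (c + f₀ x)]
      exact pow_le_pow_left₀ (abs_nonneg _) h2 2
    simp only
    linarith
  have hwint : Integrable w μ := by
    refine Integrable.of_bound hwcont.aestronglyMeasurable Wm (Filter.Eventually.of_forall fun x => ?_)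
    rw [Real.norm_eq_abs, abs_of_pos (hwpos x)]
    exact hwle x
  have hN0 : 0 < N := by
    rw [hN]
    have h1 : ∫ x, w x ∂μ = ∫ x, (c + f₀ x) ^ 2 ∂μ + ε := by
      have hsq : Integrable (fun x => (c + f₀ x) ^ 2) μ := by
        refine (hwint.sub (integrable_const ε)).congr (Filter.Eventually.of_forall fun x => ?_)
        simp only [hw, Pi.sub_apply]
        ring
      rw [hw, integral_add hsq (integrable_const ε)]
      simp
    have h2 : 0 ≤ ∫ x, (c + f₀ x) ^ 2 ∂μ := integral_nonneg fun x => sq_nonneg _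
    show 0 < ∫ x, w x ∂μ
    rw [h1]
    linarith
  obtain ⟨g, D, K, Cg, CD, hgm, hDm, hgb, hDb, hT, hgeq, hDg⟩ := smooth_data hf hfc c hε hN0
  have hgw : ∀ x, g x = log (w x / N) := hgeq
  have hexp : ∀ x, exp (g x) = w x / N := by
    intro x
    rw [hgw, exp_log (div_pos (hwpos x) hN0)]
  have hNw : ∫ x, w x ∂μ = N := hN.symm
  have hg1 : ∫ x, exp (g x) ∂μ = 1 := by
    simp only [hexp]
    rw [integral_div, hNw, div_self hN0.ne']
  -- entropy
  have hlogb : ∀ x, |log (w x)| ≤ Cg + |log N| := by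
    intro x
    have h1 : log (w x) = g x + log N := by
      rw [hgw, log_div (hwpos x).ne' hN0.ne']; ring
    rw [h1]
    exact (abs_add_le _ _).trans (by linarith [hgb x])
  have hwlog : Integrable (fun x => w x * log (w x)) μ := by
    have hmeas : AEStronglyMeasurable (fun x => w x * log (w x)) μ :=
      (hwcont.measurable.mul (measurable_log.comp hwcont.measurable)).aestronglyMeasurable
    refine Integrable.of_bound hmeas (Wm * (Cg + |log N|)) (Filter.Eventually.of_forall fun x => ?_)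
    rw [Real.norm_eq_abs, abs_mul, abs_of_pos (hwpos x)]
    exact mul_le_mul (hwle x) (hlogb x) (abs_nonneg _) ((hwpos x).le.trans (hwle x))
  have hL' : L = ∫ x, g x * exp (g x) ∂μ := by
    have hpoint : ∀ x, g x * exp (g x) = (1 / N) * (w x * log (w x)) - (log N / N) * w x := by
      intro x
      rw [hexp, hgw, log_div (hwpos x).ne' hN0.ne']
      field_simp
    simp only [hpoint]
    rw [integral_sub (hwlog.const_mul _) (hwint.const_mul _), integral_const_mul, integral_const_mul,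
      hNw, hL]
    unfold Ent
    show ((∫ x, w x * log (w x) ∂μ) - (∫ x, w x ∂μ) * log (∫ x, w x ∂μ)) / N = _
    rw [hNw]
    field_simp
  have hmain := hlevel g D K Cg CD hgm hDm hgb hDb hT hg1 L hL' hLpos
  -- the gradient term
  obtain ⟨Cd, _, hCd⟩ := bound_fderiv hf hfc
  have hfd : Integrable (fun x => ‖fderiv ℝ f₀ x‖ ^ 2) μ := by
    have hcont : Continuous fun x => ‖fderiv ℝ f₀ x‖ ^ 2 :=
      ((contDiff_infty_iff_fderiv.mp hf).2.continuous.norm).pow 2
    refine Integrable.of_bound hcont.aestronglyMeasurable (Cd ^ 2) (Filter.Eventually.of_forall fun x => ?_)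
    rw [Real.norm_eq_abs, abs_of_nonneg (sq_nonneg _)]
    exact pow_le_pow_left₀ (norm_nonneg _) (hCd x) 2
  have hgrad : ∫ x, ‖D x‖ ^ 2 * exp (g x) ∂μ ≤ (4 / N) * ∫ x, ‖fderiv ℝ f₀ x‖ ^ 2 ∂μ := by
    rw [← integral_const_mul]
    refine integral_mono_of_nonneg (Filter.Eventually.of_forall fun x => ?_) (hfd.const_mul _)
      (Filter.Eventually.of_forall fun x => hDg x)
    show 0 ≤ ‖D x‖ ^ 2 * exp (g x)
    positivity
  have hmax : (0 : ℝ) ≤ max 32 (23 * Real.sqrt (n / L)) :=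
    le_trans (by norm_num) (le_max_left _ _)
  exact hmain.trans (mul_le_mul_of_nonneg_left hgrad (mul_nonneg hb.le hmax))

end Vale.Agent.Lib.P245
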