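import Vale.Agent.Lib.P245.Defs

/-!
The smooth reduction for the level inequality: the function `log ((c + f₀) ^ 2 + ε) - log N` for `f₀`
smooth with compact support has a bounded gradient and a uniform second order Taylor bound.
-/

open MeasureTheory Real
open scoped InnerProductSpace ContDiff

namespace Vale.Agent.Lib.P245

section Generic

variable {V : Type*} [NormedAddCommGroup V] [NormedSpace ℝ V]

/-- A smooth function with compact support has a bounded derivative. -/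
theorem bound_fderiv {W : Type*} [NormedAddCommGroup W] [NormedSpace ℝ W] {F : V → W}
    (hF : ContDiff ℝ ∞ F) (hc : HasCompactSupport F) :
    ∃ C : ℝ, 0 ≤ C ∧ ∀ x, ‖fderiv ℝ F x‖ ≤ C := by
  have hF1 : ContDiff ℝ ∞ (fderiv ℝ F) := (contDiff_infty_iff_fderiv.mp hF).2
  have hGc1 : HasCompactSupport (fderiv ℝ F) := hc.fderiv (𝕜 := ℝ)
  obtain ⟨C, hC⟩ := hF1.continuous.bounded_above_of_compact_support hGc1
  exact ⟨C, le_trans (norm_nonneg _) (hC 0), hC⟩

theorem taylor_lip {G : V → ℝ} (C : ℝ) (hdG1 : ∀ y : V, DifferentiableAt ℝ (fderiv ℝ G) y)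
    (hC : ∀ x, ‖fderiv ℝ (fderiv ℝ G) x‖ ≤ C) (z : V) :
    ∀ y : V, ‖fderiv ℝ G y - fderiv ℝ G z‖ ≤ C * ‖y - z‖ := by
  intro y
  exact Convex.norm_image_sub_le_of_norm_fderiv_le (𝕜 := ℝ) (s := Set.univ)
    (fun y _ => hdG1 y) (fun y _ => hC y) convex_univ (Set.mem_univ z) (Set.mem_univ y)

theorem taylor_step {G : V → ℝ} (C : ℝ) (hC0 : 0 ≤ C) (hdG : ∀ y : V, DifferentiableAt ℝ G y)
    (x z : V) (hLip : ∀ y : V, ‖fderiv ℝ G y - fderiv ℝ G z‖ ≤ C * ‖y - z‖) :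
    |G x - G z - (fderiv ℝ G z) (x - z)| ≤ C * ‖x - z‖ ^ 2 := by
  have hψd : ∀ y, HasFDerivAt (fun y => G y - (fderiv ℝ G z) y) (fderiv ℝ G y - fderiv ℝ G z) y := by
    intro y
    exact (hdG y).hasFDerivAt.sub (fderiv ℝ G z).hasFDerivAt
  have hbound : ∀ y ∈ Metric.closedBall z ‖x - z‖,
      ‖fderiv ℝ (fun y => G y - (fderiv ℝ G z) y) y‖ ≤ C * ‖x - z‖ := by
    intro y hy
    rw [(hψd y).fderiv]
    refine (hLip y).trans (mul_le_mul_of_nonneg_left ?_ hC0)
    rw [Metric.mem_closedBall, dist_eq_norm] at hy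
    exact hy
  have hmv := Convex.norm_image_sub_le_of_norm_fderiv_le (𝕜 := ℝ)
    (s := Metric.closedBall z ‖x - z‖) (x := z) (y := x)
    (fun y _ => (hψd y).differentiableAt) hbound (convex_closedBall z _)
    (Metric.mem_closedBall_self (norm_nonneg _))
    (by rw [Metric.mem_closedBall, dist_eq_norm])
  have e : (G x - (fderiv ℝ G z) x) - (G z - (fderiv ℝ G z) z) =
      G x - G z - (fderiv ℝ G z) (x - z) := by
    simp only [map_sub]
    ring
  rw [e, Real.norm_eq_abs] at hmv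
  calc |G x - G z - (fderiv ℝ G z) (x - z)| ≤ C * ‖x - z‖ * ‖x - z‖ := hmv
    _ = C * ‖x - z‖ ^ 2 := by ring

/-- Uniform second order Taylor bound for a smooth function with compact support. -/
theorem taylor_of_compact {G : V → ℝ} (hG : ContDiff ℝ ∞ G) (hGc : HasCompactSupport G) :
    ∃ K : ℝ, 0 ≤ K ∧ ∀ x z : V, |G x - G z - (fderiv ℝ G z) (x - z)| ≤ K * ‖x - z‖ ^ 2 := by
  have hG1 : ContDiff ℝ ∞ (fderiv ℝ G) := (contDiff_infty_iff_fderiv.mp hG).2
  have hGc1 : HasCompactSupport (fderiv ℝ G) := hGc.fderiv (𝕜 := ℝ)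
  obtain ⟨C, hC0, hC⟩ := bound_fderiv hG1 hGc1
  refine ⟨C, hC0, fun x z => ?_⟩
  have hdG : ∀ y : V, DifferentiableAt ℝ G y := fun y =>
    (contDiff_infty_iff_fderiv.mp hG).1 y
  have hdG1 : ∀ y : V, DifferentiableAt ℝ (fderiv ℝ G) y := fun y =>
    (contDiff_infty_iff_fderiv.mp hG1).1 y
  exact taylor_step C hC0 hdG x z (taylor_lip C hdG1 hC z)

end Generic

section GenericInner

variable {V : Type*} [NormedAddCommGroup V] [InnerProductSpace ℝ V] [CompleteSpace V]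
  [MeasurableSpace V] [BorelSpace V]

/-- The data to be fed into the level inequality. -/
theorem smooth_data {f₀ : V → ℝ} (hf : ContDiff ℝ ∞ f₀) (hfc : HasCompactSupport f₀) (c : ℝ)
    {ε : ℝ} (hε : 0 < ε) {N : ℝ} (hN : 0 < N) :
    ∃ (g : V → ℝ) (D : V → V) (K Cg CD : ℝ),
      Measurable g ∧ Measurable D ∧ (∀ x, |g x| ≤ Cg) ∧ (∀ x, ‖D x‖ ≤ CD) ∧
      (∀ x z, g x ≤ g z + ⟪D z, x - z⟫_ℝ + K * ‖x - z‖ ^ 2) ∧
      (∀ x, g x = log (((c + f₀ x) ^ 2 + ε) / N)) ∧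
      (∀ x, ‖D x‖ ^ 2 * exp (g x) ≤ (4 / N) * ‖fderiv ℝ f₀ x‖ ^ 2) := by
  set w : V → ℝ := fun x => (c + f₀ x) ^ 2 + ε with hw
  have hw0 : ∀ x, 0 < w x := fun x => by
    rw [hw]; positivity
  have hwsm : ContDiff ℝ ∞ w := ((contDiff_const.add hf).pow 2).add contDiff_const
  set a : ℝ := log (c ^ 2 + ε) with ha
  set G : V → ℝ := fun x => log (w x) - a with hG
  have hGsm : ContDiff ℝ ∞ G := (hwsm.log fun x => (hw0 x).ne').sub contDiff_const
  have hGc : HasCompactSupport G := by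
    refine hfc.mono ?_
    intro x hx
    rw [Function.mem_support] at hx ⊢
    intro h0
    apply hx
    rw [hG, hw]
    simp only [h0, add_zero]
    rw [ha]
    ring
  -- the gradient
  set D : V → V := fun x => (InnerProductSpace.toDual ℝ V).symm (fderiv ℝ G x) with hD
  have hDnorm : ∀ x, ‖D x‖ = ‖fderiv ℝ G x‖ := fun x =>
    (InnerProductSpace.toDual ℝ V).symm.norm_map _
  have hG1 : ContDiff ℝ ∞ (fderiv ℝ G) := (contDiff_infty_iff_fderiv.mp hGsm).2
  have hDcont : Continuous D := (InnerProductSpace.toDual ℝ V).symm.continuous.comp hG1.continuous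
  obtain ⟨Cb, hCb⟩ := hGsm.continuous.bounded_above_of_compact_support hGc
  obtain ⟨CD, _, hCD⟩ := bound_fderiv hGsm hGc
  obtain ⟨K, _, hK⟩ := taylor_of_compact hGsm hGc
  refine ⟨fun x => log (w x / N), D, K, Cb + |a - log N|, CD, ?_, hDcont.measurable, ?_, ?_, ?_,
    fun _ => rfl, ?_⟩
  · have : Continuous fun x => log (w x / N) :=
      Continuous.log (hwsm.continuous.div_const N) fun x => (div_pos (hw0 x) hN).ne'
    exact this.measurable
  · intro x
    have e : log (w x / N) = G x + (a - log N) := by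
      rw [log_div (hw0 x).ne' hN.ne', hG]
      ring
    show |log (w x / N)| ≤ _
    rw [e]
    refine (abs_add_le _ _).trans ?_
    have := hCb x
    rw [Real.norm_eq_abs] at this
    linarith
  · intro x
    rw [hDnorm]
    exact hCD x
  · intro x z
    have e : ∀ y, log (w y / N) = G y + (a - log N) := by
      intro y
      rw [log_div (hw0 y).ne' hN.ne', hG]
      ring
    simp only [e]
    have h1 := hK x z
    have h2 : ⟪D z, x - z⟫_ℝ = (fderiv ℝ G z) (x - z) := InnerProductSpace.toDual_symm_apply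
    rw [h2]
    have h3 := (abs_le.mp h1).2
    linarith
  · intro x
    -- the derivative of `G`
    have hf' : HasFDerivAt f₀ (fderiv ℝ f₀ x) x :=
      ((contDiff_infty_iff_fderiv.mp hf).1 x).hasFDerivAt
    have h1 : HasFDerivAt (fun y => c + f₀ y) (fderiv ℝ f₀ x) x := hf'.const_add c
    have h2 := h1.pow 2
    have e2 : ((2 : ℕ) • (c + f₀ x) ^ (2 - 1)) = 2 * (c + f₀ x) := by
      rw [nsmul_eq_mul]
      norm_num
    rw [e2] at h2
    have h3 : HasFDerivAt w ((2 * (c + f₀ x)) • fderiv ℝ f₀ x) x := h2.add_const ε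
    have h4 : HasFDerivAt G ((w x)⁻¹ • ((2 * (c + f₀ x)) • fderiv ℝ f₀ x)) x :=
      (h3.log (hw0 x).ne').sub_const a
    rw [hDnorm, h4.fderiv]
    have e : exp (log (w x / N)) = w x / N := exp_log (div_pos (hw0 x) hN)
    show ‖(w x)⁻¹ • ((2 * (c + f₀ x)) • fderiv ℝ f₀ x)‖ ^ 2 * exp (log (w x / N)) ≤ _
    rw [e]
    have hnorm : ‖(w x)⁻¹ • ((2 * (c + f₀ x)) • fderiv ℝ f₀ x)‖ =
        (w x)⁻¹ * (2 * |c + f₀ x| * ‖fderiv ℝ f₀ x‖) := by
      rw [norm_smul, norm_inv, Real.norm_eq_abs, abs_of_pos (hw0 x), norm_smul, Real.norm_eq_abs,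
        abs_mul]
      norm_num
    rw [hnorm]
    have hsq : |c + f₀ x| ^ 2 = (c + f₀ x) ^ 2 := sq_abs _
    have hle : (c + f₀ x) ^ 2 ≤ w x := by
      rw [hw]; simp only; linarith
    have hwx := hw0 x
    have hfinal : ((w x)⁻¹ * (2 * |c + f₀ x| * ‖fderiv ℝ f₀ x‖)) ^ 2 * (w x / N) =
        (4 / N) * ‖fderiv ℝ f₀ x‖ ^ 2 * ((c + f₀ x) ^ 2 / w x) := by
      rw [← hsq]
      field_simp
      ring
    rw [hfinal]
    have hr : (c + f₀ x) ^ 2 / w x ≤ 1 := (div_le_one hwx).mpr hle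
    have hp : 0 ≤ (4 / N) * ‖fderiv ℝ f₀ x‖ ^ 2 := by positivity
    calc (4 / N) * ‖fderiv ℝ f₀ x‖ ^ 2 * ((c + f₀ x) ^ 2 / w x)
        ≤ (4 / N) * ‖fderiv ℝ f₀ x‖ ^ 2 * 1 := mul_le_mul_of_nonneg_left hr hp
      _ = (4 / N) * ‖fderiv ℝ f₀ x‖ ^ 2 := mul_one _

end GenericInner

end Vale.Agent.Lib.P245
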