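import Vale.Agent.Lib.P245.Gauss
import Vale.Agent.Lib.P245.DV
import Vale.Agent.Lib.P245.OneStep
import Vale.Agent.Lib.P245.Tilt

/-! ## M6  Sum.lean : the pointwise bound on the barycentre shift and the telescoping sum -/

open MeasureTheory Real
open scoped InnerProductSpace

namespace Vale.Agent.Lib.P245

variable {n : ℕ}

section Aux

lemma sum_wt_pos (s : ℝ) (θ x : E n) : 0 < wt s θ x := exp_pos _

lemma sum_wt_le {s : ℝ} (hs : 0 ≤ s) (θ x : E n) : wt s θ x ≤ exp ⟪θ, x⟫_ℝ := by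
  unfold wt
  apply exp_le_exp.mpr
  have := mul_nonneg hs (sq_nonneg ‖x‖)
  linarith

lemma sum_continuous_wt (s : ℝ) (θ : E n) : Continuous (wt s θ) := by
  unfold wt; fun_prop

lemma sum_exp_mul_wt (s : ℝ) (θ v x : E n) :
    exp ⟪v, x⟫_ℝ * wt s θ x = wt s (θ + v) x := by
  unfold wt
  rw [← exp_add, inner_add_left]
  ring_nf

lemma sum_Bdd_pos {F : E n → ℝ} {B : ℝ} (hF : Bdd F B) (x : E n) : 0 < F x := by
  have hB : 0 < B := lt_of_lt_of_le one_pos hF.one_le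
  exact lt_of_lt_of_le (inv_pos.mpr hB) (hF.lo x)

lemma sum_Bdd_log {F : E n → ℝ} {B : ℝ} (hF : Bdd F B) (x : E n) : |log (F x)| ≤ log B := by
  have hB : 0 < B := lt_of_lt_of_le one_pos hF.one_le
  have hp := sum_Bdd_pos hF x
  rw [abs_le]
  constructor
  · have := log_le_log (inv_pos.mpr hB) (hF.lo x)
    rw [log_inv] at this
    linarith
  · exact log_le_log hp (hF.hi x)

lemma sum_Bdd_abs {F : E n → ℝ} {B : ℝ} (hF : Bdd F B) (x : E n) : |F x| ≤ B := by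
  rw [abs_of_pos (sum_Bdd_pos hF x)]; exact hF.hi x

lemma sum_Bdd_integrable {F : E n → ℝ} {B : ℝ} (hF : Bdd F B) (ν : Measure (E n))
    [IsFiniteMeasure ν] : Integrable F ν :=
  Integrable.of_bound hF.meas.aestronglyMeasurable B
    (ae_of_all _ fun x => by rw [Real.norm_eq_abs]; exact sum_Bdd_abs hF x)

lemma sum_Bdd_integrable_log {F : E n → ℝ} {B : ℝ} (hF : Bdd F B) (ν : Measure (E n))
    [IsFiniteMeasure ν] : Integrable (fun x => F x * log (F x)) ν := by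
  refine Integrable.of_bound
    (hF.meas.mul hF.meas.log).aestronglyMeasurable (B * log B) (ae_of_all _ fun x => ?_)
  rw [Real.norm_eq_abs, abs_mul]
  have hB : 0 < B := lt_of_lt_of_le one_pos hF.one_le
  exact mul_le_mul (sum_Bdd_abs hF x) (sum_Bdd_log hF x) (abs_nonneg _) hB.le

lemma sum_Bdd_mul {F : E n → ℝ} {B : ℝ} (hF : Bdd F B) {ν : Measure (E n)} {g : E n → ℝ}
    (hg : Integrable g ν) : Integrable (fun x => F x * g x) ν :=
  hg.bdd_mul hF.meas.aestronglyMeasurable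
    (ae_of_all _ fun x => by rw [Real.norm_eq_abs]; exact sum_Bdd_abs hF x)

lemma sum_Bdd_smul {F : E n → ℝ} {B : ℝ} (hF : Bdd F B) {ν : Measure (E n)}
    (hid : Integrable (fun x => x) ν) : Integrable (fun x => F x • x) ν :=
  hid.bdd_smul B hF.meas.aestronglyMeasurable
    (ae_of_all _ fun x => by rw [Real.norm_eq_abs]; exact sum_Bdd_abs hF x)

/-- `x log x ≥ x - 1` integrated. -/
lemma sum_L_nonneg {F : E n → ℝ} {B : ℝ} (hF : Bdd F B) {ν : Measure (E n)}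
    [IsProbabilityMeasure ν] (hF1 : ∫ x, F x ∂ν = 1) : 0 ≤ ∫ x, F x * log (F x) ∂ν := by
  have h1 : ∫ x, (F x - 1) ∂ν ≤ ∫ x, F x * log (F x) ∂ν := by
    apply integral_mono ((sum_Bdd_integrable hF ν).sub (integrable_const 1))
      (sum_Bdd_integrable_log hF ν)
    intro x
    have hp := sum_Bdd_pos hF x
    have := Real.log_le_sub_one_of_pos (inv_pos.mpr hp)
    rw [log_inv] at this
    have h3 : F x * (-log (F x)) ≤ F x * ((F x)⁻¹ - 1) := mul_le_mul_of_nonneg_left this hp.le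
    have h4 : F x * (F x)⁻¹ = 1 := mul_inv_cancel₀ hp.ne'
    show F x - 1 ≤ F x * log (F x)
    nlinarith
  rw [integral_sub (sum_Bdd_integrable hF ν) (integrable_const 1), hF1] at h1
  simpa using h1

/-- Integrability of `|x-a|^2` from an mgf bound. -/
lemma sum_mgf_sq {ν : Measure (E n)} [IsProbabilityMeasure ν] {a : E n} {S : ℝ} (hS : 0 < S)
    (h : MgfBd ν a S) : Integrable (fun x => ‖x - a‖ ^ 2) ν := by
  have hc0 : 0 < 1 / (8 * S) := by positivity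
  have hc : 4 * (1 / (8 * S)) * S < 1 := by
    have : 4 * (1 / (8 * S)) * S = 1 / 2 := by field_simp; norm_num
    rw [this]; norm_num
  obtain ⟨h1, -⟩ := gauss_moment ν (X := fun x => x - a) (measurable_id.sub_const a) hS h.int h.bd
    hc0 hc
  have h2 := h1.const_mul (8 * S)
  refine h2.mono' ((continuous_id.sub continuous_const).norm.pow 2).aestronglyMeasurable
    (ae_of_all _ fun x => ?_)
  rw [Real.norm_of_nonneg (by positivity)]
  have := Real.add_one_le_exp (1 / (8 * S) * ‖x - a‖ ^ 2)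
  have h3 : 0 ≤ 1 / (8 * S) * ‖x - a‖ ^ 2 := by positivity
  have h4 : 8 * S * (1 / (8 * S) * ‖x - a‖ ^ 2) = ‖x - a‖ ^ 2 := by field_simp
  have h5 : 8 * S * (1 / (8 * S) * ‖x - a‖ ^ 2) ≤ 8 * S * exp (1 / (8 * S) * ‖x - a‖ ^ 2) :=
    mul_le_mul_of_nonneg_left (by linarith) (by positivity)
  linarith

lemma sum_mgf_id {ν : Measure (E n)} [IsProbabilityMeasure ν] {a : E n} {S : ℝ} (hS : 0 < S)
    (h : MgfBd ν a S) : Integrable (fun x => x) ν := by
  have h1 : Integrable (fun x => ‖x - a‖ ^ 2 + 1 + ‖a‖) ν :=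
    ((sum_mgf_sq hS h).add (integrable_const 1)).add (integrable_const _)
  refine h1.mono' continuous_id.aestronglyMeasurable (ae_of_all _ fun x => ?_)
  have h2 : ‖x‖ ≤ ‖x - a‖ + ‖a‖ := by
    have := norm_add_le (x - a) a
    simpa using this
  nlinarith [sq_nonneg (‖x - a‖ - 1), norm_nonneg (x - a)]

/-- `|t| ≤ exp t + exp (-t)`; integrability of linear forms. -/
lemma sum_inner_integrable {ν : Measure (E n)} (h : ∀ v : E n, Integrable (fun x => exp ⟪v, x⟫_ℝ) ν)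
    (v : E n) : Integrable (fun x => ⟪v, x⟫_ℝ) ν := by
  have h1 := (h v).add (h (-v))
  refine h1.mono' (by fun_prop) (ae_of_all _ fun x => ?_)
  simp only [inner_neg_left, Pi.add_apply]
  rw [Real.norm_eq_abs]
  have h2 := Real.add_one_le_exp ⟪v, x⟫_ℝ
  have h3 := Real.add_one_le_exp (-⟪v, x⟫_ℝ)
  have h4 := exp_pos ⟪v, x⟫_ℝ
  have h5 := exp_pos (-⟪v, x⟫_ℝ)
  rw [abs_le]; constructor <;> linarith

end Aux

section Sum
variable {μ : Measure (E n)} {b : ℝ}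

lemma sum_SG_mgf (h : SG μ b) : MgfBd μ 0 b where
  int v := by simpa using h.int v
  bd v := by simpa using h.bd v

lemma sum_integrable_wt (h : SG μ b) {s : ℝ} (hs : 0 ≤ s) (θ : E n) : Integrable (wt s θ) μ := by
  refine (h.int θ).mono' (sum_continuous_wt s θ).aestronglyMeasurable (ae_of_all _ fun x => ?_)
  rw [Real.norm_of_nonneg (sum_wt_pos s θ x).le]
  exact sum_wt_le hs θ x

lemma sum_KK_one_le (h : SG μ b) {s : ℝ} (hs : 0 ≤ s) (w : E n) :
    KK μ one s w ≤ exp (b * ‖w‖ ^ 2) := by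
  refine le_trans ?_ (h.bd w)
  unfold KK one
  apply integral_mono (by simpa using sum_integrable_wt h hs w) (h.int w)
  intro x
  simpa using sum_wt_le hs w x

lemma sum_integrable_sq (h : SG μ b) : Integrable (fun x : E n => ‖x‖ ^ 2) μ := by
  have := h.prob
  simpa using sum_mgf_sq h.pos (sum_SG_mgf h)

/-- Integrability under the tilted measure. -/
lemma sum_integrable_tilt_iff (h : SG μ b) {s : ℝ} (hs : 0 < s) (θ : E n) {H : E n → ℝ} :
    Integrable H (tilt μ s θ) ↔ Integrable (fun x => H x * wt s θ x) μ := by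
  have hK := KK_one_pos h hs θ
  unfold tilt
  rw [integrable_withDensity_iff_integrable_smul'
    (((sum_continuous_wt s θ).measurable.div_const _).ennreal_ofReal)
    (ae_of_all _ fun x => ENNReal.ofReal_lt_top)]
  have hfun : (fun x => (ENNReal.ofReal (wt s θ x / KK μ one s θ)).toReal • H x)
      = fun x => (KK μ one s θ)⁻¹ * (H x * wt s θ x) := by
    funext x
    rw [ENNReal.toReal_ofReal (div_nonneg (sum_wt_pos s θ x).le hK.le), smul_eq_mul]
    field_simp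
  rw [hfun]
  constructor
  · intro h'
    have := h'.const_mul (KK μ one s θ)
    refine this.congr (ae_of_all _ fun x => ?_)
    simp only
    field_simp
  · intro h'
    exact h'.const_mul _

lemma sum_exp_integrable_tilt (h : SG μ b) {s : ℝ} (hs : 0 < s) (θ v : E n) :
    Integrable (fun x => exp ⟪v, x⟫_ℝ) (tilt μ s θ) := by
  rw [sum_integrable_tilt_iff h hs]
  simp_rw [sum_exp_mul_wt]
  exact sum_integrable_wt h hs.le _

lemma sum_integral_exp_tilt (h : SG μ b) {s : ℝ} (hs : 0 < s) (θ v : E n) :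
    ∫ x, exp ⟪v, x⟫_ℝ ∂(tilt μ s θ) = KK μ one s (θ + v) / KK μ one s θ := by
  rw [integral_tilt h hs]
  congr 1
  unfold KK one
  simp_rw [sum_exp_mul_wt]
  simp

/-- Jensen at the centre: `K(s,θ) ≥ exp(-s τ₀/2)`. -/
lemma sum_KK_one_ge (h : SG μ b) {s : ℝ} (hs : 0 < s) (θ : E n) :
    -(s * (∫ x, ‖x‖ ^ 2 ∂μ) / 2) ≤ log (KK μ one s θ) := by
  have := h.prob
  have hlin := sum_inner_integrable h.int θ
  have hsq := sum_integrable_sq h
  have hT : Integrable (fun x : E n => ⟪θ, x⟫_ℝ - s * ‖x‖ ^ 2 / 2) μ :=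
    hlin.sub ((hsq.const_mul s).div_const 2)
  have hd := dv μ (G := fun _ => 1) (T := fun x => ⟪θ, x⟫_ℝ - s * ‖x‖ ^ 2 / 2)
    (fun _ => one_pos) (by simp) (integrable_const _) (by simp) (by simpa using hT)
    (sum_integrable_wt h hs.le θ)
  simp only [one_mul, log_one, mul_zero, integral_zero, zero_add] at hd
  have hid := sum_mgf_id h.pos (sum_SG_mgf h)
  have h1 : ∫ x : E n, ⟪θ, x⟫_ℝ ∂μ = 0 := by
    rw [integral_inner hid, h.centered, inner_zero_right]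
  rw [integral_sub hlin ((hsq.const_mul s).div_const 2), h1, integral_div, integral_const_mul] at hd
  have h2 : ∫ x, exp (⟪θ, x⟫_ℝ - s * ‖x‖ ^ 2 / 2) ∂μ = KK μ one s θ := by
    unfold KK one wt; simp
  rw [h2] at hd
  linarith

/-- Algebra at the end of blueprint section 4. -/
lemma sum_p_alg {b s τ l : ℝ} (hb : 0 < b) (θ p : E n)
    (hk : ∀ v : E n, ⟪v, p⟫_ℝ ≤ l + (b * ‖θ + v‖ ^ 2 + s * τ / 2)
      + (b * ‖θ + -v‖ ^ 2 + s * τ / 2)) :
    ‖p‖ ^ 2 ≤ 8 * b * (l + 2 * b * ‖θ‖ ^ 2 + s * τ) := by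
  have hpar : ∀ v : E n, ‖θ + v‖ ^ 2 + ‖θ + -v‖ ^ 2 = 2 * ‖θ‖ ^ 2 + 2 * ‖v‖ ^ 2 := by
    intro v
    rw [← real_inner_self_eq_norm_sq, ← real_inner_self_eq_norm_sq,
      ← real_inner_self_eq_norm_sq, ← real_inner_self_eq_norm_sq]
    simp only [inner_add_left, inner_add_right, inner_neg_left, inner_neg_right]
    rw [real_inner_comm θ v]
    ring
  have hv := hk ((1 / (4 * b)) • p)
  have hp2 := hpar ((1 / (4 * b)) • p)
  rw [inner_smul_left, real_inner_self_eq_norm_sq] at hv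
  simp only [conj_trivial] at hv
  have hnorm : ‖(1 / (4 * b)) • p‖ ^ 2 = (1 / (4 * b)) ^ 2 * ‖p‖ ^ 2 := by
    rw [norm_smul, mul_pow, Real.norm_eq_abs, sq_abs]
  rw [hnorm] at hp2
  have hsum : b * ‖θ + (1 / (4 * b)) • p‖ ^ 2 + b * ‖θ + -((1 / (4 * b)) • p)‖ ^ 2
      = 2 * b * ‖θ‖ ^ 2 + ‖p‖ ^ 2 / (8 * b) := by
    have : b * ‖θ + (1 / (4 * b)) • p‖ ^ 2 + b * ‖θ + -((1 / (4 * b)) • p)‖ ^ 2
        = b * (‖θ + (1 / (4 * b)) • p‖ ^ 2 + ‖θ + -((1 / (4 * b)) • p)‖ ^ 2) := by ring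
    rw [this, hp2]
    field_simp
    ring
  have hfin : ‖p‖ ^ 2 / (8 * b) ≤ l + 2 * b * ‖θ‖ ^ 2 + s * τ := by
    have e1 : 1 / (4 * b) * ‖p‖ ^ 2 = ‖p‖ ^ 2 / (8 * b) + ‖p‖ ^ 2 / (8 * b) := by
      field_simp; ring
    linarith
  have h8b : 0 < 8 * b := by positivity
  rw [div_le_iff₀ h8b] at hfin
  linarith

lemma sum_logK_le (h : SG μ b) {s : ℝ} (hs : 0 < s) (θ w : E n) :
    log (KK μ one s w / KK μ one s θ) ≤ b * ‖w‖ ^ 2 + s * (∫ x, ‖x‖ ^ 2 ∂μ) / 2 := by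
  have hK := KK_one_pos h hs θ
  have hw := KK_one_pos h hs w
  rw [log_div hw.ne' hK.ne']
  have h1 : log (KK μ one s w) ≤ b * ‖w‖ ^ 2 := by
    have := log_le_log hw (sum_KK_one_le h hs.le w)
    rwa [log_exp] at this
  have h2 := sum_KK_one_ge h hs θ
  linarith

/-- Donsker-Varadhan in direction `v`. -/
lemma sum_p_key (h : SG μ b) {F : E n → ℝ} {B : ℝ} (hF : Bdd F B)
    {s : ℝ} (hs : 0 < s) (θ v : E n) :
    ⟪v, ∫ x, Gth μ F s θ x • x ∂(tilt μ s θ) - ∫ x, x ∂(tilt μ s θ)⟫_ℝ ≤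
        ell μ F s θ + log (KK μ one s (θ + v) / KK μ one s θ)
          + log (KK μ one s (θ + -v) / KK μ one s θ) := by
  have := h.prob
  have := tilt_prob h hs θ
  have hGB : Bdd (Gth μ F s θ) (B ^ 2) := Gth_bdd h hF hs θ
  have hG1 : ∫ x, Gth μ F s θ x ∂(tilt μ s θ) = 1 := integral_Gth h hF hs θ
  have hmgf : MgfBd (tilt μ s θ) (∫ x, x ∂(tilt μ s θ)) (1 / s) := tilt_mgf h hs θ
  have hid : Integrable (fun x => x) (tilt μ s θ) := sum_mgf_id (by positivity) hmgf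
  have hGid : Integrable (fun x => Gth μ F s θ x • x) (tilt μ s θ) := sum_Bdd_smul hGB hid
  have hexp : ∀ v : E n, Integrable (fun x => exp ⟪v, x⟫_ℝ) (tilt μ s θ) :=
    fun v => sum_exp_integrable_tilt h hs θ v
  have hlin := sum_inner_integrable hexp v
  have h1 := dv (tilt μ s θ) (G := Gth μ F s θ) (T := fun x => ⟪v, x⟫_ℝ) (sum_Bdd_pos hGB) hG1
    (sum_Bdd_integrable hGB _) (sum_Bdd_integrable_log hGB _) (sum_Bdd_mul hGB hlin) (hexp v)
  have h2 := dv (tilt μ s θ) (G := fun _ => 1) (T := fun x => ⟪-v, x⟫_ℝ)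
    (fun _ => one_pos) (by simp) (integrable_const _) (by simp)
    (by simpa using sum_inner_integrable hexp (-v)) (hexp (-v))
  simp only [one_mul, log_one, mul_zero, integral_zero, zero_add] at h2
  rw [sum_integral_exp_tilt h hs] at h1 h2
  have h3 : ∫ x, Gth μ F s θ x * ⟪v, x⟫_ℝ ∂(tilt μ s θ)
      = ⟪v, ∫ x, Gth μ F s θ x • x ∂(tilt μ s θ)⟫_ℝ := by
    rw [← integral_inner hGid]
    refine integral_congr_ae (ae_of_all _ fun x => ?_)
    simp only [inner_smul_right]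
  have h4 : ∫ x, ⟪-v, x⟫_ℝ ∂(tilt μ s θ) = -⟪v, ∫ x, x ∂(tilt μ s θ)⟫_ℝ := by
    rw [integral_inner hid, inner_neg_left]
  rw [h3] at h1
  rw [h4] at h2
  rw [inner_sub_right]
  have h5 : ell μ F s θ = ∫ x, Gth μ F s θ x * log (Gth μ F s θ x) ∂(tilt μ s θ) := rfl
  linarith

/-- Blueprint section 4 (Donsker-Varadhan at θ, `dv` twice). -/
theorem p_bound (h : SG μ b) {F : E n → ℝ} {B : ℝ} (hF : Bdd F B) (_hF1 : ∫ x, F x ∂μ = 1)
    {s : ℝ} (hs : 0 < s) (θ : E n) :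
    ‖∫ x, Gth μ F s θ x • x ∂(tilt μ s θ) - ∫ x, x ∂(tilt μ s θ)‖ ^ 2
      ≤ 8 * b * (ell μ F s θ + 2 * b * ‖θ‖ ^ 2 + s * ∫ x, ‖x‖ ^ 2 ∂μ) := by
  refine sum_p_alg h.pos θ _ fun v => ?_
  have h0 := sum_p_key h hF hs θ v
  have h1 := sum_logK_le h hs θ (θ + v)
  have h2 := sum_logK_le h hs θ (θ + -v)
  linarith

lemma sum_gauss_log (h : SG μ b) :
    Integrable (fun x : E n => exp (1 / (8 * b) * ‖x‖ ^ 2)) μ ∧
      log (∫ x : E n, exp (1 / (8 * b) * ‖x‖ ^ 2) ∂μ) ≤ n / 2 := by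
  have := h.prob
  have hb := h.pos
  have hc0 : 0 < 1 / (8 * b) := by positivity
  have hc : 4 * (1 / (8 * b)) * b < 1 := by
    have : 4 * (1 / (8 * b)) * b = 1 / 2 := by field_simp; norm_num
    rw [this]; norm_num
  obtain ⟨h1, h2⟩ := gauss_moment μ (X := fun x => x) measurable_id hb h.int h.bd hc0 hc
  refine ⟨h1, ?_⟩
  have hpos : 0 < ∫ x : E n, exp (1 / (8 * b) * ‖x‖ ^ 2) ∂μ :=
    integral_exp_pos h1
  have h3 : 4 * (1 / (8 * b)) * b = 1 / 2 := by field_simp; norm_num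
  rw [h3] at h2
  have h4 := log_le_log hpos h2
  refine h4.trans ?_
  rw [Real.log_rpow (by norm_num)]
  have h5 : log (1 - 1 / 2 : ℝ) = -log 2 := by
    rw [← log_inv]; norm_num
  rw [h5]
  have h6 : log 2 ≤ 1 := by
    have := Real.log_two_lt_d9
    linarith
  have h7 : (0 : ℝ) ≤ n := Nat.cast_nonneg n
  nlinarith

/-- from `gauss_moment` (S = b, c = 1/(8b)), `dv` -/
theorem F_sq_moment (h : SG μ b) {F : E n → ℝ} {B : ℝ} (hF : Bdd F B) (hF1 : ∫ x, F x ∂μ = 1) :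
    ∫ x, F x * ‖x‖ ^ 2 ∂μ ≤ 8 * b * (∫ x, F x * log (F x) ∂μ + n / 2) := by
  have := h.prob
  have hb := h.pos
  obtain ⟨h1, h2⟩ := sum_gauss_log h
  have hsq := sum_integrable_sq h
  have hd := dv μ (G := F) (T := fun x => 1 / (8 * b) * ‖x‖ ^ 2) (sum_Bdd_pos hF) hF1
    (sum_Bdd_integrable hF μ) (sum_Bdd_integrable_log hF μ)
    (sum_Bdd_mul hF (hsq.const_mul _)) h1
  have h3 : ∫ x, F x * (1 / (8 * b) * ‖x‖ ^ 2) ∂μ = 1 / (8 * b) * ∫ x, F x * ‖x‖ ^ 2 ∂μ := by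
    rw [← integral_const_mul]
    refine integral_congr_ae (ae_of_all _ fun x => ?_)
    simp only
    ring
  rw [h3] at hd
  have h4 : 1 / (8 * b) * ∫ x, F x * ‖x‖ ^ 2 ∂μ ≤ ∫ x, F x * log (F x) ∂μ + n / 2 := by linarith
  have h8 : 0 < 8 * b := by positivity
  have h5 := mul_le_mul_of_nonneg_left h4 h8.le
  have h6 : 8 * b * (1 / (8 * b) * ∫ x, F x * ‖x‖ ^ 2 ∂μ) = ∫ x, F x * ‖x‖ ^ 2 ∂μ := by
    field_simp
  linarith

lemma sum_Bdd_one : Bdd (one : E n → ℝ) 1 where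
  meas := measurable_const
  one_le := le_rfl
  lo _ := by simp [one]
  hi _ := by simp [one]

theorem tau_le (h : SG μ b) : ∫ x, ‖x‖ ^ 2 ∂μ ≤ 4 * b * n := by
  have := h.prob
  have h1 := F_sq_moment h (F := one) sum_Bdd_one (by simp [one])
  simp only [one, one_mul, log_one, mul_zero, integral_zero, zero_add] at h1
  linarith

/-- One step of the telescoping sum (blueprint section 5). -/
theorem sum_WW_step (h : SG μ b) {F : E n → ℝ} {B : ℝ} (hF : Bdd F B) (hF1 : ∫ x, F x ∂μ = 1)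
    {s d : ℝ} (hs : 0 < s) (hd : 0 < d) (hd' : d ≤ s / 8) :
    WW μ F (s + d) ≤ WW μ F s + exp (2 * (1 / s) * n * d) *
      (d * (8 * b * ((∫ x, F x * log (F x) ∂μ)
        + 32 * b ^ 2 * s ^ 2 * ((∫ x, F x * log (F x) ∂μ) + n / 2) + 12 * b * n * s))
        + 128 * (B ^ 2) ^ 2 * (1 / s) ^ 2 * 2 ^ ((n : ℝ) / 2) * d ^ 2) := by
  have := h.prob
  have hb := h.pos
  obtain ⟨hint, hchain⟩ := chain h hF hs hd
  obtain ⟨i1, e1⟩ := mix_total h hF.meas hF.abs_le hs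
  obtain ⟨i2, e2⟩ := ell_identity h hF hs
  obtain ⟨i3, e3⟩ := mix_sq h hF hs
  have hww := WW_nonneg h hF hF1 hs
  have hY := F_sq_moment h hF hF1
  have hτ := tau_le (n := n) h
  have hsq := sum_integrable_sq h
  rw [hF1] at e1
  generalize hE : exp (2 * (1 / s) * n * d) = Ex at *
  have hE0 : 0 < Ex := by rw [← hE]; exact exp_pos _
  generalize hC : 128 * (B ^ 2) ^ 2 * (1 / s) ^ 2 * 2 ^ ((n : ℝ) / 2) = C at *
  have hX : ∫ x, F x * (2 * s ^ 2 * ‖x‖ ^ 2 + 4 * s * n) ∂μ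
      = 2 * s ^ 2 * (∫ x, F x * ‖x‖ ^ 2 ∂μ) + 4 * s * n := by
    have e : ∀ x : E n, F x * (2 * s ^ 2 * ‖x‖ ^ 2 + 4 * s * n)
        = 2 * s ^ 2 * (F x * ‖x‖ ^ 2) + 4 * s * n * F x := fun x => by ring
    simp_rw [e]
    rw [integral_add ((sum_Bdd_mul hF hsq).const_mul _) ((sum_Bdd_integrable hF μ).const_mul _),
      integral_const_mul, integral_const_mul, hF1]
    ring
  rw [hX] at e3
  have hS : 0 < 1 / s := by positivity
  have hδ' : d ≤ 1 / (8 * (1 / s)) := by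
    have : 1 / (8 * (1 / s)) = s / 8 := by field_simp
    linarith
  have hpt : ∀ θ : E n, gk s θ * KK μ F s θ * WW (tilt μ s θ) (Gth μ F s θ) d ≤
      (Ex * d * (8 * b)) * (gk s θ * KK μ F s θ * ell μ F s θ)
      + (Ex * d * (8 * b) * (2 * b)) * (gk s θ * KK μ F s θ * ‖θ‖ ^ 2)
      + (Ex * d * (8 * b) * (s * ∫ x, ‖x‖ ^ 2 ∂μ) + Ex * C * d ^ 2) * (gk s θ * KK μ F s θ) := by
    intro θ
    have := tilt_prob h hs θ
    have h1 := oneStep (tilt μ s θ) hS (tilt_mgf h hs θ) rfl (Gth_bdd h hF hs θ)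
      (integral_Gth h hF hs θ) hd hδ'
    rw [hE, hC] at h1
    have h2 := p_bound h hF hF1 hs θ
    have hΦ : 0 ≤ gk s θ * KK μ F s θ := (mul_pos (gk_pos hs θ) (KK_pos h hF hs θ)).le
    have h3 : WW (tilt μ s θ) (Gth μ F s θ) d ≤ Ex * (d * (8 * b *
        (ell μ F s θ + 2 * b * ‖θ‖ ^ 2 + s * ∫ x, ‖x‖ ^ 2 ∂μ)) + C * d ^ 2) := by
      refine h1.trans (mul_le_mul_of_nonneg_left ?_ hE0.le)
      have := mul_le_mul_of_nonneg_left h2 hd.le
      linarith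
    calc gk s θ * KK μ F s θ * WW (tilt μ s θ) (Gth μ F s θ) d
        ≤ gk s θ * KK μ F s θ * (Ex * (d * (8 * b *
          (ell μ F s θ + 2 * b * ‖θ‖ ^ 2 + s * ∫ x, ‖x‖ ^ 2 ∂μ)) + C * d ^ 2)) :=
          mul_le_mul_of_nonneg_left h3 hΦ
      _ = _ := by ring
  have j12 : Integrable (fun θ : E n =>
      (Ex * d * (8 * b)) * (gk s θ * KK μ F s θ * ell μ F s θ)
      + (Ex * d * (8 * b) * (2 * b)) * (gk s θ * KK μ F s θ * ‖θ‖ ^ 2)) :=
    (i2.const_mul _).add (i3.const_mul _)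
  have j123 : Integrable (fun θ : E n =>
      (Ex * d * (8 * b)) * (gk s θ * KK μ F s θ * ell μ F s θ)
      + (Ex * d * (8 * b) * (2 * b)) * (gk s θ * KK μ F s θ * ‖θ‖ ^ 2)
      + (Ex * d * (8 * b) * (s * ∫ x, ‖x‖ ^ 2 ∂μ) + Ex * C * d ^ 2) * (gk s θ * KK μ F s θ)) :=
    j12.add (i1.const_mul _)
  have hmono := integral_mono hint j123 hpt
  rw [integral_add j12 (i1.const_mul _), integral_add (i2.const_mul _) (i3.const_mul _),
    integral_const_mul, integral_const_mul, integral_const_mul, e2, e1] at hmono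
  rw [hchain]
  have ha1 : 0 ≤ Ex * d * (8 * b) := by positivity
  have hbr : (∫ x, F x * log (F x) ∂μ) - WW μ F s
      + 2 * b * (∫ θ, gk s θ * KK μ F s θ * ‖θ‖ ^ 2) + s * ∫ x, ‖x‖ ^ 2 ∂μ
      ≤ (∫ x, F x * log (F x) ∂μ)
        + 32 * b ^ 2 * s ^ 2 * ((∫ x, F x * log (F x) ∂μ) + n / 2) + 12 * b * n * s := by
    have h1 : 2 * b * (∫ θ, gk s θ * KK μ F s θ * ‖θ‖ ^ 2)
        ≤ 2 * b * (2 * s ^ 2 * (8 * b * ((∫ x, F x * log (F x) ∂μ) + n / 2)) + 4 * s * n) := by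
      apply mul_le_mul_of_nonneg_left _ (by positivity)
      refine e3.trans ?_
      have := mul_le_mul_of_nonneg_left hY (by positivity : (0 : ℝ) ≤ 2 * s ^ 2)
      linarith
    have h2 := mul_le_mul_of_nonneg_left hτ hs.le
    have h3 : 2 * b * (2 * s ^ 2 * (8 * b * ((∫ x, F x * log (F x) ∂μ) + n / 2)) + 4 * s * n)
        = 32 * b ^ 2 * s ^ 2 * ((∫ x, F x * log (F x) ∂μ) + n / 2) + 8 * b * n * s := by ring
    have h4 : s * (4 * b * n) = 4 * b * n * s := by ring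
    linarith
  have h5 := mul_le_mul_of_nonneg_left hbr ha1
  have h6 : Ex * (d * (8 * b * ((∫ x, F x * log (F x) ∂μ)
        + 32 * b ^ 2 * s ^ 2 * ((∫ x, F x * log (F x) ∂μ) + n / 2) + 12 * b * n * s))
        + C * d ^ 2) = Ex * d * (8 * b) * ((∫ x, F x * log (F x) ∂μ)
        + 32 * b ^ 2 * s ^ 2 * ((∫ x, F x * log (F x) ∂μ) + n / 2) + 12 * b * n * s)
        + Ex * C * d ^ 2 := by ring
  rw [h6]
  nlinarith

end Sum

/-- Abstract telescoping. -/
lemma sum_telescope (u : ℝ → ℝ) {s1 s2 A κ C : ℝ} (hs1 : 0 < s1) (h12 : s1 < s2)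
    (hstep : ∀ s d, s1 ≤ s → 0 < d → d ≤ s1 / 8 → s + d ≤ s2 →
      u (s + d) ≤ u s + exp (κ * d) * (d * A + C * d ^ 2)) :
    u s2 ≤ u s1 + (s2 - s1) * A := by
  have hlen : 0 < s2 - s1 := by linarith
  set g : ℝ → ℝ := fun x => u s1 + exp (κ * x) * ((s2 - s1) * A + C * (s2 - s1) * x) with hg
  have hgc : Continuous g := by rw [hg]; fun_prop
  have hg0 : g 0 = u s1 + (s2 - s1) * A := by simp [hg]
  have htend : Filter.Tendsto (fun N : ℕ => (s2 - s1) / ((N : ℝ) + 1)) Filter.atTop (nhds 0) := by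
    have := tendsto_one_div_add_atTop_nhds_zero_nat (𝕜 := ℝ)
    have h2 := this.const_mul (s2 - s1)
    simp only [mul_zero] at h2
    refine h2.congr fun N => ?_
    ring
  have hlim : Filter.Tendsto (fun N : ℕ => g ((s2 - s1) / ((N : ℝ) + 1))) Filter.atTop
      (nhds (g 0)) := (hgc.tendsto 0).comp htend
  rw [← hg0]
  refine ge_of_tendsto hlim ?_
  have hev : ∀ᶠ N : ℕ in Filter.atTop, (s2 - s1) / ((N : ℝ) + 1) < s1 / 8 :=
    htend.eventually (gt_mem_nhds (by positivity))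
  filter_upwards [hev] with N hN
  set d := (s2 - s1) / ((N : ℝ) + 1) with hd
  have hN1 : (0 : ℝ) < (N : ℝ) + 1 := by positivity
  have hd0 : 0 < d := div_pos hlen hN1
  have hdN : ((N : ℝ) + 1) * d = s2 - s1 := by rw [hd]; field_simp
  have hind : ∀ k : ℕ, k ≤ N + 1 → u (s1 + k * d) ≤ u s1 + k * (exp (κ * d) * (d * A + C * d ^ 2)) := by
    intro k
    induction k with
    | zero => intro _; simp
    | succ k ih =>
      intro hk
      have hk' : (k : ℝ) + 1 ≤ (N : ℝ) + 1 := by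
        have : ((k + 1 : ℕ) : ℝ) ≤ ((N + 1 : ℕ) : ℝ) := by exact_mod_cast hk
        push_cast at this; exact this
      have hk0 : (0 : ℝ) ≤ k := Nat.cast_nonneg k
      have h1 := ih (by omega)
      have h2 := hstep (s1 + k * d) d (by nlinarith) hd0 hN.le (by nlinarith)
      have h3 : s1 + (k + 1 : ℕ) * d = s1 + k * d + d := by push_cast; ring
      rw [h3]
      push_cast
      linarith
  have hfin := hind (N + 1) le_rfl
  have h4 : s1 + ((N + 1 : ℕ) : ℝ) * d = s2 := by push_cast; linarith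
  rw [h4] at hfin
  refine hfin.trans (le_of_eq ?_)
  simp only [hg]
  push_cast
  have h5 : ((N : ℝ) + 1) * (d * A + C * d ^ 2) = (s2 - s1) * A + C * (s2 - s1) * d := by
    calc ((N : ℝ) + 1) * (d * A + C * d ^ 2) = (((N : ℝ) + 1) * d) * A + C * (((N : ℝ) + 1) * d) * d := by ring
      _ = _ := by rw [hdN]
  rw [← h5]
  ring

section Sum2
variable {μ : Measure (E n)} {b : ℝ}

/-- Blueprint section 5. -/
theorem WW_le (h : SG μ b) {F : E n → ℝ} {B : ℝ} (hF : Bdd F B) (hF1 : ∫ x, F x ∂μ = 1)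
    {s : ℝ} (hs : 0 < s) :
    WW μ F s ≤ s * (8 * b * ((∫ x, F x * log (F x) ∂μ)
      + 32 * b ^ 2 * s ^ 2 * ((∫ x, F x * log (F x) ∂μ) + n / 2) + 12 * b * n * s)) := by
  have := h.prob
  have hb := h.pos
  have hL0 := sum_L_nonneg hF hF1
  generalize hL : ∫ x, F x * log (F x) ∂μ = L at *
  have hn0 : (0 : ℝ) ≤ n := Nat.cast_nonneg n
  set A : ℝ → ℝ := fun s => 8 * b * (L + 32 * b ^ 2 * s ^ 2 * (L + n / 2) + 12 * b * n * s) with hA
  have hA0 : ∀ s, 0 ≤ s → 0 ≤ A s := by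
    intro s hs
    simp only [hA]
    positivity
  have hAm : ∀ s s', 0 ≤ s → s ≤ s' → A s ≤ A s' := by
    intro s s' hs hss
    simp only [hA]
    have h1 : s ^ 2 ≤ s' ^ 2 := by nlinarith
    gcongr
  have hB2 : 0 < B := lt_of_lt_of_le one_pos hF.one_le
  -- the telescoping bound for a fixed small starting point
  have htel : ∀ s1, 0 < s1 → s1 < s → WW μ F s ≤ WW μ F s1 + (s - s1) * A s := by
    intro s1 hs1 hlt
    refine sum_telescope (WW μ F) (κ := 2 * (1 / s1) * n)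
      (C := 128 * (B ^ 2) ^ 2 * (1 / s1) ^ 2 * 2 ^ ((n : ℝ) / 2)) hs1 hlt ?_
    intro t d ht hd hd' hts
    have ht0 : 0 < t := lt_of_lt_of_le hs1 ht
    have hd'' : d ≤ t / 8 := by linarith
    have h1 := sum_WW_step h hF hF1 ht0 hd hd''
    rw [hL] at h1
    refine h1.trans ?_
    have hinv : 1 / t ≤ 1 / s1 := one_div_le_one_div_of_le hs1 ht
    have hE : exp (2 * (1 / t) * n * d) ≤ exp (2 * (1 / s1) * n * d) := by
      apply exp_le_exp.mpr
      gcongr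
    have hAt : A t ≤ A s := hAm t s ht0.le (by linarith)
    have hA0t := hA0 t ht0.le
    have hC : 128 * (B ^ 2) ^ 2 * (1 / t) ^ 2 * 2 ^ ((n : ℝ) / 2) * d ^ 2
        ≤ 128 * (B ^ 2) ^ 2 * (1 / s1) ^ 2 * 2 ^ ((n : ℝ) / 2) * d ^ 2 := by
      gcongr
    have h2 : d * A t ≤ d * A s := mul_le_mul_of_nonneg_left hAt hd.le
    have hnn : 0 ≤ d * A t + 128 * (B ^ 2) ^ 2 * (1 / t) ^ 2 * 2 ^ ((n : ℝ) / 2) * d ^ 2 := by
      positivity
    have h3 := mul_le_mul hE (add_le_add h2 hC) hnn (exp_pos _).le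
    simp only [hA] at h3 ⊢
    simpa using add_le_add_right h3 (WW μ F t)
  -- the start: small `s1`
  have hstart : ∀ s1, 0 < s1 → s1 ≤ 1 / (8 * b) → WW μ F s1 ≤ exp (2 * b * n * s1) *
      (s1 * ‖∫ x, F x • x ∂μ - 0‖ ^ 2 + 128 * B ^ 2 * b ^ 2 * 2 ^ ((n : ℝ) / 2) * s1 ^ 2) := by
    intro s1 hs1 hle
    exact oneStep μ hb (sum_SG_mgf h) h.centered hF hF1 hs1 hle
  set G : ℝ → ℝ := fun s1 => exp (2 * b * n * s1) *
      (s1 * ‖∫ x, F x • x ∂μ - 0‖ ^ 2 + 128 * B ^ 2 * b ^ 2 * 2 ^ ((n : ℝ) / 2) * s1 ^ 2)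
      + (s - s1) * A s with hG
  have hGc : Continuous G := by rw [hG]; fun_prop
  have hG0 : G 0 = s * A s := by simp [hG]
  show WW μ F s ≤ s * A s
  rw [← hG0]
  have hlim : Filter.Tendsto G (nhdsWithin 0 (Set.Ioi 0)) (nhds (G 0)) :=
    tendsto_nhdsWithin_of_tendsto_nhds (hGc.tendsto 0)
  refine ge_of_tendsto hlim ?_
  have hpos : 0 < min s (1 / (8 * b)) := lt_min hs (by positivity)
  filter_upwards [Ioo_mem_nhdsGT hpos] with s1 hs1
  have h1 := htel s1 hs1.1 (lt_of_lt_of_le hs1.2 (min_le_left _ _))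
  have h2 := hstart s1 hs1.1 ((hs1.2.le).trans (min_le_right _ _))
  simp only [hG]
  linarith

end Sum2

end Vale.Agent.Lib.P245
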