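import Vale.Agent.Lib.P245.Gauss

/-!
# P245: tilted measures, basic facts
-/

open MeasureTheory Real
open scoped InnerProductSpace

namespace Vale.Agent.Lib.P245

variable {n : ℕ}

lemma wt_pos (s : ℝ) (θ x : E n) : 0 < wt s θ x := exp_pos _

lemma continuous_wt (s : ℝ) : Continuous fun p : E n × E n => wt s p.1 p.2 := by
  unfold wt
  fun_prop

lemma measurable_wt (s : ℝ) : Measurable fun p : E n × E n => wt s p.1 p.2 :=
  (continuous_wt s).measurable

lemma measurable_wt_right (s : ℝ) (θ : E n) : Measurable fun x : E n => wt s θ x :=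
  (measurable_wt s).comp (measurable_const.prodMk measurable_id)

lemma wt_mul (s δ : ℝ) (θ y x : E n) : wt δ y x * wt s θ x = wt (s + δ) (θ + y) x := by
  unfold wt
  rw [← exp_add, inner_add_left]
  congr 1
  ring

lemma wt_add_left (s : ℝ) (θ v x : E n) : exp ⟪v, x⟫_ℝ * wt s θ x = wt s (θ + v) x := by
  unfold wt
  rw [← exp_add, inner_add_left]
  congr 1
  ring

lemma wt_le_exp_inner {s : ℝ} (hs : 0 ≤ s) (θ x : E n) : wt s θ x ≤ exp ⟪θ, x⟫_ℝ := by
  unfold wt
  apply exp_le_exp.mpr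
  have : 0 ≤ s * ‖x‖ ^ 2 / 2 := by positivity
  linarith

lemma wt_sq_le {s : ℝ} (hs : 0 < s) (θ x : E n) :
    (1 + ‖x‖ ^ 2) * wt s θ x ≤ (1 + 4 / s) * exp (‖θ‖ ^ 2 / s) := by
  have h1 : ⟪θ, x⟫_ℝ - s * ‖x‖ ^ 2 / 4 ≤ ‖θ‖ ^ 2 / s := by
    have h2 : ⟪θ, x⟫_ℝ ≤ ‖θ‖ * ‖x‖ := real_inner_le_norm θ x
    have h3 : ‖θ‖ * ‖x‖ - s * ‖x‖ ^ 2 / 4 ≤ ‖θ‖ ^ 2 / s := by
      rw [le_div_iff₀ hs]
      nlinarith [sq_nonneg (‖θ‖ - s * ‖x‖ / 2)]
    linarith
  have e : wt s θ x = exp (⟪θ, x⟫_ℝ - s * ‖x‖ ^ 2 / 4) * exp (-(s * ‖x‖ ^ 2 / 4)) := by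
    unfold wt
    rw [← exp_add]
    congr 1
    ring
  have h4 : (1 + ‖x‖ ^ 2) * exp (-(s * ‖x‖ ^ 2 / 4)) ≤ 1 + 4 / s := by
    have h5 : s * ‖x‖ ^ 2 / 4 + 1 ≤ exp (s * ‖x‖ ^ 2 / 4) := add_one_le_exp _
    have h6 : exp (-(s * ‖x‖ ^ 2 / 4)) = (exp (s * ‖x‖ ^ 2 / 4))⁻¹ := exp_neg _
    rw [h6, ← div_eq_mul_inv, div_le_iff₀ (exp_pos _)]
    have h7 : 0 ≤ s * ‖x‖ ^ 2 / 4 := by positivity
    have h8 : (1 + 4 / s) * (s * ‖x‖ ^ 2 / 4 + 1) = 1 + ‖x‖ ^ 2 + (s * ‖x‖ ^ 2 / 4 + 4 / s) := by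
      field_simp
      ring
    have h9 : 0 ≤ 4 / s := by positivity
    have h10 : 0 < 1 + 4 / s := by linarith
    calc 1 + ‖x‖ ^ 2 ≤ (1 + 4 / s) * (s * ‖x‖ ^ 2 / 4 + 1) := by rw [h8]; linarith
      _ ≤ (1 + 4 / s) * exp (s * ‖x‖ ^ 2 / 4) := by gcongr
  rw [e]
  calc (1 + ‖x‖ ^ 2) * (exp (⟪θ, x⟫_ℝ - s * ‖x‖ ^ 2 / 4) * exp (-(s * ‖x‖ ^ 2 / 4)))
      = exp (⟪θ, x⟫_ℝ - s * ‖x‖ ^ 2 / 4) * ((1 + ‖x‖ ^ 2) * exp (-(s * ‖x‖ ^ 2 / 4))) := by ring
    _ ≤ exp (‖θ‖ ^ 2 / s) * (1 + 4 / s) := by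
        apply mul_le_mul (exp_le_exp.mpr h1) h4 (by positivity) (exp_pos _).le
    _ = (1 + 4 / s) * exp (‖θ‖ ^ 2 / s) := by ring

lemma wt_le {s : ℝ} (hs : 0 < s) (θ x : E n) : wt s θ x ≤ (1 + 4 / s) * exp (‖θ‖ ^ 2 / s) := by
  refine le_trans ?_ (wt_sq_le hs θ x)
  have := wt_pos s θ x
  nlinarith [sq_nonneg ‖x‖]

section
variable {μ : Measure (E n)} [IsFiniteMeasure μ]

/-- Functions of at most quadratic growth are integrable against the weight. -/
lemma integrable_mul_wt {H : E n → ℝ} (hH : Measurable H) {C : ℝ}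
    (hC : ∀ x, |H x| ≤ C * (1 + ‖x‖ ^ 2)) {s : ℝ} (hs : 0 < s) (θ : E n) :
    Integrable (fun x => H x * wt s θ x) μ := by
  refine Integrable.of_bound (hH.mul (measurable_wt_right s θ)).aestronglyMeasurable
    (C * ((1 + 4 / s) * exp (‖θ‖ ^ 2 / s))) (Filter.Eventually.of_forall fun x => ?_)
  rw [Real.norm_eq_abs, abs_mul, abs_of_pos (wt_pos s θ x)]
  have h0 : 0 ≤ C := by
    have := (abs_nonneg _).trans (hC 0)
    simpa using this
  calc |H x| * wt s θ x ≤ C * (1 + ‖x‖ ^ 2) * wt s θ x := by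
        gcongr
        · exact (wt_pos s θ x).le
        · exact hC x
    _ = C * ((1 + ‖x‖ ^ 2) * wt s θ x) := by ring
    _ ≤ C * ((1 + 4 / s) * exp (‖θ‖ ^ 2 / s)) :=
        mul_le_mul_of_nonneg_left (wt_sq_le hs θ x) h0

/-- Bounded functions are integrable against the weight. -/
lemma integrable_bdd_mul_wt {H : E n → ℝ} (hH : Measurable H) {C : ℝ}
    (hC : ∀ x, |H x| ≤ C) {s : ℝ} (hs : 0 < s) (θ : E n) :
    Integrable (fun x => H x * wt s θ x) μ := by
  refine integrable_mul_wt hH (C := C) (fun x => ?_) hs θ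
  have h0 : 0 ≤ C := (abs_nonneg _).trans (hC x)
  calc |H x| ≤ C := hC x
    _ ≤ C * (1 + ‖x‖ ^ 2) := by nlinarith [sq_nonneg ‖x‖]

end

lemma Bdd.abs_le {F : E n → ℝ} {B : ℝ} (hF : Bdd F B) (x : E n) : |F x| ≤ B := by
  have h1 : 0 < B := lt_of_lt_of_le one_pos hF.one_le
  have h2 : 0 < B⁻¹ := inv_pos.mpr h1
  have h3 := hF.lo x
  have h4 := hF.hi x
  rw [abs_of_pos (lt_of_lt_of_le h2 h3)]
  exact h4

lemma Bdd.pos {F : E n → ℝ} {B : ℝ} (hF : Bdd F B) (x : E n) : 0 < F x := by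
  have h1 : 0 < B := lt_of_lt_of_le one_pos hF.one_le
  exact lt_of_lt_of_le (inv_pos.mpr h1) (hF.lo x)

lemma measurable_one : Measurable (one : E n → ℝ) := measurable_const

section Tilt
variable {μ : Measure (E n)} {b : ℝ}

lemma KK_one_pos (h : SG μ b) {s : ℝ} (hs : 0 < s) (θ : E n) : 0 < KK μ one s θ := by
  have := h.prob
  unfold KK
  have hint : Integrable (fun x => one x * wt s θ x) μ :=
    integrable_bdd_mul_wt (C := 1) measurable_one (fun x => by simp [one]) hs θ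
  rw [integral_pos_iff_support_of_nonneg (fun x => by simp only [one, Pi.zero_apply]; exact mul_nonneg zero_le_one (wt_pos s θ x).le) hint]
  have : Function.support (fun x => one x * wt s θ x) = Set.univ := by
    ext x
    simp [one, (wt_pos s θ x).ne']
  rw [this]
  simp

lemma KK_pos (h : SG μ b) {F : E n → ℝ} {B : ℝ} (hF : Bdd F B) {s : ℝ} (hs : 0 < s) (θ : E n) :
    0 < KK μ F s θ := by
  have := h.prob
  unfold KK
  have hint : Integrable (fun x => F x * wt s θ x) μ :=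
    integrable_bdd_mul_wt hF.meas hF.abs_le hs θ
  rw [integral_pos_iff_support_of_nonneg (fun x => by simp only [Pi.zero_apply]; exact mul_nonneg (hF.pos x).le (wt_pos s θ x).le) hint]
  have : Function.support (fun x => F x * wt s θ x) = Set.univ := by
    ext x
    simp [(hF.pos x).ne', (wt_pos s θ x).ne']
  rw [this]
  simp

/-- two-sided bound of the ratio -/
lemma KK_ratio_le (h : SG μ b) {F : E n → ℝ} {B : ℝ} (hF : Bdd F B) {s : ℝ} (hs : 0 < s) (θ : E n) :
    B⁻¹ ≤ KK μ F s θ / KK μ one s θ ∧ KK μ F s θ / KK μ one s θ ≤ B := by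
  have := h.prob
  have hK := KK_one_pos h hs θ
  have hB : 0 < B := lt_of_lt_of_le one_pos hF.one_le
  have i1 : Integrable (fun x => F x * wt s θ x) μ := integrable_bdd_mul_wt hF.meas hF.abs_le hs θ
  have i2 : Integrable (fun x => one x * wt s θ x) μ :=
    integrable_bdd_mul_wt (C := 1) measurable_one (fun x => by simp [one]) hs θ
  constructor
  · rw [le_div_iff₀ hK]
    have : B⁻¹ * KK μ one s θ = ∫ x, B⁻¹ * (one x * wt s θ x) ∂μ := by
      unfold KK
      rw [integral_const_mul]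
    rw [this]
    unfold KK
    apply integral_mono (i2.const_mul _) i1
    intro x
    simp only [one, one_mul]
    exact mul_le_mul_of_nonneg_right (hF.lo x) (wt_pos s θ x).le
  · rw [div_le_iff₀ hK]
    have : B * KK μ one s θ = ∫ x, B * (one x * wt s θ x) ∂μ := by
      unfold KK
      rw [integral_const_mul]
    rw [this]
    unfold KK
    apply integral_mono i1 (i2.const_mul _)
    intro x
    simp only [one, one_mul]
    exact mul_le_mul_of_nonneg_right (hF.hi x) (wt_pos s θ x).le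

lemma abs_log_ratio_le (h : SG μ b) {F : E n → ℝ} {B : ℝ} (hF : Bdd F B) {s : ℝ} (hs : 0 < s)
    (θ : E n) : |log (KK μ F s θ / KK μ one s θ)| ≤ log B := by
  obtain ⟨h1, h2⟩ := KK_ratio_le h hF hs θ
  have hB : 0 < B := lt_of_lt_of_le one_pos hF.one_le
  have hp : 0 < KK μ F s θ / KK μ one s θ := lt_of_lt_of_le (inv_pos.mpr hB) h1
  rw [abs_le]
  constructor
  · have := log_le_log (inv_pos.mpr hB) h1
    rw [log_inv] at this
    linarith
  · exact log_le_log hp h2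

lemma measurable_KK (h : SG μ b) {H : E n → ℝ} (hH : Measurable H) {s : ℝ} :
    Measurable (KK μ H s) := by
  have := h.prob
  unfold KK
  have h1 : Measurable (fun p : E n × E n => H p.2 * wt s p.1 p.2) :=
    (hH.comp measurable_snd).mul (measurable_wt s)
  exact (h1.stronglyMeasurable.integral_prod_right' (ν := μ)).measurable

lemma measurable_log_ratio (h : SG μ b) {F : E n → ℝ} (hF : Measurable F) {s : ℝ} :
    Measurable fun θ : E n => log (KK μ F s θ / KK μ one s θ) :=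
  ((measurable_KK h hF).div (measurable_KK h measurable_one)).log

/-- The density of the tilted measure, in `NNReal` form. -/
lemma tilt_eq (μ : Measure (E n)) (s : ℝ) (θ : E n) :
    tilt μ s θ = μ.withDensity (fun x => ((wt s θ x / KK μ one s θ).toNNReal : ENNReal)) := rfl

lemma measurable_tilt_dens (μ : Measure (E n)) (s : ℝ) (θ : E n) :
    Measurable fun x : E n => (wt s θ x / KK μ one s θ).toNNReal :=
  ((measurable_wt_right s θ).div_const _).real_toNNReal

/-- valid for every `H`. -/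
lemma integral_tilt (h : SG μ b) {s : ℝ} (hs : 0 < s) (θ : E n) (H : E n → ℝ) :
    ∫ x, H x ∂(tilt μ s θ) = KK μ H s θ / KK μ one s θ := by
  have hK := KK_one_pos h hs θ
  rw [tilt_eq, integral_withDensity_eq_integral_smul (measurable_tilt_dens μ s θ)]
  unfold KK at *
  rw [← integral_div]
  apply integral_congr_ae
  filter_upwards with x
  have : 0 ≤ wt s θ x / ∫ x, one x * wt s θ x ∂μ := div_nonneg (wt_pos s θ x).le hK.le
  rw [NNReal.smul_def, Real.coe_toNNReal _ this, smul_eq_mul]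
  ring

lemma integrable_tilt_iff (h : SG μ b) {s : ℝ} (hs : 0 < s) (θ : E n) {H : E n → ℝ} :
    Integrable H (tilt μ s θ) ↔ Integrable (fun x => H x * wt s θ x) μ := by
  have hK := KK_one_pos h hs θ
  rw [tilt_eq, integrable_withDensity_iff_integrable_smul (measurable_tilt_dens μ s θ)]
  have e : (fun x => (wt s θ x / KK μ one s θ).toNNReal • H x)
      = fun x => (KK μ one s θ)⁻¹ * (H x * wt s θ x) := by
    funext x
    have : 0 ≤ wt s θ x / KK μ one s θ := div_nonneg (wt_pos s θ x).le hK.le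
    rw [NNReal.smul_def, Real.coe_toNNReal _ this, smul_eq_mul]
    field_simp
  rw [e]
  constructor
  · intro hi
    have := hi.const_mul (KK μ one s θ)
    refine this.congr (Filter.Eventually.of_forall fun x => ?_)
    simp only
    field_simp
  · intro hi
    exact hi.const_mul _

lemma tilt_prob (h : SG μ b) {s : ℝ} (hs : 0 < s) (θ : E n) :
    IsProbabilityMeasure (tilt μ s θ) := by
  have := h.prob
  have hK := KK_one_pos h hs θ
  constructor
  unfold tilt
  rw [withDensity_apply _ MeasurableSet.univ, Measure.restrict_univ]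
  have hi : Integrable (fun x => wt s θ x / KK μ one s θ) μ := by
    have := (integrable_bdd_mul_wt (μ := μ) (C := 1) measurable_one
      (fun x => by simp [one]) hs θ).div_const (KK μ one s θ)
    refine this.congr (Filter.Eventually.of_forall fun x => ?_)
    simp [one]
  rw [← ofReal_integral_eq_lintegral_ofReal hi
    (Filter.Eventually.of_forall fun x => div_nonneg (wt_pos s θ x).le hK.le)]
  rw [integral_div]
  have e : ∫ x, wt s θ x ∂μ = KK μ one s θ := by
    unfold KK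
    simp [one]
  rw [e, div_self hK.ne', ENNReal.ofReal_one]

lemma KK_tilt (h : SG μ b) {s δ : ℝ} (hs : 0 < s) (θ y : E n) (H : E n → ℝ) :
    KK (tilt μ s θ) H δ y = KK μ H (s + δ) (θ + y) / KK μ one s θ := by
  unfold KK
  rw [show (∫ x, H x * wt δ y x ∂(tilt μ s θ)) = KK μ (fun x => H x * wt δ y x) s θ / KK μ one s θ from
    integral_tilt h hs θ _]
  unfold KK
  congr 1
  apply integral_congr_ae
  filter_upwards with x
  rw [mul_assoc, wt_mul]

lemma Gth_bdd (h : SG μ b) {F : E n → ℝ} {B : ℝ} (hF : Bdd F B) {s : ℝ} (hs : 0 < s) (θ : E n) :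
    Bdd (Gth μ F s θ) (B ^ 2) := by
  obtain ⟨h1, h2⟩ := KK_ratio_le h hF hs θ
  have hB : 0 < B := lt_of_lt_of_le one_pos hF.one_le
  have hp : 0 < KK μ F s θ / KK μ one s θ := lt_of_lt_of_le (inv_pos.mpr hB) h1
  refine ⟨hF.meas.div_const _, ?_, fun x => ?_, fun x => ?_⟩
  · have := hF.one_le
    nlinarith
  · unfold Gth
    rw [le_div_iff₀ hp]
    calc (B ^ 2)⁻¹ * (KK μ F s θ / KK μ one s θ) ≤ (B ^ 2)⁻¹ * B := by
          gcongr
      _ = B⁻¹ := by field_simp
      _ ≤ F x := hF.lo x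
  · unfold Gth
    rw [div_le_iff₀ hp]
    calc F x ≤ B := hF.hi x
      _ = B ^ 2 * B⁻¹ := by field_simp
      _ ≤ B ^ 2 * (KK μ F s θ / KK μ one s θ) := by gcongr

lemma integral_Gth (h : SG μ b) {F : E n → ℝ} {B : ℝ} (hF : Bdd F B) {s : ℝ} (hs : 0 < s)
    (θ : E n) : ∫ x, Gth μ F s θ x ∂(tilt μ s θ) = 1 := by
  obtain ⟨h1, h2⟩ := KK_ratio_le h hF hs θ
  have hB : 0 < B := lt_of_lt_of_le one_pos hF.one_le
  have hp : 0 < KK μ F s θ / KK μ one s θ := lt_of_lt_of_le (inv_pos.mpr hB) h1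
  unfold Gth
  rw [integral_div, integral_tilt h hs θ, div_self hp.ne']

end Tilt

end Vale.Agent.Lib.P245
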