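import Vale.Agent.Lib.P245.Tilt1

/-!
# P245: mixture formulas
-/

open MeasureTheory Real
open scoped InnerProductSpace

namespace Vale.Agent.Lib.P245

variable {n : ℕ}

/-- Jensen for the exponential, by the tangent line. -/
lemma exp_integral_le {Ω : Type*} [MeasurableSpace Ω] {ν : Measure Ω} [IsProbabilityMeasure ν]
    {f : Ω → ℝ} (hf : Integrable f ν) (he : Integrable (fun x => exp (f x)) ν) :
    exp (∫ x, f x ∂ν) ≤ ∫ x, exp (f x) ∂ν := by
  set m := ∫ x, f x ∂ν with hm
  have h1 : ∀ x, exp m * (f x - m + 1) ≤ exp (f x) := by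
    intro x
    have := add_one_le_exp (f x - m)
    calc exp m * (f x - m + 1) ≤ exp m * exp (f x - m) := by gcongr
      _ = exp (f x) := by rw [← exp_add]; congr 1; ring
  have hi : Integrable (fun x => f x - m) ν := hf.sub (integrable_const m)
  have hi2 : Integrable (fun x => f x - m + 1) ν := hi.add (integrable_const 1)
  have h2 : Integrable (fun x => exp m * (f x - m + 1)) ν := hi2.const_mul _
  have h3 := integral_mono h2 he h1
  have h4 : ∫ x, exp m * (f x - m + 1) ∂ν = exp m := by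
    rw [integral_const_mul, integral_add hi (integrable_const 1),
      integral_sub hf (integrable_const m)]
    simp [← hm]
  rw [h4] at h3
  exact h3

section Tilt
variable {μ : Measure (E n)} {b : ℝ}

lemma integrable_exp_tilt (h : SG μ b) {s : ℝ} (hs : 0 < s) (θ v : E n) :
    Integrable (fun x => exp ⟪v, x⟫_ℝ) (tilt μ s θ) := by
  have := h.prob
  rw [integrable_tilt_iff h hs θ]
  have h1 := integrable_bdd_mul_wt (μ := μ) (C := 1) measurable_one
    (fun x => by simp [one]) hs (θ + v)
  refine h1.congr (Filter.Eventually.of_forall fun x => ?_)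
  simp [one, wt_add_left]

lemma integral_exp_tilt (h : SG μ b) {s : ℝ} (hs : 0 < s) (θ v : E n) :
    ∫ x, exp ⟪v, x⟫_ℝ ∂(tilt μ s θ) = KK μ one s (θ + v) / KK μ one s θ := by
  rw [integral_tilt h hs θ]
  congr 1
  unfold KK
  apply integral_congr_ae
  filter_upwards with x
  simp [one, wt_add_left]

lemma integrable_norm_tilt (h : SG μ b) {s : ℝ} (hs : 0 < s) (θ : E n) :
    Integrable (fun x : E n => ‖x‖) (tilt μ s θ) := by
  have := h.prob
  rw [integrable_tilt_iff h hs θ]
  refine integrable_mul_wt (C := 1) measurable_norm (fun x => ?_) hs θ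
  rw [abs_of_nonneg (norm_nonneg x)]
  nlinarith [sq_nonneg (‖x‖ - 1), norm_nonneg x]

lemma integrable_id_tilt (h : SG μ b) {s : ℝ} (hs : 0 < s) (θ : E n) :
    Integrable (fun x : E n => x) (tilt μ s θ) := by
  refine (integrable_norm_tilt h hs θ).mono' measurable_id.aestronglyMeasurable ?_
  exact Filter.Eventually.of_forall fun x => le_refl _

lemma tilt_mgf (h : SG μ b) {s : ℝ} (hs : 0 < s) (θ : E n) :
    MgfBd (tilt μ s θ) (∫ x, x ∂(tilt μ s θ)) (1 / s) := by
  have := tilt_prob h hs θ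
  have hK := KK_one_pos h hs θ
  set a := ∫ x, x ∂(tilt μ s θ) with ha
  have e1 : ∀ v x : E n, exp ⟪v, x - a⟫_ℝ = exp (-⟪v, a⟫_ℝ) * exp ⟪v, x⟫_ℝ := by
    intro v x
    rw [← exp_add, inner_sub_right]
    congr 1
    ring
  refine ⟨fun v => ?_, fun v => ?_⟩
  · simp_rw [e1]
    exact (integrable_exp_tilt h hs θ v).const_mul _
  · simp_rw [e1]
    rw [integral_const_mul, integral_exp_tilt h hs θ v]
    have hid := integrable_id_tilt h hs θ
    have hj : exp (-⟪v, a⟫_ℝ) ≤ KK μ one s (θ - v) / KK μ one s θ := by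
      have h1 : Integrable (fun x : E n => ⟪-v, x⟫_ℝ) (tilt μ s θ) := hid.const_inner (-v)
      have h2 := exp_integral_le h1 (integrable_exp_tilt h hs θ (-v))
      rw [integral_inner hid, ← ha, integral_exp_tilt h hs θ (-v), inner_neg_left,
        ← sub_eq_add_neg] at h2
      exact h2
    have hp : 0 < KK μ one s (θ + v) / KK μ one s θ := by
      exact div_pos (KK_one_pos h hs _) hK
    calc exp (-⟪v, a⟫_ℝ) * (KK μ one s (θ + v) / KK μ one s θ)
        ≤ KK μ one s (θ - v) / KK μ one s θ * (KK μ one s (θ + v) / KK μ one s θ) := by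
          gcongr
      _ = (KK μ one s (θ + v) * KK μ one s (θ - v)) / KK μ one s θ ^ 2 := by
          field_simp
      _ ≤ exp (1 / s * ‖v‖ ^ 2) := by
          rw [div_le_iff₀ (by positivity)]
          have := h.mid s hs θ v
          rw [mul_comm (exp _), show 1 / s * ‖v‖ ^ 2 = ‖v‖ ^ 2 / s by ring]
          exact this

/-- Fubini input: translated Gaussians against a finite signed density. -/
lemma integrable_gk_shift [SFinite μ] {H : E n → ℝ} (hH : Integrable H μ) (hHm : Measurable H)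
    {s : ℝ} (hs : 0 < s) :
    Integrable (fun p : E n × E n => gk s (p.1 - s • p.2) * H p.2) (volume.prod μ) := by
  have hm : Measurable (fun p : E n × E n => gk s (p.1 - s • p.2) * H p.2) := by
    have h1 : Measurable (fun p : E n × E n => p.1 - s • p.2) := by fun_prop
    exact ((continuous_gk s).measurable.comp h1).mul (hHm.comp measurable_snd)
  rw [integrable_prod_iff' hm.aestronglyMeasurable]
  refine ⟨Filter.Eventually.of_forall fun x => ?_, ?_⟩
  · exact ((integrable_gk hs).comp_sub_right (s • x)).mul_const (H x)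
  · have e : ∀ x : E n, ∫ θ : E n, ‖gk s (θ - s • x) * H x‖ = |H x| := by
      intro x
      simp_rw [norm_mul, Real.norm_eq_abs, abs_of_pos (gk_pos hs _)]
      rw [integral_mul_const, integral_sub_right_eq_self (gk s) (s • x), integral_gk hs, one_mul]
    simp_rw [e]
    exact hH.abs

/-- Mixture formula for an integrable density and a bounded test function. -/
lemma mix_formula_gen [SFinite μ] {H : E n → ℝ} (hH : Integrable H μ) (hHm : Measurable H)
    {s : ℝ} (hs : 0 < s)
    {T : E n → E n → ℝ} (hT : Measurable (Function.uncurry T)) {C : ℝ} (hTb : ∀ θ x, |T θ x| ≤ C) :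
    Integrable (fun p : E n × E n => gk s (p.1 - s • p.2) * H p.2 * T p.1 p.2) (volume.prod μ) := by
  have h1 := integrable_gk_shift hH hHm hs
  refine h1.mul_bdd (c := C) hT.aestronglyMeasurable (Filter.Eventually.of_forall fun p => ?_)
  exact hTb _ _

lemma SG.integrable_bdd (h : SG μ b) {H : E n → ℝ} (hH : Measurable H) {C : ℝ}
    (hC : ∀ x, |H x| ≤ C) : Integrable H μ := by
  have := h.prob
  exact Integrable.of_bound hH.aestronglyMeasurable C (Filter.Eventually.of_forall hC)

/-- For bounded `T`: mixture formula (Fubini + gk_tilt + integral_gk). -/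
lemma mix_formula (h : SG μ b) {F : E n → ℝ} (hFm : Measurable F) {B : ℝ}
    (hFb : ∀ x, |F x| ≤ B) {s : ℝ} (hs : 0 < s)
    {T : E n → E n → ℝ} (hT : Measurable (Function.uncurry T)) {C : ℝ} (hTb : ∀ θ x, |T θ x| ≤ C) :
    Integrable (fun θ => gk s θ * ∫ x, F x * wt s θ x * T θ x ∂μ) ∧
    ∫ θ, gk s θ * ∫ x, F x * wt s θ x * T θ x ∂μ
      = ∫ x, F x * (∫ θ, gk s (θ - s • x) * T θ x) ∂μ := by
  have := h.prob
  have hFi := h.integrable_bdd hFm hFb
  have h1 := mix_formula_gen hFi hFm hs hT hTb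
  have e : ∀ θ : E n, gk s θ * ∫ x, F x * wt s θ x * T θ x ∂μ
      = ∫ x, gk s (θ - s • x) * F x * T θ x ∂μ := by
    intro θ
    rw [← integral_const_mul]
    apply integral_congr_ae
    filter_upwards with x
    rw [← gk_tilt hs θ x]
    ring
  simp_rw [e]
  refine ⟨h1.integral_prod_left, ?_⟩
  have hsw := integral_integral_swap (f := fun θ x => gk s (θ - s • x) * F x * T θ x) h1
  rw [hsw]
  apply integral_congr_ae
  filter_upwards with x
  rw [← integral_const_mul]
  apply integral_congr_ae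
  filter_upwards with θ
  ring

/-- Mixture total mass for bounded `H`. -/
lemma mix_total (h : SG μ b) {F : E n → ℝ} (hFm : Measurable F) {B : ℝ}
    (hFb : ∀ x, |F x| ≤ B) {s : ℝ} (hs : 0 < s) :
    Integrable (fun θ => gk s θ * KK μ F s θ) ∧ ∫ θ, gk s θ * KK μ F s θ = ∫ x, F x ∂μ := by
  obtain ⟨h1, h2⟩ := mix_formula h hFm hFb hs (T := fun _ _ => 1) measurable_const
    (C := 1) (fun _ _ => by simp)
  have e0 : ∀ θ : E n, ∫ x, F x * wt s θ x * 1 ∂μ = KK μ F s θ := by
    intro θ
    unfold KK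
    simp
  simp_rw [e0] at h1 h2
  refine ⟨h1, ?_⟩
  have e : ∀ x : E n, ∫ θ : E n, gk s (θ - s • x) * 1 = 1 := by
    intro x
    simp_rw [mul_one]
    rw [integral_sub_right_eq_self (gk s) (s • x), integral_gk hs]
  simp_rw [e, mul_one] at h2
  exact h2

lemma mix_total_one (h : SG μ b) {s : ℝ} (hs : 0 < s) :
    Integrable (fun θ => gk s θ * KK μ one s θ) ∧ ∫ θ, gk s θ * KK μ one s θ = 1 := by
  have := h.prob
  obtain ⟨h1, h2⟩ := mix_total h (F := one) measurable_one (B := 1) (fun x => by simp [one]) hs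
  refine ⟨h1, ?_⟩
  rw [h2]
  simp [one]

/-- Mixture against `K_F` times a bounded function of `θ`. -/
lemma mix_bdd (h : SG μ b) {F : E n → ℝ} {B : ℝ} (hF : Bdd F B) {s : ℝ} (hs : 0 < s)
    {Y : E n → ℝ} (hY : Measurable Y) {C : ℝ} (hYb : ∀ θ, |Y θ| ≤ C) :
    Integrable (fun θ => gk s θ * KK μ F s θ * Y θ) := by
  obtain ⟨h1, -⟩ := mix_total h hF.meas hF.abs_le hs
  exact h1.mul_bdd (c := C) hY.aestronglyMeasurable (Filter.Eventually.of_forall hYb)

lemma integrable_WW_integrand (h : SG μ b) {F : E n → ℝ} {B : ℝ} (hF : Bdd F B) {s : ℝ}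
    (hs : 0 < s) :
    Integrable (fun θ => gk s θ * KK μ F s θ * log (KK μ F s θ / KK μ one s θ)) :=
  mix_bdd h hF hs (measurable_log_ratio h hF.meas) (abs_log_ratio_le h hF hs)

lemma WW_nonneg (h : SG μ b) {F : E n → ℝ} {B : ℝ} (hF : Bdd F B) (hF1 : ∫ x, F x ∂μ = 1)
    {s : ℝ} (hs : 0 < s) : 0 ≤ WW μ F s := by
  obtain ⟨h1, h2⟩ := mix_total h hF.meas hF.abs_le hs
  obtain ⟨h3, h4⟩ := mix_total_one h hs
  have key : ∀ θ : E n, gk s θ * KK μ F s θ - gk s θ * KK μ one s θ ≤
      gk s θ * KK μ F s θ * log (KK μ F s θ / KK μ one s θ) := by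
    intro θ
    have hg := gk_pos hs θ
    have hK := KK_one_pos h hs θ
    have hKF := KK_pos h hF hs θ
    have hlog : 1 - (KK μ F s θ / KK μ one s θ)⁻¹ ≤ log (KK μ F s θ / KK μ one s θ) :=
      one_sub_inv_le_log_of_pos (div_pos hKF hK)
    have e : gk s θ * KK μ F s θ - gk s θ * KK μ one s θ =
        gk s θ * KK μ F s θ * (1 - (KK μ F s θ / KK μ one s θ)⁻¹) := by
      field_simp
    rw [e]
    gcongr
  have h5 : Integrable (fun θ => gk s θ * KK μ F s θ - gk s θ * KK μ one s θ) := h1.sub h3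
  have := integral_mono h5 (integrable_WW_integrand h hF hs) key
  rw [integral_sub h1 h3, h2, h4, hF1] at this
  unfold WW
  linarith

end Tilt

end Vale.Agent.Lib.P245
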