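import Vale.Agent.Lib.P245.Tilt2

/-!
# P245: the chain identity and entropy bookkeeping
-/

open MeasureTheory Real
open scoped InnerProductSpace

namespace Vale.Agent.Lib.P245

variable {n : ℕ}

section Tilt
variable {μ : Measure (E n)} {b : ℝ}

lemma KK_div (μ : Measure (E n)) (H : E n → ℝ) (c s : ℝ) (θ : E n) :
    KK μ (fun x => H x / c) s θ = KK μ H s θ / c := by
  unfold KK
  rw [← integral_div]
  apply integral_congr_ae
  filter_upwards with x
  ring

lemma KK_Gth_log (h : SG μ b) {F : E n → ℝ} {B : ℝ} (hF : Bdd F B)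
    (hFlb : ∀ x, |F x * log (F x)| ≤ B * log B) {s : ℝ} (hs : 0 < s) (θ : E n)
    {M : ℝ} (hM : 0 < M) :
    KK μ (fun x => F x / M * log (F x / M)) s θ
      = (KK μ (fun x => F x * log (F x)) s θ - KK μ F s θ * log M) / M := by
  have := h.prob
  have hFlm : Measurable (fun x => F x * log (F x)) := hF.meas.mul hF.meas.log
  have i1 : Integrable (fun x => F x * log (F x) * wt s θ x) μ :=
    integrable_bdd_mul_wt hFlm hFlb hs θ
  have i2 : Integrable (fun x => F x * wt s θ x) μ :=
    integrable_bdd_mul_wt hF.meas hF.abs_le hs θ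
  unfold KK
  rw [← integral_mul_const, ← integral_sub i1 (i2.mul_const _), ← integral_div]
  apply integral_congr_ae
  filter_upwards with x
  rw [log_div (hF.pos x).ne' hM.ne']
  field_simp

/-- Lemma B: integrating out the last Gaussian step. -/
lemma bridge (h : SG μ b) {F : E n → ℝ} {B : ℝ} (hF : Bdd F B) {s δ : ℝ} (hs : 0 < s)
    (hδ : 0 < δ) (θ : E n) :
    Integrable (fun y => gk δ y * KK μ F (s + δ) (θ + y)) ∧
    ∫ y, gk δ y * KK μ F (s + δ) (θ + y) = KK μ F s θ := by
  have := h.prob
  have hHm : Measurable (fun x => F x * wt s θ x) := hF.meas.mul (measurable_wt_right s θ)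
  have hH : Integrable (fun x => F x * wt s θ x) μ :=
    integrable_bdd_mul_wt hF.meas hF.abs_le hs θ
  have h1 := integrable_gk_shift hH hHm hδ
  have e : ∀ y : E n, gk δ y * KK μ F (s + δ) (θ + y)
      = ∫ x, gk δ (y - δ • x) * (F x * wt s θ x) ∂μ := by
    intro y
    unfold KK
    rw [← integral_const_mul]
    apply integral_congr_ae
    filter_upwards with x
    rw [← wt_mul s δ θ y x, ← gk_tilt hδ y x]
    ring
  simp_rw [e]
  refine ⟨h1.integral_prod_left, ?_⟩
  have hsw := integral_integral_swap (f := fun y x => gk δ (y - δ • x) * (F x * wt s θ x)) h1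
  rw [hsw]
  unfold KK
  apply integral_congr_ae
  filter_upwards with x
  rw [integral_mul_const, integral_sub_right_eq_self (gk δ) (δ • x), integral_gk hδ, one_mul]

/-- The function `Y θ' = K_F(θ') log M(θ')`. -/
noncomputable def YY (μ : Measure (E n)) (F : E n → ℝ) (s : ℝ) (θ : E n) : ℝ :=
  KK μ F s θ * log (KK μ F s θ / KK μ one s θ)

lemma measurable_YY (h : SG μ b) {F : E n → ℝ} (hF : Measurable F) {s : ℝ} :
    Measurable (YY μ F s) :=
  (measurable_KK h hF).mul (measurable_log_ratio h hF)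

/-- Lemma A: the two step integral is the entropy at time `s+δ`. -/
lemma two_step (h : SG μ b) {F : E n → ℝ} {B : ℝ} (hF : Bdd F B) {s δ : ℝ} (hs : 0 < s)
    (hδ : 0 < δ) :
    Integrable (fun θ => gk s θ * ∫ y, gk δ y * YY μ F (s + δ) (θ + y)) ∧
    ∫ θ, gk s θ * ∫ y, gk δ y * YY μ F (s + δ) (θ + y) = WW μ F (s + δ) := by
  have hsd : 0 < s + δ := add_pos hs hδ
  have hYm := measurable_YY h hF.meas (s := s + δ)
  have hint : Integrable (fun θ' => gk (s + δ) θ' * YY μ F (s + δ) θ') := by
    have := integrable_WW_integrand h hF hsd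
    refine this.congr (Filter.Eventually.of_forall fun θ => ?_)
    simp only [YY]
    ring
  -- product integrability
  have hm : Measurable (fun p : E n × E n => gk s p.2 * gk δ (p.1 - p.2) * YY μ F (s + δ) p.1) := by
    have h1 : Measurable (fun p : E n × E n => gk s p.2) :=
      (continuous_gk s).measurable.comp measurable_snd
    have h2 : Measurable (fun p : E n × E n => gk δ (p.1 - p.2)) :=
      (continuous_gk δ).measurable.comp (measurable_fst.sub measurable_snd)
    have h3 : Measurable (fun p : E n × E n => YY μ F (s + δ) p.1) := hYm.comp measurable_fst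
    exact (h1.mul h2).mul h3
  have hP : Integrable (fun p : E n × E n => gk s p.2 * gk δ (p.1 - p.2) * YY μ F (s + δ) p.1)
      (volume.prod volume) := by
    rw [integrable_prod_iff hm.aestronglyMeasurable]
    refine ⟨Filter.Eventually.of_forall fun θ' => ?_, ?_⟩
    · exact (integrable_gk_conv hs hδ θ').mul_const (YY μ F (s + δ) θ')
    · have e : ∀ θ' : E n, ∫ θ : E n, ‖gk s θ * gk δ (θ' - θ) * YY μ F (s + δ) θ'‖
          = ‖gk (s + δ) θ' * YY μ F (s + δ) θ'‖ := by
        intro θ'
        simp_rw [norm_mul, Real.norm_eq_abs, abs_of_pos (gk_pos hs _), abs_of_pos (gk_pos hδ _),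
          abs_of_pos (gk_pos hsd _)]
        rw [integral_mul_const, integral_gk_conv hs hδ]
      simp_rw [e]
      exact hint.norm
  have e1 : ∀ θ : E n, gk s θ * ∫ y, gk δ y * YY μ F (s + δ) (θ + y)
      = ∫ θ', gk s θ * gk δ (θ' - θ) * YY μ F (s + δ) θ' := by
    intro θ
    rw [← integral_const_mul]
    rw [← integral_add_left_eq_self (fun θ' => gk s θ * gk δ (θ' - θ) * YY μ F (s + δ) θ') θ]
    apply integral_congr_ae
    filter_upwards with y
    simp only [add_sub_cancel_left]
    ring
  simp_rw [e1]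
  have hP' : Integrable (Function.uncurry fun θ θ' : E n => gk s θ * gk δ (θ' - θ) * YY μ F (s + δ) θ')
      (volume.prod volume) := by
    have := hP.swap
    refine this.congr (Filter.Eventually.of_forall fun p => ?_)
    simp [Function.uncurry]
  refine ⟨hP'.integral_prod_left, ?_⟩
  rw [integral_integral_swap hP']
  unfold WW
  apply integral_congr_ae
  filter_upwards with θ'
  rw [integral_mul_const, integral_gk_conv hs hδ]
  simp only [YY]
  ring

/-- Lemma C: pointwise form of the step. -/
lemma step_pointwise (h : SG μ b) {F : E n → ℝ} {B : ℝ} (hF : Bdd F B) {s δ : ℝ} (hs : 0 < s)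
    (hδ : 0 < δ) (θ : E n) :
    KK μ F s θ * WW (tilt μ s θ) (Gth μ F s θ) δ
      = (∫ y, gk δ y * YY μ F (s + δ) (θ + y))
          - KK μ F s θ * log (KK μ F s θ / KK μ one s θ) := by
  have hsd : 0 < s + δ := add_pos hs hδ
  have hK := KK_one_pos h hs θ
  have hKF := KK_pos h hF hs θ
  obtain ⟨hb1, hb2⟩ := bridge h hF hs hδ θ
  have hM : 0 < KK μ F s θ / KK μ one s θ := div_pos hKF hK
  -- the two partition functions under the tilt
  have eQ : ∀ y : E n, KK (tilt μ s θ) (Gth μ F s θ) δ y = KK μ F (s + δ) (θ + y) / KK μ F s θ := by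
    intro y
    rw [KK_tilt h hs θ y]
    have : KK μ (Gth μ F s θ) (s + δ) (θ + y)
        = KK μ F (s + δ) (θ + y) / (KK μ F s θ / KK μ one s θ) := KK_div _ _ _ _ _
    rw [this]
    field_simp
  have eR : ∀ y : E n, KK (tilt μ s θ) one δ y = KK μ one (s + δ) (θ + y) / KK μ one s θ := by
    intro y
    rw [KK_tilt h hs θ y]
  have eIntegrand : ∀ y : E n,
      KK μ F s θ * (gk δ y * KK (tilt μ s θ) (Gth μ F s θ) δ y *
        log (KK (tilt μ s θ) (Gth μ F s θ) δ y / KK (tilt μ s θ) one δ y))
      = gk δ y * YY μ F (s + δ) (θ + y)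
        - gk δ y * KK μ F (s + δ) (θ + y) * log (KK μ F s θ / KK μ one s θ) := by
    intro y
    have hK2 := KK_one_pos h hsd (θ + y)
    have hKF2 := KK_pos h hF hsd (θ + y)
    rw [eQ y, eR y]
    have e1 : KK μ F (s + δ) (θ + y) / KK μ F s θ / (KK μ one (s + δ) (θ + y) / KK μ one s θ)
        = (KK μ F (s + δ) (θ + y) / KK μ one (s + δ) (θ + y)) / (KK μ F s θ / KK μ one s θ) := by
      field_simp
    rw [e1, log_div (div_pos hKF2 hK2).ne' hM.ne']
    unfold YY
    field_simp
  unfold WW
  rw [← integral_const_mul]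
  simp_rw [eIntegrand]
  have hi1 : Integrable (fun y => gk δ y * YY μ F (s + δ) (θ + y)) := by
    have h1 : Measurable (fun y : E n => log (KK μ F (s + δ) (θ + y) / KK μ one (s + δ) (θ + y))) :=
      (measurable_log_ratio h hF.meas).comp (measurable_const.add measurable_id)
    have := hb1.mul_bdd (c := log B) h1.aestronglyMeasurable
      (Filter.Eventually.of_forall fun y => abs_log_ratio_le h hF hsd (θ + y))
    refine this.congr (Filter.Eventually.of_forall fun y => ?_)
    simp only [YY]
    ring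
  have hi2 : Integrable (fun y => gk δ y * KK μ F (s + δ) (θ + y) *
      log (KK μ F s θ / KK μ one s θ)) := hb1.mul_const _
  rw [integral_sub hi1 hi2, integral_mul_const, hb2]

/-- The chain rule. -/
theorem chain (h : SG μ b) {F : E n → ℝ} {B : ℝ} (hF : Bdd F B)
    {s δ : ℝ} (hs : 0 < s) (hδ : 0 < δ) :
    Integrable (fun θ => gk s θ * KK μ F s θ * WW (tilt μ s θ) (Gth μ F s θ) δ) ∧
    WW μ F (s + δ) = WW μ F s + ∫ θ, gk s θ * KK μ F s θ * WW (tilt μ s θ) (Gth μ F s θ) δ := by
  obtain ⟨h1, h2⟩ := two_step h hF hs hδ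
  have h3 := integrable_WW_integrand h hF hs
  have e : ∀ θ : E n, gk s θ * KK μ F s θ * WW (tilt μ s θ) (Gth μ F s θ) δ
      = gk s θ * (∫ y, gk δ y * YY μ F (s + δ) (θ + y))
        - gk s θ * KK μ F s θ * log (KK μ F s θ / KK μ one s θ) := by
    intro θ
    rw [mul_assoc, step_pointwise h hF hs hδ θ]
    ring
  simp_rw [e]
  refine ⟨h1.sub h3, ?_⟩
  rw [integral_sub h1 h3, h2]
  unfold WW
  ring

/-- Entropy bookkeeping. -/
theorem ell_identity (h : SG μ b) {F : E n → ℝ} {B : ℝ} (hF : Bdd F B) {s : ℝ} (hs : 0 < s) :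
    Integrable (fun θ => gk s θ * KK μ F s θ * ell μ F s θ) ∧
    ∫ θ, gk s θ * KK μ F s θ * ell μ F s θ = ∫ x, F x * log (F x) ∂μ - WW μ F s := by
  have := h.prob
  have hB : 0 < B := lt_of_lt_of_le one_pos hF.one_le
  have hlogF : ∀ x, |log (F x)| ≤ log B := by
    intro x
    rw [abs_le]
    constructor
    · have := log_le_log (inv_pos.mpr hB) (hF.lo x)
      rw [log_inv] at this
      linarith
    · exact log_le_log (hF.pos x) (hF.hi x)
  have hFlm : Measurable (fun x => F x * log (F x)) := hF.meas.mul hF.meas.log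
  have hFlb : ∀ x, |F x * log (F x)| ≤ B * log B := by
    intro x
    rw [abs_mul]
    exact mul_le_mul (hF.abs_le x) (hlogF x) (abs_nonneg _) hB.le
  obtain ⟨h1, h2⟩ := mix_total h hFlm hFlb hs
  have h3 := integrable_WW_integrand h hF hs
  have e : ∀ θ : E n, gk s θ * KK μ F s θ * ell μ F s θ
      = gk s θ * KK μ (fun x => F x * log (F x)) s θ
        - gk s θ * KK μ F s θ * log (KK μ F s θ / KK μ one s θ) := by
    intro θ
    have hK := KK_one_pos h hs θ
    have hKF := KK_pos h hF hs θ
    have hM : 0 < KK μ F s θ / KK μ one s θ := div_pos hKF hK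
    have e1 : ell μ F s θ = (KK μ (fun x => F x * log (F x)) s θ
        - KK μ F s θ * log (KK μ F s θ / KK μ one s θ)) / KK μ F s θ := by
      unfold ell
      rw [integral_tilt h hs θ]
      have e2 : KK μ (fun x => Gth μ F s θ x * log (Gth μ F s θ x)) s θ
          = (KK μ (fun x => F x * log (F x)) s θ
            - KK μ F s θ * log (KK μ F s θ / KK μ one s θ)) / (KK μ F s θ / KK μ one s θ) :=
        KK_Gth_log h hF hFlb hs θ hM
      rw [e2]
      field_simp
    rw [e1]
    field_simp
  simp_rw [e]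
  refine ⟨h1.sub h3, ?_⟩
  rw [integral_sub h1 h3, h2]
  rfl

end Tilt

end Vale.Agent.Lib.P245
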