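import Vale.Agent.Lib.P245.Tilt3

/-!
# P245: second moments along the mixture
-/

open MeasureTheory Real
open scoped InnerProductSpace

namespace Vale.Agent.Lib.P245

variable {n : ℕ}

section Tilt
variable {μ : Measure (E n)} {b : ℝ}

/-- Gaussian moment of `μ`. -/
lemma SG.gauss (h : SG μ b) :
    Integrable (fun x : E n => exp (1 / (8 * b) * ‖x‖ ^ 2)) μ ∧
      ∫ x : E n, exp (1 / (8 * b) * ‖x‖ ^ 2) ∂μ ≤ exp ((n : ℝ) / 2) := by
  have := h.prob
  have hb := h.pos
  have h1 := gauss_moment (n := n) μ (X := fun x => x) measurable_id hb h.int h.bd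
    (c := 1 / (8 * b)) (by positivity) (by
      have : 4 * (1 / (8 * b)) * b = 1 / 2 := by field_simp; norm_num
      rw [this]; norm_num)
  refine ⟨h1.1, h1.2.trans ?_⟩
  have : 4 * (1 / (8 * b)) * b = 1 / 2 := by field_simp; norm_num
  rw [this]
  have e : (1 - 1 / 2 : ℝ) ^ (-(n : ℝ) / 2) = exp (((n : ℝ) / 2) * log 2) := by
    have e1 : (1 - 1 / 2 : ℝ) = 2⁻¹ := by norm_num
    rw [e1, rpow_def_of_pos (by norm_num), log_inv]
    congr 1
    ring
  rw [e]
  apply exp_le_exp.mpr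
  have := log_two_lt_d9
  have h2 : log 2 ≤ 1 := by linarith
  have h3 : (0 : ℝ) ≤ (n : ℝ) / 2 := by positivity
  nlinarith

lemma SG.integrable_sq (h : SG μ b) : Integrable (fun x : E n => ‖x‖ ^ 2) μ := by
  have := h.prob
  have hb := h.pos
  obtain ⟨h1, -⟩ := h.gauss
  have hc : 0 < 1 / (8 * b) := by positivity
  refine (h1.const_mul (8 * b)).mono' (by fun_prop) (Filter.Eventually.of_forall fun x => ?_)
  rw [Real.norm_eq_abs, abs_of_nonneg (by positivity)]
  have h2 := add_one_le_exp (1 / (8 * b) * ‖x‖ ^ 2)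
  have e : 8 * b * (1 / (8 * b) * ‖x‖ ^ 2) = ‖x‖ ^ 2 := by field_simp
  have h3 : 8 * b * (1 / (8 * b) * ‖x‖ ^ 2 + 1) ≤ 8 * b * exp (1 / (8 * b) * ‖x‖ ^ 2) := by
    gcongr
  rw [mul_add, e] at h3
  nlinarith

lemma integrable_norm_sq_mul_gk {s : ℝ} (hs : 0 < s) (x : E n) :
    Integrable (fun θ : E n => gk s (θ - s • x) * ‖θ‖ ^ 2) ∧
      ∫ θ : E n, gk s (θ - s • x) * ‖θ‖ ^ 2 ≤ 2 * s ^ 2 * ‖x‖ ^ 2 + 4 * s * n := by
  have hb : ∀ y : E n, gk s y * ‖y + s • x‖ ^ 2 ≤ 2 * (gk s y * ‖y‖ ^ 2) + (2 * s ^ 2 * ‖x‖ ^ 2) * gk s y := by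
    intro y
    have h1 := gk_pos hs y
    have h2 : ‖y + s • x‖ ^ 2 ≤ 2 * ‖y‖ ^ 2 + 2 * s ^ 2 * ‖x‖ ^ 2 := by
      have h3 : ‖y + s • x‖ ≤ ‖y‖ + s * ‖x‖ := by
        refine (norm_add_le _ _).trans ?_
        rw [norm_smul, Real.norm_of_nonneg hs.le]
      have h4 : 0 ≤ ‖y + s • x‖ := norm_nonneg _
      nlinarith [sq_nonneg (‖y‖ - s * ‖x‖), norm_nonneg y, norm_nonneg x, mul_nonneg hs.le (norm_nonneg x)]
    calc gk s y * ‖y + s • x‖ ^ 2 ≤ gk s y * (2 * ‖y‖ ^ 2 + 2 * s ^ 2 * ‖x‖ ^ 2) := by gcongr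
      _ = _ := by ring
  have hR : Integrable (fun y : E n => 2 * (gk s y * ‖y‖ ^ 2) + (2 * s ^ 2 * ‖x‖ ^ 2) * gk s y) :=
    ((integrable_gk_mul_sq hs).const_mul 2).add ((integrable_gk hs).const_mul _)
  have hL : Integrable (fun y : E n => gk s y * ‖y + s • x‖ ^ 2) := by
    refine hR.mono' ?_ (Filter.Eventually.of_forall fun y => ?_)
    · have : Continuous (fun y : E n => gk s y * ‖y + s • x‖ ^ 2) :=
        (continuous_gk s).mul (by fun_prop)
      exact this.aestronglyMeasurable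
    · rw [Real.norm_eq_abs, abs_of_nonneg (mul_nonneg (gk_pos hs y).le (by positivity))]
      exact hb y
  have e0 : ∀ θ : E n, gk s (θ - s • x) * ‖θ‖ ^ 2
      = (fun y : E n => gk s y * ‖y + s • x‖ ^ 2) (θ - s • x) := by
    intro θ
    simp
  constructor
  · simp_rw [e0]
    exact hL.comp_sub_right (s • x)
  · simp_rw [e0]
    rw [integral_sub_right_eq_self (fun y : E n => gk s y * ‖y + s • x‖ ^ 2) (s • x)]
    have h5 := integral_mono hL hR hb
    have h6 : ∫ y : E n, (2 * (gk s y * ‖y‖ ^ 2) + (2 * s ^ 2 * ‖x‖ ^ 2) * gk s y)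
        = 2 * (∫ y : E n, gk s y * ‖y‖ ^ 2) + 2 * s ^ 2 * ‖x‖ ^ 2 := by
      rw [integral_add ((integrable_gk_mul_sq hs).const_mul 2) ((integrable_gk hs).const_mul _),
        integral_const_mul, integral_const_mul, integral_gk hs, mul_one]
    rw [h6] at h5
    have h7 := integral_gk_mul_sq_le (n := n) hs
    linarith

/-- Integrating the second moment. -/
theorem mix_sq (h : SG μ b) {F : E n → ℝ} {B : ℝ} (hF : Bdd F B) {s : ℝ} (hs : 0 < s) :
    Integrable (fun θ => gk s θ * KK μ F s θ * ‖θ‖ ^ 2) ∧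
    ∫ θ, gk s θ * KK μ F s θ * ‖θ‖ ^ 2 ≤ ∫ x, F x * (2 * s ^ 2 * ‖x‖ ^ 2 + 4 * s * n) ∂μ := by
  have := h.prob
  have hsq := h.integrable_sq
  have hFi := h.integrable_bdd hF.meas hF.abs_le
  have hBd : Integrable (fun x => F x * (2 * s ^ 2 * ‖x‖ ^ 2 + 4 * s * n)) μ := by
    have h1 : Integrable (fun x : E n => 2 * s ^ 2 * ‖x‖ ^ 2 + 4 * s * n) μ :=
      (hsq.const_mul _).add (integrable_const _)
    exact h1.bdd_mul (c := B) hF.meas.aestronglyMeasurable
      (Filter.Eventually.of_forall hF.abs_le)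
  have hm : Measurable (fun p : E n × E n => gk s (p.1 - s • p.2) * F p.2 * ‖p.1‖ ^ 2) := by
    have h1 : Measurable (fun p : E n × E n => p.1 - s • p.2) := by fun_prop
    exact (((continuous_gk s).measurable.comp h1).mul (hF.meas.comp measurable_snd)).mul
      (by fun_prop)
  have hP : Integrable (fun p : E n × E n => gk s (p.1 - s • p.2) * F p.2 * ‖p.1‖ ^ 2)
      (volume.prod μ) := by
    rw [integrable_prod_iff' hm.aestronglyMeasurable]
    refine ⟨Filter.Eventually.of_forall fun x => ?_, ?_⟩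
    · have := ((integrable_norm_sq_mul_gk hs x).1).const_mul (F x)
      refine this.congr (Filter.Eventually.of_forall fun θ => ?_)
      simp only
      ring
    · refine hBd.mono' ?_ (Filter.Eventually.of_forall fun x => ?_)
      · exact (hm.stronglyMeasurable.norm.integral_prod_left' (μ := volume)).aestronglyMeasurable
      · have hF0 := hF.pos x
        have e : ∀ θ : E n, ‖gk s (θ - s • x) * F x * ‖θ‖ ^ 2‖ = F x * (gk s (θ - s • x) * ‖θ‖ ^ 2) := by
          intro θ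
          rw [Real.norm_eq_abs, abs_of_nonneg (mul_nonneg (mul_nonneg (gk_pos hs _).le hF0.le) (by positivity))]
          ring
        simp_rw [e]
        rw [integral_const_mul, Real.norm_eq_abs, abs_of_nonneg (mul_nonneg hF0.le
          (integral_nonneg fun θ => mul_nonneg (gk_pos hs _).le (by positivity)))]
        exact mul_le_mul_of_nonneg_left (integrable_norm_sq_mul_gk hs x).2 hF0.le
  have e : ∀ θ : E n, gk s θ * KK μ F s θ * ‖θ‖ ^ 2 = ∫ x, gk s (θ - s • x) * F x * ‖θ‖ ^ 2 ∂μ := by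
    intro θ
    unfold KK
    rw [← integral_const_mul, ← integral_mul_const]
    apply integral_congr_ae
    filter_upwards with x
    rw [← gk_tilt hs θ x]
    ring
  simp_rw [e]
  refine ⟨hP.integral_prod_left, ?_⟩
  have hsw := integral_integral_swap (f := fun θ x => gk s (θ - s • x) * F x * ‖θ‖ ^ 2) hP
  rw [hsw]
  have hI : Integrable (fun x => ∫ θ : E n, gk s (θ - s • x) * F x * ‖θ‖ ^ 2) μ :=
    hP.integral_prod_right
  refine integral_mono hI hBd fun x => ?_
  have hF0 := hF.pos x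
  have e2 : ∀ θ : E n, gk s (θ - s • x) * F x * ‖θ‖ ^ 2 = F x * (gk s (θ - s • x) * ‖θ‖ ^ 2) := by
    intro θ
    ring
  simp only
  simp_rw [e2]
  rw [integral_const_mul]
  exact mul_le_mul_of_nonneg_left (integrable_norm_sq_mul_gk hs x).2 hF0.le

end Tilt

end Vale.Agent.Lib.P245
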